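import Vale.Agent.P265.U.Defs

/-!
P265 block U, file ConeF. Near such u: chi = 0 (|sin 2πx + sin 2πy| ≤ 2π/20 + 2π/80 < 1/2), bt = 0, be = 1 (η = 1) or 0 (η = -1), the small bumps vanish and the large bumps are locally constant
(sin² (π/20) + sin² (π/80) < 1/16). So F1 = -PP (1-p) (1-q) + const + sin (2 π s) (η = 1) or PP p q + const + sin (2 π s) (η = -1).
PP_p = 1-3q+q²+2pq, PP_q = 1-3p+p²+2pq are near (1,-1) at (p,q) = (1,0) and near (-1,1) at (0,1); E (sin² π θ) = π θ sin (2 π θ) > 0 for 0 < |θ| ≤ 1/20;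
η (s - s0) cos (2 π s) > 0 for 0 < |s - s0| ≤ 1/16.
-/

namespace Vale.Agent.P265

open scoped ContDiff Quaternion
open Real

theorem coneF_xsin {a : ℝ} (ha : |a| ≤ 1 / 8) : 0 ≤ a * sin (2 * π * a) ∧
    (a ≠ 0 → 0 < a * sin (2 * π * a)) := by
  have key : ∀ b : ℝ, 0 < b → b ≤ 1 / 8 → 0 < b * sin (2 * π * b) := fun b h0 h1 =>
    mul_pos h0 (sin_pos_of_pos_of_lt_pi (by positivity) (by nlinarith [pi_pos]))
  have key2 : a ≠ 0 → 0 < a * sin (2 * π * a) := fun h => by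
    rcases lt_or_gt_of_ne h with h | h
    · have := key (-a) (by linarith) (by linarith [neg_le_of_abs_le ha])
      rw [mul_neg (2 * π), sin_neg] at this
      linarith
    · exact key a h (le_of_abs_le ha)
  refine ⟨?_, key2⟩
  by_cases h : a = 0
  · simp [h]
  · exact (key2 h).le

theorem coneF_sq_le {θ : ℝ} : sin (π * θ) ^ 2 ≤ 10 * θ ^ 2 := by
  have h1 : sin (π * θ) ^ 2 ≤ (π * θ) ^ 2 := sin_sq_le_sq
  have h2 : π ^ 2 ≤ 10 := by nlinarith [pi_lt_d2, pi_pos]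
  nlinarith [sq_nonneg θ]

theorem coneF_dsq (θ : ℝ) :
    HasDerivAt (fun r : ℝ => sin (π * (r * θ)) ^ 2) (π * (θ * sin (2 * π * θ))) 1 := by
  have h1 : HasDerivAt (fun r : ℝ => π * (r * θ)) (π * (1 * θ)) 1 :=
    ((hasDerivAt_id (1 : ℝ)).mul_const θ).const_mul π
  have h2 := h1.sin.pow 2
  refine HasDerivAt.congr_deriv h2 ?_
  rw [mul_assoc 2 π θ, sin_two_mul]
  simp
  ring

theorem coneF_pos {a θ φ : ℝ} (ha : |a| ≤ 1 / 16) (hθ : |θ| ≤ 1 / 20) (hφ : |φ| ≤ 1 / 20)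
    (hne : a ≠ 0 ∨ θ ≠ 0 ∨ φ ≠ 0) (c : ℝ) : ∃ D, 0 < D ∧ HasDerivAt (fun r : ℝ =>
      -PP (sin (π * (r * θ)) ^ 2) (1 - sin (π * (r * φ)) ^ 2) - cos (2 * π * (r * a)) + c) D 1 := by
  have hA := coneF_dsq θ
  have hB := coneF_dsq φ
  have h1 : HasDerivAt (fun r : ℝ => 2 * π * (r * a)) (2 * π * (1 * a)) 1 :=
    ((hasDerivAt_id (1 : ℝ)).mul_const a).const_mul (2 * π)
  have hQ := hB.const_sub 1
  have hP := (((hA.add hQ).sub ((hA.const_mul 3).mul hQ)).add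
    ((hA.mul hQ).mul (hA.add hQ)))
  have hF := ((hP.neg.sub h1.cos).add_const c)
  refine ⟨_, ?_, hF⟩
  simp only [one_mul, Pi.add_apply, Pi.mul_apply]
  obtain ⟨ha0, ha1⟩ := coneF_xsin (a := a) (by linarith)
  obtain ⟨hθ0, hθ1⟩ := coneF_xsin (a := θ) (by linarith)
  obtain ⟨hφ0, hφ1⟩ := coneF_xsin (a := φ) (by linarith)
  have bA : sin (π * θ) ^ 2 ≤ 1 / 40 := by
    have := coneF_sq_le (θ := θ)
    have h2 : θ ^ 2 ≤ (1 / 20) ^ 2 := sq_le_sq' (neg_le_of_abs_le hθ) (le_of_abs_le hθ)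
    linarith
  have bB : sin (π * φ) ^ 2 ≤ 1 / 40 := by
    have := coneF_sq_le (θ := φ)
    have h2 : φ ^ 2 ≤ (1 / 20) ^ 2 := sq_le_sq' (neg_le_of_abs_le hφ) (le_of_abs_le hφ)
    linarith
  have nA := sq_nonneg (sin (π * θ))
  have nB := sq_nonneg (sin (π * φ))
  generalize sin (π * θ) ^ 2 = A at *
  generalize sin (π * φ) ^ 2 = B at *
  generalize θ * sin (2 * π * θ) = X at *
  generalize φ * sin (2 * π * φ) = Y at *
  have c1 : 1 / 2 ≤ 1 - B - B ^ 2 - 2 * A * (1 - B) := by nlinarith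
  have c2 : 1 / 2 ≤ 1 - 3 * A + A ^ 2 + 2 * A * (1 - B) := by nlinarith
  have hsum : 0 < X + Y + a * sin (2 * π * a) := by
    rcases hne with h | h | h
    · linarith [ha1 h]
    · linarith [hθ1 h]
    · linarith [hφ1 h]
  have e1 := mul_le_mul_of_nonneg_right c1 hθ0
  have e2 := mul_le_mul_of_nonneg_right c2 hφ0
  have hfin : 0 < (1 - B - B ^ 2 - 2 * A * (1 - B)) * X + (1 - 3 * A + A ^ 2 + 2 * A * (1 - B)) * Y +
      2 * (a * sin (2 * π * a)) := by linarith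
  have := mul_pos pi_pos hfin
  linarith

theorem coneF_KK1 (β m : ℝ) {A B : ℝ} (hA : 0 ≤ A) (hB : 0 ≤ B) (h : A + B ≤ 1 / 16) :
    KK β m (1 - A) B = (1 - β) * PP B (1 - A) - β * PP A (1 - B) + 8 * (1 - β) := by
  unfold KK
  rw [bump_zero (ρ := 1 / 352) (r := 1 - A + B) (by norm_num) (by linarith),
    bump_zero (ρ := 1 / 352) (r := 2 - (1 - A) - B) (by norm_num) (by linarith),
    bump_one (ρ := 1 / 16) (r := 1 - (1 - A) + B) (by norm_num) (by linarith),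
    bump_zero (ρ := 1 / 16) (r := 1 - A + 1 - B) (by norm_num) (by linarith)]
  unfold PP
  ring

theorem coneF_KK2 (β m : ℝ) {A B : ℝ} (hA : 0 ≤ A) (hB : 0 ≤ B) (h : A + B ≤ 1 / 16) :
    KK β m A (1 - B) = (1 - β) * PP A (1 - B) - β * PP B (1 - A) - 8 * β := by
  unfold KK
  rw [bump_zero (ρ := 1 / 352) (r := A + (1 - B)) (by norm_num) (by linarith),
    bump_zero (ρ := 1 / 352) (r := 2 - A - (1 - B)) (by norm_num) (by linarith),
    bump_zero (ρ := 1 / 16) (r := 1 - A + (1 - B)) (by norm_num) (by linarith),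
    bump_one (ρ := 1 / 16) (r := A + 1 - (1 - B)) (by norm_num) (by linarith)]
  unfold PP
  ring

theorem coneF_abs_sin {x₀ θ : ℝ} (h : sin (π * x₀) * cos (π * x₀) = 0) :
    |sin (2 * π * (x₀ + θ))| ≤ 2 * π * |θ| := by
  have h0 : sin (2 * π * x₀) = 0 := by rw [mul_assoc, sin_two_mul]; linarith
  rw [mul_add, sin_add, h0, zero_mul, zero_add, abs_mul]
  have h1 := abs_cos_le_one (2 * π * x₀)
  have h2 : |sin (2 * π * θ)| ≤ |2 * π * θ| := abs_sin_le_abs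
  rw [abs_mul (2 * π), abs_of_pos (by positivity : 0 < 2 * π)] at h2
  calc _ ≤ 1 * (2 * π * |θ|) := mul_le_mul h1 h2 (abs_nonneg _) zero_le_one
    _ = _ := one_mul _

theorem coneF_F1 (ε : ℝ) {s t x₀ y₀ θ φ : ℝ} (hs : s ≤ 17 / 20)
    (hx : sin (π * x₀) * cos (π * x₀) = 0) (hy : sin (π * y₀) * cos (π * y₀) = 0)
    (hθ : |θ| ≤ 1 / 18) (hφ : |φ| ≤ 1 / 72) :
    F1 ε (s, t, x₀ + θ, y₀ + φ) =
      KK (be s) (am s) (cp (x₀ + θ)) (sq (y₀ + φ)) + sin (2 * π * s) := by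
  have h1 := coneF_abs_sin (θ := θ) hx
  have h2 := coneF_abs_sin (θ := φ) hy
  have h3 : |sin (2 * π * (x₀ + θ)) + sin (2 * π * (y₀ + φ))| ≤ 1 / 2 := by
    refine (abs_add_le _ _).trans ?_
    nlinarith [pi_lt_d2, pi_pos, abs_nonneg θ, abs_nonneg φ]
  have h4 : bt s = 0 := step_zero (by norm_num) hs
  simp only [F1, F0, chi]
  rw [odd_zero (by norm_num) h3, h4]
  ring

theorem coneF_form (ε : ℝ) {η x₀ y₀ : ℝ} (hη : η = 1 ∨ η = -1)
    (hc : (cp x₀ = 1 ∧ sq y₀ = 0) ∨ (cp x₀ = 0 ∧ sq y₀ = 1)) :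
    (∃ c, ∀ a t θ φ : ℝ, |a| ≤ 1 / 14 → |θ| ≤ 1 / 18 → |φ| ≤ 1 / 72 →
      η * F1 ε (1 / 2 + η / 4 + a, t, x₀ + θ, y₀ + φ) =
        -PP (sin (π * θ) ^ 2) (1 - sin (π * φ) ^ 2) - cos (2 * π * a) + c) ∨
    (∃ c, ∀ a t θ φ : ℝ, |a| ≤ 1 / 14 → |θ| ≤ 1 / 18 → |φ| ≤ 1 / 72 →
      η * F1 ε (1 / 2 + η / 4 + a, t, x₀ + θ, y₀ + φ) =
        -PP (sin (π * φ) ^ 2) (1 - sin (π * θ) ^ 2) - cos (2 * π * a) + c) := by
  have hAB : ∀ θ φ : ℝ, |θ| ≤ 1 / 18 → |φ| ≤ 1 / 72 →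
      sin (π * θ) ^ 2 + sin (π * φ) ^ 2 ≤ 1 / 16 := fun θ φ hθ hφ => by
    have h1 := coneF_sq_le (θ := θ)
    have h2 := coneF_sq_le (θ := φ)
    have h3 : θ ^ 2 ≤ (1 / 18) ^ 2 := sq_le_sq' (neg_le_of_abs_le hθ) (le_of_abs_le hθ)
    have h4 : φ ^ 2 ≤ (1 / 72) ^ 2 := sq_le_sq' (neg_le_of_abs_le hφ) (le_of_abs_le hφ)
    linarith
  have hp : ∀ a : ℝ, |a| ≤ 1 / 14 → be (1 / 2 + 1 / 4 + a) = 1 ∧
      sin (2 * π * (1 / 2 + 1 / 4 + a)) = -cos (2 * π * a) := fun a ha => by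
    refine ⟨step_one (by norm_num) (by linarith [neg_le_of_abs_le ha]), ?_⟩
    rw [show 2 * π * (1 / 2 + 1 / 4 + a) = 2 * π * a + π / 2 + π by ring, sin_add_pi,
      sin_add_pi_div_two]
  have hm : ∀ a : ℝ, |a| ≤ 1 / 14 → be (1 / 2 + -1 / 4 + a) = 0 ∧
      sin (2 * π * (1 / 2 + -1 / 4 + a)) = cos (2 * π * a) := fun a ha => by
    refine ⟨step_zero (by norm_num) (by linarith [le_of_abs_le ha]), ?_⟩
    rw [show 2 * π * (1 / 2 + -1 / 4 + a) = 2 * π * a + π / 2 by ring, sin_add_pi_div_two]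
  rcases hc with ⟨h1, h2⟩ | ⟨h1, h2⟩
  · have sx : sin (π * x₀) = 0 := by
      have := sin_sq_add_cos_sq (π * x₀)
      unfold cp at h1
      exact pow_eq_zero_iff (two_ne_zero) |>.1 (by linarith)
    have sy : sin (π * y₀) = 0 := pow_eq_zero_iff (two_ne_zero) |>.1 h2
    have cy : cos (π * y₀) ^ 2 = 1 := by
      have := sin_sq_add_cos_sq (π * y₀)
      rw [sy] at this
      linarith
    have ep : ∀ θ : ℝ, cp (x₀ + θ) = 1 - sin (π * θ) ^ 2 := fun θ => by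
      unfold cp at h1 ⊢
      rw [mul_add, cos_add, sx, zero_mul, sub_zero, mul_pow, h1, one_mul, cos_sq']
    have eq' : ∀ φ : ℝ, sq (y₀ + φ) = sin (π * φ) ^ 2 := fun φ => by
      unfold sq
      rw [mul_add, sin_add, sy, zero_mul, zero_add, mul_pow, cy, one_mul]
    rcases hη with rfl | rfl
    · refine Or.inl ⟨0, fun a t θ φ ha hθ hφ => ?_⟩
      rw [coneF_F1 ε (by linarith [le_of_abs_le ha]) (by rw [sx, zero_mul]) (by rw [sy, zero_mul])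
        hθ hφ, ep, eq', coneF_KK1 _ _ (sq_nonneg _) (sq_nonneg _) (hAB θ φ hθ hφ),
        (hp a ha).1, (hp a ha).2]
      ring
    · refine Or.inr ⟨-8, fun a t θ φ ha hθ hφ => ?_⟩
      rw [coneF_F1 ε (by linarith [le_of_abs_le ha]) (by rw [sx, zero_mul]) (by rw [sy, zero_mul])
        hθ hφ, ep, eq', coneF_KK1 _ _ (sq_nonneg _) (sq_nonneg _) (hAB θ φ hθ hφ),
        (hm a ha).1, (hm a ha).2]
      ring
  · have cx : cos (π * x₀) = 0 := pow_eq_zero_iff (two_ne_zero) |>.1 h1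
    have sx : sin (π * x₀) ^ 2 = 1 := by
      have := sin_sq_add_cos_sq (π * x₀)
      rw [cx] at this
      linarith
    have cy : cos (π * y₀) = 0 := by
      have := sin_sq_add_cos_sq (π * y₀)
      unfold sq at h2
      exact pow_eq_zero_iff (two_ne_zero) |>.1 (by linarith)
    have ep : ∀ θ : ℝ, cp (x₀ + θ) = sin (π * θ) ^ 2 := fun θ => by
      unfold cp
      rw [mul_add, cos_add, cx, zero_mul, zero_sub, neg_sq, mul_pow, sx, one_mul]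
    have eq' : ∀ φ : ℝ, sq (y₀ + φ) = 1 - sin (π * φ) ^ 2 := fun φ => by
      unfold sq at h2 ⊢
      rw [mul_add, sin_add, cy, zero_mul, add_zero, mul_pow, h2, one_mul, cos_sq']
    rcases hη with rfl | rfl
    · refine Or.inr ⟨-8, fun a t θ φ ha hθ hφ => ?_⟩
      rw [coneF_F1 ε (by linarith [le_of_abs_le ha]) (by rw [cx, mul_zero]) (by rw [cy, mul_zero])
        hθ hφ, ep, eq', coneF_KK2 _ _ (sq_nonneg _) (sq_nonneg _) (hAB θ φ hθ hφ),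
        (hp a ha).1, (hp a ha).2]
      ring
    · refine Or.inl ⟨0, fun a t θ φ ha hθ hφ => ?_⟩
      rw [coneF_F1 ε (by linarith [le_of_abs_le ha]) (by rw [cx, mul_zero]) (by rw [cy, mul_zero])
        hθ hφ, ep, eq', coneF_KK2 _ _ (sq_nonneg _) (sq_nonneg _) (hAB θ φ hθ hφ),
        (hm a ha).1, (hm a ha).2]
      ring

theorem cone_F1 (ε : ℝ) {u : R4} {η x₀ y₀ : ℝ} (hη : η = 1 ∨ η = -1)
    (hc : (cp x₀ = 1 ∧ sq y₀ = 0) ∨ (cp x₀ = 0 ∧ sq y₀ = 1))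
    (hs : |u.1 - (1 / 2 + η / 4)| ≤ 1 / 16) (hx : |u.2.2.1 - x₀| ≤ 1 / 20)
    (hy : |u.2.2.2 - y₀| ≤ 1 / 80)
    (hne : ((u.1 - (1 / 2 + η / 4), 0, u.2.2.1 - x₀, u.2.2.2 - y₀) : R4) ≠ 0) :
    0 < η * fderiv ℝ (F1 ε) u (u.1 - (1 / 2 + η / 4), 0, u.2.2.1 - x₀, u.2.2.2 - y₀) := by
  obtain ⟨s, t, x, y⟩ := u
  simp only at hs hx hy hne ⊢
  obtain ⟨a, rfl⟩ : ∃ a, s = 1 / 2 + η / 4 + a := ⟨s - (1 / 2 + η / 4), by ring⟩
  obtain ⟨θ, rfl⟩ : ∃ θ, x = x₀ + θ := ⟨x - x₀, by ring⟩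
  obtain ⟨φ, rfl⟩ : ∃ φ, y = y₀ + φ := ⟨y - y₀, by ring⟩
  simp only [add_sub_cancel_left] at hs hx hy hne ⊢
  have hne' : a ≠ 0 ∨ θ ≠ 0 ∨ φ ≠ 0 := by
    by_contra h
    push Not at h
    exact hne (by rw [h.1, h.2.1, h.2.2]; rfl)
  have l : ∀ b c : ℝ, HasDerivAt (fun r : ℝ => b + r * c) c 1 := fun b c => by
    simpa using ((hasDerivAt_id (1 : ℝ)).mul_const c).const_add b
  have hcurve : HasDerivAt
      (fun r : ℝ => ((1 / 2 + η / 4 + r * a, t, x₀ + r * θ, y₀ + r * φ) : R4))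
      ((a, 0, θ, φ) : R4) 1 :=
    (l _ _).prodMk ((hasDerivAt_const _ _).prodMk ((l _ _).prodMk (l _ _)))
  have hF : HasFDerivAt (F1 ε) (fderiv ℝ (F1 ε) (1 / 2 + η / 4 + a, t, x₀ + θ, y₀ + φ))
      (1 / 2 + η / 4 + a, t, x₀ + θ, y₀ + φ) :=
    (((contDiff_F1 ε).differentiable (by simp)) _).hasFDerivAt
  have hcomp := (hF.comp_hasDerivAt_of_eq 1 hcurve (by simp)).const_mul η
  have hev : ∀ᶠ r : ℝ in nhds 1, |r| ≤ 11 / 10 := by
    have : ∀ᶠ r : ℝ in nhds 1, |r| < 11 / 10 :=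
      continuous_abs.continuousAt.eventually_lt continuousAt_const (by norm_num)
    exact this.mono fun _ h => h.le
  have hb : ∀ r : ℝ, |r| ≤ 11 / 10 → |r * a| ≤ 1 / 14 ∧ |r * θ| ≤ 1 / 18 ∧ |r * φ| ≤ 1 / 72 := by
    intro r hr
    simp only [abs_mul]
    refine ⟨?_, ?_, ?_⟩ <;> nlinarith [abs_nonneg r, abs_nonneg a, abs_nonneg θ, abs_nonneg φ]
  rcases coneF_form ε hη hc with ⟨c, h⟩ | ⟨c, h⟩
  · obtain ⟨D, hD, hd⟩ := coneF_pos hs hx (hy.trans (by norm_num)) hne' c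
    have := hd.congr_of_eventuallyEq (hev.mono fun r hr =>
      h _ t _ _ (hb r hr).1 (hb r hr).2.1 (hb r hr).2.2)
    rwa [hcomp.unique this]
  · obtain ⟨D, hD, hd⟩ := coneF_pos hs (hy.trans (by norm_num)) hx (by tauto) c
    have := hd.congr_of_eventuallyEq (hev.mono fun r hr =>
      h _ t _ _ (hb r hr).1 (hb r hr).2.1 (hb r hr).2.2)
    rwa [hcomp.unique this]

end Vale.Agent.P265
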