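import Vale.Agent.P265.U.Defs

/-!
P265 block U, file FInv. Invariance of F1, and orbit representatives of the saddle points:
(1/4,0,0,±1/4), (1/4,0,±1/4,1/2), (3/4,0,1/2,±1/4), (3/4,0,±1/4,0); use act 0 n a b with n = -t.
-/

namespace Vale.Agent.P265

open scoped ContDiff Quaternion
open Real

theorem FInv_sq (y : ℝ) : sq y = 1 - cp y := by
  rw [sq, cp, sin_sq]

theorem FInv_cp {x x' : ℝ} (k : ℤ) (h : x' = x + k ∨ x' = -x + k) : cp x' = cp x := by
  have e : ∀ y : ℝ, cp (y + k) = cp y := fun y => by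
    rw [cp, cp, mul_add, mul_comm π (k : ℝ), cos_add_int_mul_pi, mul_pow, pow_two ((-1 : ℝ) ^ k)]
    exact (congrArg (· * _) (sg_sq k)).trans (one_mul _)
  rcases h with rfl | rfl
  · exact e x
  · rw [e, cp, cp, mul_neg, cos_neg]

theorem FInv_sin (x : ℝ) (k : ℤ) : sin (2 * π * (x + k)) = sin (2 * π * x) := by
  rw [mul_add, mul_comm (2 * π) (k : ℝ), sin_add_int_mul_two_pi]

theorem FInv_int {x : ℝ} (h : sin (π * x) = 0) : ∃ a : ℤ, x + a = 0 := by
  obtain ⟨k, hk⟩ := sin_eq_zero_iff.1 h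
  refine ⟨-k, mul_left_cancel₀ pi_ne_zero ?_⟩
  push_cast
  linarith

theorem FInv_one {x : ℝ} (h : cp x = 1) : ∃ a : ℤ, x + a = 0 := by
  have := FInv_sq x
  rw [h, sub_self, sq] at this
  exact FInv_int (pow_eq_zero_iff two_ne_zero |>.1 this)

theorem FInv_zero {x : ℝ} (h : cp x = 0) : ∃ a : ℤ, x + a = 1 / 2 := by
  obtain ⟨k, hk⟩ := cos_eq_zero_iff.1 (pow_eq_zero_iff two_ne_zero |>.1 h)
  refine ⟨-k, mul_left_cancel₀ pi_ne_zero ?_⟩
  push_cast
  linarith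

theorem FInv_half {x : ℝ} (h : cp x = 1 / 2) : ∃ a : ℤ, x + a = 1 / 4 ∨ x + a = -(1 / 4) := by
  have h1 : cos (2 * (π * x)) = 0 := by
    rw [cp] at h
    rw [cos_two_mul, h]
    norm_num
  obtain ⟨k, hk⟩ := cos_eq_zero_iff.1 h1
  obtain ⟨j, rfl | rfl⟩ := Int.even_or_odd' k
  · refine ⟨-j, Or.inl (mul_left_cancel₀ pi_ne_zero ?_)⟩
    push_cast at hk ⊢
    linarith
  · refine ⟨-j - 1, Or.inr (mul_left_cancel₀ pi_ne_zero ?_)⟩
    push_cast at hk ⊢
    linarith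

theorem FInv_act (n a b : ℤ) (u : R4) :
    act 0 n a b u = (u.1, u.2.1 + n, sg n * u.2.2.1 + a, sg n * u.2.2.2 + b) := by
  simp [act]

theorem F1_act0 (ε : ℝ) (n a b : ℤ) (u : R4) : F1 ε (act 0 n a b u) = F1 ε u := by
  obtain ⟨s, t, x, y⟩ := u
  have e0 : cos (π * (t + n)) = sg n * cos (π * t) := by
    rw [mul_add, mul_comm π (n : ℝ), cos_add_int_mul_pi, sg]
  simp only [FInv_act, F1, F0, chi, FInv_sq, FInv_sin, e0]
  rcases sg_cases n with h | h <;> rw [h.1]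
  · rw [FInv_cp (x' := 1 * x + a) (x := x) a (Or.inl (by ring)),
      FInv_cp (x' := 1 * y + b) (x := y) b (Or.inl (by ring)),
      FInv_cp (x' := 1 * x + a - 3 * (1 * y + b) + 3 / 2) (x := x - 3 * y + 3 / 2) (a - 3 * b)
        (Or.inl (by push_cast; ring)),
      FInv_cp (x' := 1 * y + b - 1 / 2) (x := y - 1 / 2) b (Or.inl (by ring))]
    simp only [one_mul]
  · rw [FInv_cp (x' := -1 * x + a) (x := x) a (Or.inr (by ring)),
      FInv_cp (x' := -1 * y + b) (x := y) b (Or.inr (by ring)),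
      FInv_cp (x' := -1 * x + a - 3 * (-1 * y + b) + 3 / 2) (x := x - 3 * y + 3 / 2) (a - 3 * b + 3)
        (Or.inr (by push_cast; ring)),
      FInv_cp (x' := -1 * y + b - 1 / 2) (x := y - 1 / 2) (b - 1) (Or.inr (by push_cast; ring))]
    simp only [neg_mul, one_mul, mul_neg, sin_neg, ← neg_add, odd_neg, neg_neg]

theorem F1_glue (ε : ℝ) {u : R4} (h : |u.1| < 1 / 10) : F1 ε (act 1 0 0 0 u) = F1 ε u := by
  obtain ⟨s, t, x, y⟩ := u
  obtain ⟨h1, h2⟩ := abs_lt.1 h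
  have e : act 1 0 0 0 (s, t, x, y) = (s + 1, t, x + 3 * y, y + 1 / 2) := by simp [act, sg_zero]
  have a1 : be (s + 1) = 1 := step_one (by norm_num) (by linarith)
  have a2 : bt (s + 1) = 1 := step_one (by norm_num) (by linarith)
  have a3 : step (4 / 5) (9 / 10) (s + 1) = 1 := step_one (by norm_num) (by linarith)
  have a4 : be s = 0 := step_zero (by norm_num) (by linarith)
  have a5 : bt s = 0 := step_zero (by norm_num) (by linarith)
  have a6 : step (1 / 10) (1 / 5) s = 0 := step_zero (by norm_num) (by linarith)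
  have a7 : am (s + 1) = 8 := by
    rw [am, a1, a2]
    ring
  have a8 : am s = 0 := by
    rw [am, a4, a5, a6]
    ring
  have a9 : sin (2 * π * (s + 1)) = sin (2 * π * s) := by simpa using FInv_sin s 1
  have b1 : x + 3 * y - 3 * (y + 1 / 2) + 3 / 2 = x := by ring
  have b2 : y + 1 / 2 - 1 / 2 = y := by ring
  simp only [e, F1, F0, chi, a1, a2, a3, a4, a5, a6, a7, a8, a9, b1, b2]
  ring

theorem exists_reps : ∃ S : Finset R4, S.card ≤ 8 ∧
    ∀ u : R4, IsSad u → sin (π * u.2.1) = 0 → ∃ u' ∈ S, Rel4 u u' := by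
  classical
  refine ⟨{(1 / 4, 0, 0, 1 / 4), (1 / 4, 0, 0, -(1 / 4)), (1 / 4, 0, 1 / 4, 1 / 2),
    (1 / 4, 0, -(1 / 4), 1 / 2), (3 / 4, 0, 1 / 2, 1 / 4), (3 / 4, 0, 1 / 2, -(1 / 4)),
    (3 / 4, 0, 1 / 4, 0), (3 / 4, 0, -(1 / 4), 0)}, ?_, fun u hu ht => ?_⟩
  · iterate 7 refine (Finset.card_insert_le _ _).trans (Nat.succ_le_succ ?_)
    exact (Finset.card_singleton _).le
  obtain ⟨n, hn⟩ := FInv_int ht
  have hc : ∀ x, cp x = cp (sg n * x) := fun x => by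
    rcases sg_cases n with h | h <;> rw [h.1]
    · rw [one_mul]
    · exact FInv_cp 0 (Or.inr (by simp))
  simp only [IsSad, FInv_sq] at hu
  rw [hc u.2.2.1, hc u.2.2.2] at hu
  have key : ∀ (S : Finset R4), (∃ a b : ℤ, (u.1, 0, sg n * u.2.2.1 + a, sg n * u.2.2.2 + b) ∈ S) →
      ∃ u' ∈ S, Rel4 u u' := fun S ⟨a, b, h⟩ => ⟨_, h, 0, n, a, b, by rw [FInv_act, hn]⟩
  refine key _ ?_
  rcases hu with ⟨h0, ⟨h1, h2⟩ | ⟨h1, h2⟩⟩ | ⟨h0, ⟨h1, h2⟩ | ⟨h1, h2⟩⟩
  · obtain ⟨a, ha⟩ := FInv_one h1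
    obtain ⟨b, hb | hb⟩ := FInv_half (x := sg n * u.2.2.2) (by linarith) <;>
      exact ⟨a, b, by simp only [h0, ha, hb, Finset.mem_insert, true_or, or_true]⟩
  · obtain ⟨b, hb⟩ := FInv_zero (x := sg n * u.2.2.2) (by linarith)
    obtain ⟨a, ha | ha⟩ := FInv_half h1 <;>
      exact ⟨a, b, by simp only [h0, ha, hb, Finset.mem_insert, true_or, or_true]⟩
  · obtain ⟨a, ha⟩ := FInv_zero h1
    obtain ⟨b, hb | hb⟩ := FInv_half (x := sg n * u.2.2.2) (by linarith) <;>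
      exact ⟨a, b, by simp only [h0, ha, hb, Finset.mem_insert, true_or, or_true]⟩
  · obtain ⟨b, hb⟩ := FInv_one (x := sg n * u.2.2.2) (by linarith)
    obtain ⟨a, ha | ha⟩ := FInv_half h1 <;>
      exact ⟨a, b, by
        simp only [h0, ha, hb, Finset.mem_insert, Finset.mem_singleton, true_or, or_true]⟩

end Vale.Agent.P265
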