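import Vale.Agent.P265.U.Gt
import Vale.Agent.P265.U.FInv

/-!
P265 block U, file GG. The path GG. aa is smooth on ℝ (zero near |w| ≥ 199/200 + small, a smooth product for |w| < 1). The quaternion Gt 1 u + r (WW - wb) is never zero:
its imaginary part is that of Gt 1 u; if that vanishes then wb = ±1 (unit norm), WW = wb, and the quaternion is Gt 1 u.
-/

namespace Vale.Agent.P265

open scoped ContDiff Quaternion
open Real

theorem GG_cd_re : ContDiff ℝ ∞ fun q : ℍ => q.re :=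
  (LinearMap.toContinuousLinearMap (𝕜 := ℝ) (E := ℍ) (F' := ℝ)
    { toFun := fun q => q.re, map_add' := fun _ _ => rfl, map_smul' := fun _ _ => rfl }).contDiff

theorem GG_cd_star : ContDiff ℝ ∞ fun q : ℍ => star q :=
  (LinearMap.toContinuousLinearMap (𝕜 := ℝ) (E := ℍ) (F' := ℍ)
    { toFun := fun q => star q, map_add' := fun _ _ => star_add _ _,
      map_smul' := fun _ _ => by ext <;> simp }).contDiff

theorem GG_cd_coe : ContDiff ℝ ∞ fun r : ℝ => (r : ℍ) := (algebraMapCLM ℝ ℍ).contDiff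

theorem GG_cd_normSq : ContDiff ℝ ∞ fun q : ℍ => Quaternion.normSq q :=
  GG_cd_re.comp (contDiff_id.mul GG_cd_star)

theorem GG_cd_one : ContDiff ℝ ∞ (Gt 1) :=
  contDiff_Gt.comp (f := fun u : R4 => (((1 : ℝ), u) : ℝ × R4)) (contDiff_const.prodMk contDiff_id)

theorem GG_cd_ch : ContDiff ℝ ∞ ch := contDiff_step _ _

theorem GG_ch_one {w : ℝ} (h : 199 / 200 ≤ w) : ch w = 1 := step_one (by norm_num) h

theorem GG_ch_zero {w : ℝ} (h : w ≤ 99 / 100) : ch w = 0 := step_zero (by norm_num) h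

theorem GG_normSq_nrm {q : ℍ} (h : q ≠ 0) : Quaternion.normSq (nrm q) = 1 := by
  rw [nrm, Quaternion.normSq_smul, inv_pow, sq_sqrt Quaternion.normSq_nonneg,
    inv_mul_cancel₀ (Quaternion.normSq_ne_zero.2 h)]

theorem GG_nrm_unit {q : ℍ} (h : Quaternion.normSq q = 1) : nrm q = q := by
  rw [nrm, h, sqrt_one, inv_one, one_smul]

theorem contDiff_wb : ContDiff ℝ ∞ wb := GG_cd_re.comp GG_cd_one

theorem contDiff_aa : ContDiff ℝ ∞ aa := by
  refine contDiff_iff_contDiffAt.2 fun w => ?_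
  rcases lt_or_ge (199 / 200) w with h1 | h1
  · refine (contDiffAt_const (c := (0 : ℝ))).congr_of_eventuallyEq
      ((eventually_gt_nhds h1).mono fun x hx => ?_)
    simp only [aa]
    rw [GG_ch_one hx.le, GG_ch_zero (by linarith)]
    ring
  rcases lt_or_ge w (-(199 / 200)) with h2 | h2
  · refine (contDiffAt_const (c := (0 : ℝ))).congr_of_eventuallyEq
      ((eventually_lt_nhds h2).mono fun x hx => ?_)
    simp only [aa]
    rw [GG_ch_zero (w := x) (by linarith), GG_ch_one (w := -x) (by linarith)]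
    ring
  have h3 : ContDiffAt ℝ ∞ (fun x : ℝ => √(1 - x ^ 2)) w :=
    ContDiffAt.sqrt (by fun_prop) (by nlinarith)
  exact ((contDiff_const.sub GG_cd_ch).sub (GG_cd_ch.comp contDiff_neg)).contDiffAt.mul h3

theorem contDiff_WW (ε : ℝ) : ContDiff ℝ ∞ (WW ε) :=
  ((((contDiff_aa.comp contDiff_wb).mul (contDiff_F1 ε)).div_const 100).neg.add
    (GG_cd_ch.comp contDiff_wb)).sub (GG_cd_ch.comp contDiff_wb.neg)

theorem wb_sq_add (u : R4) : wb u ^ 2 + dot (imv (Gt 1 u)) (imv (Gt 1 u)) = 1 := by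
  have := normSq_Gt 1 u
  rw [Quaternion.normSq_def'] at this
  simp only [wb, dot, imv]
  linarith

theorem Gt_add_ne (ε r : ℝ) (u : R4) : Gt 1 u + ((r * (WW ε u - wb u) : ℝ) : ℍ) ≠ 0 := by
  intro h
  have h0 : wb u + r * (WW ε u - wb u) = 0 := by simpa [wb] using congrArg QuaternionAlgebra.re h
  have h1 : (Gt 1 u).imI = 0 := by simpa using congrArg QuaternionAlgebra.imI h
  have h2 : (Gt 1 u).imJ = 0 := by simpa using congrArg QuaternionAlgebra.imJ h
  have h3 : (Gt 1 u).imK = 0 := by simpa using congrArg QuaternionAlgebra.imK h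
  have h4 := wb_sq_add u
  simp only [dot, imv, h1, h2, h3, mul_zero, add_zero] at h4
  have h5 : aa (wb u) = 0 := by rw [aa, h4, sub_self, sqrt_zero, mul_zero]
  rw [WW, h5] at h0
  rcases (mul_self_eq_one_iff.1 ((pow_two _).symm.trans h4)) with h6 | h6
  · rw [h6, GG_ch_one (by norm_num), GG_ch_zero (by norm_num)] at h0
    norm_num at h0
  · rw [h6, GG_ch_zero (by norm_num), GG_ch_one (by norm_num)] at h0
    norm_num at h0

theorem contDiff_GG (ε : ℝ) : ContDiff ℝ ∞ (GG ε) := by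
  have h1 : ContDiff ℝ ∞ fun w : ℝ × R4 => step (1 / 10) (9 / 10) w.1 :=
    (contDiff_step _ _).comp contDiff_fst
  have h2 : ContDiff ℝ ∞ fun w : ℝ × R4 => Gt 1 w.2 := GG_cd_one.comp contDiff_snd
  have h3 : ContDiff ℝ ∞ fun w : ℝ × R4 =>
      Gt 1 w.2 + ((step (1 / 10) (9 / 10) w.1 * (WW ε w.2 - wb w.2) : ℝ) : ℍ) :=
    h2.add (GG_cd_coe.comp (h1.mul
      (((contDiff_WW ε).comp contDiff_snd).sub (contDiff_wb.comp contDiff_snd))))
  have hne : ∀ w : ℝ × R4, Quaternion.normSq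
      (Gt 1 w.2 + ((step (1 / 10) (9 / 10) w.1 * (WW ε w.2 - wb w.2) : ℝ) : ℍ)) ≠ 0 := fun w =>
    Quaternion.normSq_ne_zero.2 (Gt_add_ne _ _ _)
  have h4 := (((GG_cd_normSq.comp h3).sqrt hne).inv fun w =>
    (sqrt_ne_zero Quaternion.normSq_nonneg).2 (hne w)).smul h3
  exact ((contDiff_Gt.comp (h1.prodMk contDiff_snd)).mul (GG_cd_star.comp h2)).mul h4

theorem normSq_GG (ε : ℝ) (w : ℝ × R4) : Quaternion.normSq (GG ε w) = 1 := by
  rw [GG, map_mul, map_mul, Quaternion.normSq_star, normSq_Gt, normSq_Gt,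
    GG_normSq_nrm (Gt_add_ne _ _ _), mul_one, mul_one]

theorem GG_act0 (ε τ : ℝ) (u : R4) (n a b : ℤ) : GG ε (τ, act 0 n a b u) = GG ε (τ, u) := by
  simp only [GG, WW, wb, Gt_act0, F1_act0]

theorem GG_glue (ε τ : ℝ) {u : R4} (h : |u.1| < 1 / 10) :
    GG ε (τ, act 1 0 0 0 u) = GG ε (τ, u) := by
  simp only [GG, WW, wb, Gt_glue zero_le_one le_rfl h, F1_glue ε h,
    Gt_glue (step_nonneg _ _ _) (step_le_one _ _ _) h]

theorem GG_start (ε : ℝ) {τ : ℝ} (u : R4) (h : τ ≤ 1 / 10) : GG ε (τ, u) = 1 := by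
  simp only [GG]
  rw [step_zero (by norm_num) h, Gt_zero, one_mul, zero_mul, Quaternion.coe_zero, add_zero,
    GG_nrm_unit (normSq_Gt 1 u), Quaternion.star_mul_self, normSq_Gt, Quaternion.coe_one]

theorem GG_stop (ε : ℝ) {τ : ℝ} (u : R4) (h : 9 / 10 ≤ τ) : GG ε (τ, u) = gam ε u := by
  simp only [GG]
  rw [step_one (by norm_num) h, Quaternion.self_mul_star, normSq_Gt, Quaternion.coe_one, one_mul,
    one_mul, gam]

theorem GG_normSq_den (ε : ℝ) (u : R4) :
    Quaternion.normSq (Gt 1 u + ((WW ε u - wb u : ℝ) : ℍ)) = WW ε u ^ 2 + (1 - wb u ^ 2) := by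
  have h := wb_sq_add u
  rw [Quaternion.normSq_def']
  simp only [dot, imv] at h
  have e : (Gt 1 u).re = wb u := rfl
  simp only [Quaternion.re_add, Quaternion.imI_add, Quaternion.imJ_add, Quaternion.imK_add,
    Quaternion.re_coe, Quaternion.imI_coe, Quaternion.imJ_coe, Quaternion.imK_coe, e]
  linarith

/-- `gam` is `(WW, imv (Gt 1))` normalised; the square of the norm is `WW² + 1 - wb²`. -/
theorem gam_den_pos (ε : ℝ) (u : R4) : 0 < WW ε u ^ 2 + (1 - wb u ^ 2) := by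
  rw [← GG_normSq_den]
  have h := Gt_add_ne ε 1 u
  rw [one_mul] at h
  exact lt_of_le_of_ne Quaternion.normSq_nonneg (Quaternion.normSq_ne_zero.2 h).symm

theorem gam_re (ε : ℝ) (u : R4) :
    (gam ε u).re = WW ε u / √(WW ε u ^ 2 + (1 - wb u ^ 2)) := by
  have e : (Gt 1 u).re = wb u := rfl
  rw [gam, nrm, GG_normSq_den, Quaternion.re_smul, Quaternion.re_add, Quaternion.re_coe, e,
    smul_eq_mul, add_sub_cancel, div_eq_inv_mul]

theorem imv_gam (ε : ℝ) (u : R4) :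
    imv (gam ε u) = (√(WW ε u ^ 2 + (1 - wb u ^ 2)))⁻¹ • imv (Gt 1 u) := by
  rw [gam, nrm, GG_normSq_den]
  simp [imv]

end Vale.Agent.P265
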