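import Vale.Agent.P265.U.Defs

/-!
P265 block U, file Inc. Inequalities. With p = cp x, q = sq y, p' = cp (x - 3 y + 3/2) = sin² (π (x - 3 y)), q' = sq (y - 1/2) = 1 - q the increment is
PP p' q' + PP (1-p) (1-q) + 8 (bump (1/16) (p+1-q) - bump (1/352) (p'+q')) + 8 (bump (1/16) (1-p'+q') - bump (1/352) (2-p-q)).
From |cos 3θ| ≤ 3 |cos θ| and the addition formula: p ≤ 10 (p' + q') and 1 - p' ≤ 10 (1 - p + q'); 11 * (2/352) = 1/16.
Bound: |PP| ≤ 7 on the unit square, |KK β a p q| ≤ 23 for β in [0,1], a in [0,8].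
-/

namespace Vale.Agent.P265

open scoped ContDiff Quaternion
open Real

theorem cp_nonneg (x : ℝ) : 0 ≤ cp x := sq_nonneg _
theorem cp_le_one (x : ℝ) : cp x ≤ 1 := cos_sq_le_one _
theorem sq_nonneg' (y : ℝ) : 0 ≤ sq y := sq_nonneg _
theorem sq_le_one' (y : ℝ) : sq y ≤ 1 := sin_sq_le_one _

theorem PP_nonneg {p q : ℝ} (hp : 0 ≤ p) (hq : 0 ≤ q) : 0 ≤ PP p q := by
  unfold PP
  have hm := mul_nonneg hp hq
  have hs := add_nonneg hp hq
  rcases le_total 3 (p + q) with h | h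
  · linarith [mul_nonneg hm (sub_nonneg.2 h)]
  · have h1 := mul_nonneg (sq_nonneg (p - q)) (sub_nonneg.2 h)
    have h2 := mul_nonneg hs (sq_nonneg (p + q - 3 / 2))
    linarith

theorem Inc_cs {u w c v s : ℝ} (hu : u ^ 2 ≤ 9 * w ^ 2) (hc : c ^ 2 ≤ 1) (hs : s ^ 2 ≤ 1) :
    (u * c + v * s) ^ 2 ≤ 10 * (w ^ 2 + v ^ 2) := by
  have h1 := mul_le_mul_of_nonneg_left hc (sq_nonneg u)
  have h2 := mul_le_mul_of_nonneg_left hs (sq_nonneg v)
  linarith [sq_nonneg (u * c / 3 - 3 * (v * s))]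

theorem Inc_cos3 (b : ℝ) : cos (3 * b) ^ 2 ≤ 9 * cos b ^ 2 := by
  rw [cos_three_mul]
  have h0 := sq_nonneg (cos b)
  have h1 := mul_nonneg (mul_nonneg h0 h0) (sub_nonneg.2 (cos_sq_le_one b))
  have h2 := mul_nonneg h0 h0
  linarith

theorem Inc_bump {r r' : ℝ} (h : r' ≤ 11 * r) : bump (1 / 352) r ≤ bump (1 / 16) r' := by
  rcases le_total r (2 * (1 / 352)) with h1 | h1
  · rw [bump_one (ρ := 1 / 16) (by norm_num) (by linarith)]
    exact bump_le_one _ _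
  · rw [bump_zero (by norm_num) h1]
    exact bump_nonneg _ _

theorem inc_nonneg (x y : ℝ) :
    0 ≤ KK 0 0 (cp (x - 3 * y + 3 / 2)) (sq (y - 1 / 2)) - KK 1 8 (cp x) (sq y) := by
  have e1 : cp (x - 3 * y + 3 / 2) = sin (π * x - 3 * (π * y)) ^ 2 := by
    have : π * (x - 3 * y + 3 / 2) = π * x - 3 * (π * y) - π / 2 + 2 * π := by ring
    rw [cp, this, cos_add_two_pi, cos_sub_pi_div_two]
  have e2 : sq (y - 1 / 2) = cos (π * y) ^ 2 := by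
    have : π * (y - 1 / 2) = π * y - π / 2 := by ring
    rw [sq, this, sin_sub_pi_div_two, neg_sq]
  have e3 : 1 - sq y = cos (π * y) ^ 2 := by rw [sq, cos_sq']
  have e4 : 1 - cp x = sin (π * x) ^ 2 := by rw [cp, sin_sq]
  have i1 : cp x ≤ 10 * (cos (π * y) ^ 2 + sin (π * x - 3 * (π * y)) ^ 2) := by
    have := Inc_cs (Inc_cos3 (π * y)) (cos_sq_le_one (π * x - 3 * (π * y)))
      (v := sin (π * x - 3 * (π * y))) (s := -sin (3 * (π * y)))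
      (by rw [neg_sq]; exact sin_sq_le_one _)
    refine le_trans (le_of_eq ?_) this
    have e : π * x = 3 * (π * y) + (π * x - 3 * (π * y)) := by ring
    rw [cp]
    nth_rewrite 1 [e]
    rw [cos_add]
    ring
  have i2 : 1 - sin (π * x - 3 * (π * y)) ^ 2 ≤ 10 * (cos (π * y) ^ 2 + sin (π * x) ^ 2) := by
    have := Inc_cs (Inc_cos3 (π * y)) (cos_sq_le_one (π * x)) (v := sin (π * x))
      (sin_sq_le_one (3 * (π * y)))
    refine le_trans (le_of_eq ?_) this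
    rw [← cos_sq', cos_sub]
    ring
  have c0 := sq_nonneg (cos (π * y))
  have s0 := sq_nonneg (sin (π * x))
  have s1 := sq_nonneg (sin (π * x - 3 * (π * y)))
  have b1 := Inc_bump (r := cp (x - 3 * y + 3 / 2) + sq (y - 1 / 2)) (r' := cp x + 1 - sq y)
    (by rw [e1, e2]; linarith)
  have b2 := Inc_bump (r := 2 - cp x - sq y)
    (r' := 1 - cp (x - 3 * y + 3 / 2) + sq (y - 1 / 2)) (by rw [e1, e2]; linarith)
  have p1 := PP_nonneg (cp_nonneg (x - 3 * y + 3 / 2)) (sq_nonneg' (y - 1 / 2))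
  have p2 := PP_nonneg (sub_nonneg.2 (cp_le_one x)) (sub_nonneg.2 (sq_le_one' y))
  unfold KK
  linarith

theorem am_nonneg {s : ℝ} (h0 : 0 ≤ s) : 0 ≤ am s := by
  have h1 : 0 ≤ bt s := step_nonneg _ _ _
  have h2 : 0 ≤ 1 - bt s := sub_nonneg.2 (step_le_one _ _ _)
  have h3 : 0 ≤ be s := step_nonneg _ _ _
  have h4 := mul_nonneg (mul_nonneg h2 (step_nonneg (1 / 10) (1 / 5) s)) h0
  unfold am
  linarith

theorem am_le {s : ℝ} (h0 : 0 ≤ s) (h1 : s ≤ 1) : am s ≤ 8 := by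
  have h2 : 0 ≤ 1 - bt s := sub_nonneg.2 (step_le_one _ _ _)
  have h3 : be s ≤ 1 := step_le_one _ _ _
  have h4 := mul_le_mul_of_nonneg_left
    (mul_le_one₀ (step_le_one (1 / 10) (1 / 5) s) h0 h1) h2
  unfold am
  linarith

theorem Inc_PP {p q : ℝ} (hp : 0 ≤ p) (hp' : p ≤ 1) (hq : 0 ≤ q) (hq' : q ≤ 1) : PP p q ≤ 4 := by
  unfold PP
  have h1 := mul_nonneg hp hq
  have h2 := mul_le_mul_of_nonneg_left (add_le_add hp' hq') h1
  linarith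

theorem Inc_mul {a b A B : ℝ} (h1 : 0 ≤ a) (h2 : a ≤ A) (h3 : 0 ≤ b) (h4 : b ≤ B) :
    0 ≤ a * b ∧ a * b ≤ A * B :=
  ⟨mul_nonneg h1 h3, mul_le_mul h2 h4 h3 (h1.trans h2)⟩

theorem Inc_KK {β a : ℝ} (h1 : 0 ≤ β) (h2 : β ≤ 1) (h3 : 0 ≤ a) (h4 : a ≤ 8) (x y : ℝ) :
    |KK β a (cp x) (sq y)| ≤ 20 := by
  have p0 := cp_nonneg x
  have p1 := cp_le_one x
  have q0 := sq_nonneg' y
  have q1 := sq_le_one' y
  have a1 := Inc_mul (sub_nonneg.2 h2) (sub_le_self 1 h1) (PP_nonneg p0 q0) (Inc_PP p0 p1 q0 q1)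
  have a2 := Inc_mul h1 h2 (PP_nonneg (sub_nonneg.2 p1) (sub_nonneg.2 q1))
    (Inc_PP (sub_nonneg.2 p1) (sub_le_self 1 p0) (sub_nonneg.2 q1) (sub_le_self 1 q0))
  have a3 := Inc_mul (sub_nonneg.2 h4) (sub_le_self 8 h3) (bump_nonneg (1 / 352) (cp x + sq y))
    (bump_le_one _ _)
  have a4 := Inc_mul h3 h4 (bump_nonneg (1 / 352) (2 - cp x - sq y)) (bump_le_one _ _)
  have a5 := Inc_mul (sub_nonneg.2 h2) (sub_le_self 1 h1) (bump_nonneg (1 / 16) (1 - cp x + sq y))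
    (bump_le_one _ _)
  have a6 := Inc_mul h1 h2 (bump_nonneg (1 / 16) (cp x + 1 - sq y)) (bump_le_one _ _)
  rw [abs_le]
  unfold KK
  constructor <;>
    linarith [a1.1, a1.2, a2.1, a2.2, a3.1, a3.2, a4.1, a4.2, a5.1, a5.2, a6.1, a6.2]

theorem abs_F1_le {ε : ℝ} (hε : |ε| ≤ 1) {u : R4} (h0 : 0 ≤ u.1) (h1 : u.1 ≤ 1) :
    |F1 ε u| ≤ 100 := by
  have k1 := Inc_KK (β := be u.1) (step_nonneg _ _ _) (step_le_one _ _ _) (am_nonneg h0)
    (am_le h0 h1) u.2.2.1 u.2.2.2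
  have k2 := Inc_KK le_rfl zero_le_one le_rfl (by norm_num) (u.2.2.1 - 3 * u.2.2.2 + 3 / 2)
    (u.2.2.2 - 1 / 2)
  have k3 := Inc_KK zero_le_one le_rfl (by norm_num) le_rfl u.2.2.1 u.2.2.2
  have k4 : |bt u.1 * (KK 0 0 (cp (u.2.2.1 - 3 * u.2.2.2 + 3 / 2)) (sq (u.2.2.2 - 1 / 2)) -
      KK 1 8 (cp u.2.2.1) (sq u.2.2.2))| ≤ 1 * (20 + 20) := by
    rw [abs_mul]
    exact mul_le_mul ((abs_of_nonneg (step_nonneg _ _ _)).trans_le (step_le_one _ _ _))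
      ((abs_sub _ _).trans (add_le_add k2 k3)) (abs_nonneg _) zero_le_one
  have k5 : |chi u.1 u.2.2.1 u.2.2.2| ≤ 1 := by
    have a0 := step_nonneg (1 / 10) (1 / 5) u.1
    have a1 : 0 ≤ 1 - step (4 / 5) (9 / 10) u.1 := sub_nonneg.2 (step_le_one _ _ _)
    rw [chi, abs_mul, abs_of_nonneg (mul_nonneg a0 a1)]
    exact mul_le_one₀ (mul_le_one₀ (step_le_one _ _ _) a1 (sub_le_self _ (step_nonneg _ _ _)))
      (abs_nonneg _) (abs_odd_le _ _ _)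
  have k6 : |ε * cos (π * u.2.1) * chi u.1 u.2.2.1 u.2.2.2| ≤ 1 := by
    rw [abs_mul, abs_mul]
    exact mul_le_one₀ (mul_le_one₀ hε (abs_nonneg _) (abs_cos_le_one _)) (abs_nonneg _) k5
  have k7 := abs_sin_le_one (2 * π * u.1)
  rw [abs_le] at k1 k4 k6 k7 ⊢
  unfold F1 F0
  constructor <;> linarith [k1.1, k1.2, k4.1, k4.2, k6.1, k6.2, k7.1, k7.2]

end Vale.Agent.P265
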