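import Vale.Agent.P265.U.ConeW
import Vale.Agent.P265.U.ConeF
import Vale.Agent.P265.U.GG
import Vale.Agent.P265.U.Inc

/-!
P265 block U, file Cone. cone: if sq y < 9/10 then wb = re (gh 0) near u, centre (k, l). Otherwise wb = re (gh 0 ∘ sh) near u; apply cone_gh at sh u, centre y₀ = l - 1/2, x₀ = k - 3 y₀;
the linear part of sh maps E to the vector of cone_gh.
no_crit_zone: let η = sign of wb. Near u, |wb| < 1 and re gam = Φ / √(1 + Φ²) with Φ = WW / √(1 - w²) = -(1 - ch (η w)) F1/100 + η ch (η w) / √(1 - w²) (gam_re; ch (-η w) = 0).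
With v = η w: η EΦ = ch' Ev (η F1/100 + 1/√(1-v²)) - (1 - ch) η EF1/100 + ch v Ev/(1-v²)^(3/2) < 0 by cone, abs_F1_le and ch' ≥ 0, 0 ≤ ch ≤ 1.
-/

namespace Vale.Agent.P265

open scoped ContDiff Quaternion
open Real

theorem coneC_line {f : R4 → ℝ} {u : R4} (hf : DifferentiableAt ℝ f u) (E : R4) :
    HasDerivAt (fun r : ℝ => f (u + r • E)) (fderiv ℝ f u E) 0 := by
  have h1 : HasDerivAt (fun r : ℝ => u + r • E) E 0 := by
    simpa using ((hasDerivAt_id (0 : ℝ)).smul_const E).const_add u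
  have h2 : HasFDerivAt f (fderiv ℝ f u) (u + (0 : ℝ) • E) := by
    simpa using hf.hasFDerivAt
  exact h2.comp_hasDerivAt (0 : ℝ) h1

theorem coneC_cd_gh : ContDiff ℝ ∞ fun u : R4 => (gh 0 u).re :=
  GG_cd_re.comp (contDiff_gh.comp (f := fun u : R4 => (((0 : ℝ), u) : ℝ × R4))
    (contDiff_const.prodMk contDiff_id))

theorem coneC_cd_sh : ContDiff ℝ ∞ sh := by
  unfold sh
  fun_prop

theorem coneC_cp_int (k : ℤ) : cp k = 1 := by
  rw [cp, cos_sq', mul_comm, sin_int_mul_pi]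
  norm_num

theorem coneC_sq_int (k : ℤ) : sq k = 0 := by
  rw [sq, mul_comm, sin_int_mul_pi]
  norm_num

theorem coneC_cos_half (k : ℤ) : cos (π * ((k : ℝ) - 1 / 2)) = 0 := by
  rw [show π * ((k : ℝ) - 1 / 2) = k * π - π / 2 by ring, cos_sub_pi_div_two, sin_int_mul_pi]

theorem cone (ε : ℝ) {u : R4} (hu : u ∈ Strip) {η : ℝ} (hη : η = 1 ∨ η = -1)
    (h1 : 99 / 100 ≤ η * wb u) (h2 : η * wb u < 1) :
    ∃ E : R4, η * fderiv ℝ wb u E < 0 ∧ 0 < η * fderiv ℝ (F1 ε) u E := by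
  have hS : ∀ᶠ x in nhds u, x ∈ Strip := isOpen_strip.mem_nhds hu
  have hc : Continuous fun x : R4 => sq x.2.2.2 := contDiff_sq.continuous.comp (by fun_prop)
  rcases lt_or_ge (sq u.2.2.2) (9 / 10) with h | h
  · have e : wb =ᶠ[nhds u] fun x => (gh 0 x).re := by
      have h3 : ∀ᶠ x in nhds u, sq x.2.2.2 < 9 / 10 :=
        (isOpen_lt hc continuous_const).mem_nhds h
      filter_upwards [hS, h3] with x hx hx'
      rw [wb, Gt_one_u hx hx']
    rw [e.self_of_nhds] at h1 h2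
    obtain ⟨k, l, hs, hx, hy, hd⟩ := cone_gh hη h1 h2
    refine ⟨(u.1 - (1 / 2 + η / 4), 0, u.2.2.1 - k, u.2.2.2 - l), by rwa [e.fderiv_eq], ?_⟩
    refine cone_F1 ε hη (Or.inl ⟨coneC_cp_int k, coneC_sq_int l⟩) hs (hx.trans (by norm_num)) hy
      fun h0 => ?_
    rw [h0, map_zero, mul_zero] at hd
    exact lt_irrefl _ hd
  · have e : wb =ᶠ[nhds u] fun x => (gh 0 (sh x)).re := by
      have h3 : ∀ᶠ x in nhds u, 1 / 10 < sq x.2.2.2 :=
        (isOpen_lt continuous_const hc).mem_nhds (show 1 / 10 < sq u.2.2.2 by linarith)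
      filter_upwards [hS, h3] with x hx hx'
      rw [wb, Gt_one_a hx hx']
    rw [e.self_of_nhds] at h1 h2
    obtain ⟨k, l, hs, hx, hy, hd⟩ := cone_gh hη h1 h2
    simp only [sh] at hs hx hy
    have key : fderiv ℝ wb u (u.1 - (1 / 2 + η / 4), 0, u.2.2.1 - (k - 3 * (l - 1 / 2)),
        u.2.2.2 - (l - 1 / 2)) = fderiv ℝ (fun u => (gh 0 u).re) (sh u)
        ((sh u).1 - (1 / 2 + η / 4), 0, (sh u).2.2.1 - k, (sh u).2.2.2 - l) := by
      rw [e.fderiv_eq]
      have d1 := coneC_line (f := fun x => (gh 0 (sh x)).re) (u := u)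
        ((coneC_cd_gh.comp coneC_cd_sh).differentiable (by simp) u)
        (u.1 - (1 / 2 + η / 4), 0, u.2.2.1 - (k - 3 * (l - 1 / 2)), u.2.2.2 - (l - 1 / 2))
      have d2 := coneC_line (f := fun x => (gh 0 x).re) (u := sh u)
        (coneC_cd_gh.differentiable (by simp) _)
        ((sh u).1 - (1 / 2 + η / 4), 0, (sh u).2.2.1 - k, (sh u).2.2.2 - l)
      refine d1.unique (d2.congr_of_eventuallyEq (Filter.Eventually.of_forall fun r => ?_))
      have : sh (u + r • ((u.1 - (1 / 2 + η / 4), 0, u.2.2.1 - (k - 3 * (l - 1 / 2)),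
          u.2.2.2 - (l - 1 / 2)) : R4)) = sh u + r • (((sh u).1 - (1 / 2 + η / 4), 0,
          (sh u).2.2.1 - k, (sh u).2.2.2 - l) : R4) := by
        simp only [sh, Prod.fst_add, Prod.snd_add, Prod.smul_mk, smul_eq_mul, Prod.mk_add_mk,
          Prod.mk.injEq]
        refine ⟨trivial, trivial, by ring, by ring⟩
      simp only [this]
    refine ⟨(u.1 - (1 / 2 + η / 4), 0, u.2.2.1 - (k - 3 * (l - 1 / 2)), u.2.2.2 - (l - 1 / 2)),
      by rwa [key], ?_⟩
    refine cone_F1 ε hη (Or.inr ⟨?_, ?_⟩) hs ?_ ?_ fun h0 => ?_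
    · have := coneC_cos_half (k - 3 * l + 2)
      rw [cp, show (k : ℝ) - 3 * (l - 1 / 2) = ((k - 3 * l + 2 : ℤ) : ℝ) - 1 / 2 by
        push_cast; ring, this]
      norm_num
    · rw [sq, sin_sq, coneC_cos_half]
      norm_num
    · rw [abs_le] at hx hy ⊢
      constructor <;> linarith [hx.1, hx.2, hy.1, hy.2]
    · rw [abs_le] at hy ⊢
      constructor <;> linarith [hy.1, hy.2]
    · rw [← key, h0, map_zero, mul_zero] at hd
      exact lt_irrefl _ hd

theorem coneC_quot {W w : ℝ → ℝ} {W' w' : ℝ} (hW : HasDerivAt W W' 0) (hw : HasDerivAt w w' 0)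
    (hp : 0 < W 0 ^ 2 + (1 - w 0 ^ 2))
    (h : HasDerivAt (fun r => W r / √(W r ^ 2 + (1 - w r ^ 2))) 0 0) :
    W' * (1 - w 0 ^ 2) + W 0 * w 0 * w' = 0 := by
  have h1 : 0 < √(W 0 ^ 2 + (1 - w 0 ^ 2)) := Real.sqrt_pos.2 hp
  have h2 : √(W 0 ^ 2 + (1 - w 0 ^ 2)) ^ 2 = W 0 ^ 2 + (1 - w 0 ^ 2) := Real.sq_sqrt hp.le
  have a2 := hW.fun_div (((hW.fun_pow 2).fun_add ((hw.fun_pow 2).const_sub 1)).sqrt hp.ne') h1.ne'
  have a3 := a2.unique h
  generalize √(W 0 ^ 2 + (1 - w 0 ^ 2)) = s at h1 h2 a3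
  have h3 := h1.ne'
  rw [div_eq_zero_iff] at a3
  have a4 := a3.resolve_right (by positivity)
  push_cast at a4
  field_simp at a4
  linear_combination a4 - W' * h2

theorem coneC_W {w F : ℝ → ℝ} {w' F' : ℝ} (hw : HasDerivAt w w' 0) (hF : HasDerivAt F F' 0)
    (hp : 0 < 1 - w 0 ^ 2) : ∃ W', HasDerivAt
      (fun r => -(aa (w r) * F r / 100) + ch (w r) - ch (-w r)) W' 0 ∧
      W' * (1 - w 0 ^ 2) + (-(aa (w 0) * F 0 / 100) + ch (w 0) - ch (-w 0)) * w 0 * w' =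
        √(1 - w 0 ^ 2) ^ 2 * w' * (deriv ch (w 0) * (1 + √(1 - w 0 ^ 2) * F 0 / 100) +
          deriv ch (-w 0) * (1 - √(1 - w 0 ^ 2) * F 0 / 100)) -
        (1 - ch (w 0) - ch (-w 0)) * √(1 - w 0 ^ 2) ^ 3 * F' / 100 +
        (ch (w 0) - ch (-w 0)) * w 0 * w' := by
  have h1 : 0 < √(1 - w 0 ^ 2) := Real.sqrt_pos.2 hp
  have h2 : √(1 - w 0 ^ 2) ^ 2 = 1 - w 0 ^ 2 := Real.sq_sqrt hp.le
  have c0 : ∀ x, HasDerivAt ch (deriv ch x) x := fun x => hasDerivAt_step _ _ x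
  have c1 : HasDerivAt (fun r => ch (w r)) (deriv ch (w 0) * w') 0 := (c0 _).comp 0 hw
  have c2 : HasDerivAt (fun r => ch (-w r)) (deriv ch (-w 0) * -w') 0 :=
    (c0 (-w 0)).comp 0 hw.fun_neg
  have c3 := ((hw.fun_pow 2).const_sub 1).sqrt hp.ne'
  have c4 := (((((c1.const_sub 1).fun_sub c2).fun_mul c3).fun_mul hF).div_const 100).fun_neg
  refine ⟨_, (c4.fun_add c1).fun_sub c2, ?_⟩
  simp only [aa]
  generalize √(1 - w 0 ^ 2) = s at h1 h2
  rw [← h2]
  have h3 := h1.ne'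
  push_cast
  field_simp
  ring

theorem coneC_sign {s w w' F F' c d : ℝ} (hs : 0 < s) (hs1 : s ≤ 1) (hw : 0 < w) (hw' : w' < 0)
    (hF : -100 ≤ F) (hF' : 0 < F') (hc : 0 ≤ c) (hc1 : c ≤ 1) (hd : 0 ≤ d) :
    s ^ 2 * w' * (d * (1 + s * F / 100)) - (1 - c) * s ^ 3 * F' / 100 + c * w * w' < 0 := by
  have h1 : 0 ≤ 1 + s * F / 100 := by nlinarith
  have h2 : s ^ 2 * w' * (d * (1 + s * F / 100)) ≤ 0 :=
    mul_nonpos_of_nonpos_of_nonneg (mul_nonpos_of_nonneg_of_nonpos (by positivity) hw'.le)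
      (mul_nonneg hd h1)
  have h3 : 0 < s ^ 3 * F' / 100 := by positivity
  have h4 : w * w' < 0 := mul_neg_of_pos_of_neg hw hw'
  have h5 : -((1 - c) * (s ^ 3 * F' / 100)) + c * (w * w') < 0 := by
    rcases eq_or_lt_of_le hc with h | h
    · rw [← h]
      linarith
    · have h6 : 0 ≤ (1 - c) * (s ^ 3 * F' / 100) := mul_nonneg (by linarith) h3.le
      have h7 : c * (w * w') < 0 := mul_neg_of_pos_of_neg h h4
      linarith
  linarith

theorem no_crit_zone {ε : ℝ} (hε : |ε| ≤ 1) {u : R4} (h0 : 0 ≤ u.1) (h1 : u.1 ≤ 1)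
    (h2 : 99 / 100 ≤ |wb u|) (h3 : |wb u| < 1) : fderiv ℝ (fun u => (gam ε u).re) u ≠ 0 := by
  intro hd
  have hu : u ∈ Strip := ⟨by linarith, by linarith⟩
  have hp : 0 < 1 - wb u ^ 2 := by
    have := (sq_lt_one_iff_abs_lt_one (wb u)).2 h3
    linarith
  have dW := (contDiff_WW ε).differentiable (by simp)
  have dw := contDiff_wb.differentiable (by simp)
  have dF := (contDiff_F1 ε).differentiable (by simp)
  have e : (fun u => (gam ε u).re) = fun u => WW ε u / √(WW ε u ^ 2 + (1 - wb u ^ 2)) :=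
    funext (gam_re ε)
  have dg : DifferentiableAt ℝ (fun u => (gam ε u).re) u := by
    rw [e]
    have d1 := (((dW u).fun_pow 2).fun_add (((dw u).fun_pow 2).const_sub 1)).sqrt
      (gam_den_pos ε u).ne'
    have d2 := d1.fun_inv (Real.sqrt_pos.2 (gam_den_pos ε u)).ne'
    simpa only [div_eq_mul_inv] using (dW u).fun_mul d2
  have key : ∀ E : R4, √(1 - wb u ^ 2) ^ 2 * fderiv ℝ wb u E *
      (deriv ch (wb u) * (1 + √(1 - wb u ^ 2) * F1 ε u / 100) +
        deriv ch (-wb u) * (1 - √(1 - wb u ^ 2) * F1 ε u / 100)) -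
      (1 - ch (wb u) - ch (-wb u)) * √(1 - wb u ^ 2) ^ 3 * fderiv ℝ (F1 ε) u E / 100 +
      (ch (wb u) - ch (-wb u)) * wb u * fderiv ℝ wb u E = 0 := by
    intro E
    have e0 : u + (0 : ℝ) • E = u := by simp
    have l1 := coneC_line (dw u) E
    have l2 := coneC_line (dF u) E
    have l3 := coneC_line dg E
    rw [hd] at l3
    simp only [gam_re, zero_apply] at l3
    obtain ⟨W', hW, hW'⟩ := coneC_W l1 l2 (by rwa [e0])
    have := coneC_quot hW l1 (by rw [e0]; exact gam_den_pos ε u) l3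
    rw [hW', e0] at this
    exact this
  have hs : 0 < √(1 - wb u ^ 2) := Real.sqrt_pos.2 hp
  have hs1 : √(1 - wb u ^ 2) ≤ 1 := Real.sqrt_le_one.2 (by nlinarith [sq_nonneg (wb u)])
  have hF := abs_le.1 (abs_F1_le hε h0 h1)
  have hch : ∀ x, 0 ≤ deriv ch x := fun x => deriv_step_nonneg (by norm_num) x
  have hch0 : ∀ x, x < 99 / 100 → deriv ch x = 0 := fun x hx => deriv_step_left (by norm_num) hx
  rcases le_total 0 (wb u) with hw | hw
  · rw [abs_of_nonneg hw] at h2 h3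
    obtain ⟨E, hE1, hE2⟩ := cone ε hu (Or.inl rfl) (by linarith) (by linarith)
    have k := key E
    rw [hch0 (-wb u) (by linarith), GG_ch_zero (w := -wb u) (by linarith)] at k
    have := coneC_sign (w := wb u) (w' := fderiv ℝ wb u E) (F := F1 ε u)
      (F' := fderiv ℝ (F1 ε) u E) hs hs1 (by linarith) (by linarith) hF.1 (by linarith)
      (step_nonneg _ _ (wb u)) (step_le_one (99 / 100) (199 / 200) (wb u)) (hch (wb u))
    simp only [ch] at k
    linarith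
  · rw [abs_of_nonpos hw] at h2 h3
    obtain ⟨E, hE1, hE2⟩ := cone ε hu (Or.inr rfl) (by linarith) (by linarith)
    have k := key E
    rw [hch0 (wb u) (by linarith), GG_ch_zero (w := wb u) (by linarith)] at k
    have := coneC_sign (w := -wb u) (w' := -fderiv ℝ wb u E) (F := -F1 ε u)
      (F' := -fderiv ℝ (F1 ε) u E) hs hs1 (by linarith) (by linarith) (by linarith [hF.2])
      (by linarith) (step_nonneg _ _ (-wb u)) (step_le_one (99 / 100) (199 / 200) (-wb u))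
      (hch (-wb u))
    simp only [ch] at k
    linarith

end Vale.Agent.P265
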