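import Vale.Agent.P265.U.Gh

/-!
P265 block U, file ConeW. w = re (gh 0 u) = 2 la z0 / (la² + mu). If mu ≥ 2 then |w| ≤ 2√2/3 < 0.95 (0 ≤ la ≤ 1, z0² ≤ mu). So mu < 2, la = 1 near u and w = 2 z0 / (1 + z0² + ν), ν = 100 (sq x + sq y).
With z = η z0: (z-1)² + ν ≤ z (2/0.99 - 2), so |z - 1| ≤ 0.16, ν ≤ 0.024; k = round x, l = round y, |sin π θ| ≥ 2 |θ| for |θ| ≤ 1/2.
Along the vector E: E z = z - 1, E ν = 100 Σ π θ sin (2 π θ) ≥ ν, and η E w has numerator -2 (z-1)² (1+z) + 2 (z-1) ν - 2 z E ν ≤ -2 (z-1)² (1+z) - 2 ν < 0 unless z = 1, ν = 0.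
-/

namespace Vale.Agent.P265

open scoped ContDiff Quaternion
open Real

theorem ConeW_sin {φ : ℝ} (h : |φ| ≤ 1) : sin φ ^ 2 ≤ 2 * sin φ * (cos φ * φ) := by
  have h0 := abs_le.1 h
  have h1 : 1 / 2 ≤ cos φ := le_trans (by nlinarith) (one_sub_sq_div_two_le_cos (x := φ))
  have h2 : sin φ ^ 2 ≤ sin φ * φ := by
    rcases le_total 0 φ with h3 | h3
    · have h4 := sin_nonneg_of_nonneg_of_le_pi h3 (by linarith [pi_gt_three])
      nlinarith [sin_le h3]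
    · have h4 := sin_nonpos_of_nonpos_of_neg_pi_le h3 (by linarith [pi_gt_three])
      nlinarith [le_sin h3]
  nlinarith [mul_nonneg (sub_nonneg.2 h1) ((sq_nonneg _).trans h2)]

theorem ConeW_trig {x : ℝ} (h : sq x ≤ 1 / 1600) : ∃ k : ℤ, |x - k| ≤ 1 / 80 ∧
    sq x ≤ 2 * sin (π * x) * (cos (π * x) * (π * (x - k))) := by
  refine ⟨round x, ?_⟩
  have h1 := abs_sub_round x
  generalize round x = k at h1 ⊢
  have e : π * x = π * (x - k) + k * π := by ring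
  have e1 : ((-1 : ℝ) ^ k) * (-1) ^ k = 1 := by
    rw [← mul_zpow]
    simp
  have e2 : sq x = sin (π * (x - k)) ^ 2 := by
    rw [sq, e, sin_add_int_mul_pi, mul_pow, pow_two ((-1 : ℝ) ^ k), e1, one_mul]
  have e3 : 2 * sin (π * x) * (cos (π * x) * (π * (x - k))) =
      2 * sin (π * (x - k)) * (cos (π * (x - k)) * (π * (x - k))) := by
    rw [e, sin_add_int_mul_pi, cos_add_int_mul_pi]
    linear_combination 2 * sin (π * (x - k)) * (cos (π * (x - k)) * (π * (x - k))) * e1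
  have e4 : |π * (x - k)| = π * |x - k| := by rw [abs_mul, abs_of_pos pi_pos]
  have h2 := mul_abs_le_abs_sin (x := π * (x - k)) (by rw [e4]; nlinarith [pi_pos])
  have e5 : 2 / π * (π * |x - k|) = 2 * |x - k| := by field_simp
  rw [e4, e5] at h2
  have h3 : |sin (π * (x - k))| ≤ 1 / 40 :=
    abs_le_of_sq_le_sq (by rw [← e2]; linarith) (by norm_num)
  have h4 : |x - k| ≤ 1 / 80 := by linarith
  refine ⟨h4, ?_⟩
  rw [e2, e3]
  refine ConeW_sin ?_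
  rw [e4]
  nlinarith [pi_le_four, abs_nonneg (x - k)]

theorem ConeW_sq (x θ : ℝ) :
    HasDerivAt (fun t : ℝ => sq (x + t * θ)) (2 * sin (π * x) * (cos (π * x) * (π * θ))) 0 := by
  have h := ((((hasDerivAt_id (0 : ℝ)).mul_const θ).const_add x).const_mul π).sin.pow 2
  refine HasDerivAt.congr_deriv h ?_
  simp

theorem ConeW_der (u E : R4) : fderiv ℝ (fun u => 2 * z0 0 u / (1 + mu 0 u)) u E =
    (2 * (4 * E.1) * (1 + mu 0 u) - 2 * z0 0 u * (2 * z0 0 u * (4 * E.1) +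
      100 * (2 * sin (π * u.2.2.1) * (cos (π * u.2.2.1) * (π * E.2.2.1)) +
        2 * sin (π * u.2.2.2) * (cos (π * u.2.2.2) * (π * E.2.2.2))))) / (1 + mu 0 u) ^ 2 := by
  have h0 : 1 + mu 0 u ≠ 0 := by linarith [mu_nonneg 0 u]
  have d1 : DifferentiableAt ℝ (z0 0) u := by
    unfold z0
    fun_prop
  have d2 : DifferentiableAt ℝ (mu 0) u := by
    unfold mu z0 sq
    fun_prop
  have d3 : DifferentiableAt ℝ (fun u => 2 * z0 0 u / (1 + mu 0 u)) u := by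
    simp only [div_eq_mul_inv]
    exact (d1.const_mul 2).mul ((d2.const_add 1).inv h0)
  have h1 : HasDerivAt (fun t : ℝ => 2 * z0 0 (u + t • E) / (1 + mu 0 (u + t • E))) _ 0 :=
    d3.hasFDerivAt.hasLineDerivAt E
  have h2 : HasDerivAt (fun t : ℝ => z0 0 (u + t • E)) (4 * E.1) 0 := by
    have h := (((((hasDerivAt_id (0 : ℝ)).mul_const E.1).const_add u.1).sub_const 0).sub_const
      (1 / 2)).const_mul 4
    exact HasDerivAt.congr_deriv h (by simp)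
  have h3 : HasDerivAt (fun t : ℝ => mu 0 (u + t • E)) (2 * z0 0 u * (4 * E.1) +
      100 * (2 * sin (π * u.2.2.1) * (cos (π * u.2.2.1) * (π * E.2.2.1)) +
        2 * sin (π * u.2.2.2) * (cos (π * u.2.2.2) * (π * E.2.2.2)))) 0 := by
    have h := (h2.pow 2).add
      (((ConeW_sq u.2.2.1 E.2.2.1).add (ConeW_sq u.2.2.2 E.2.2.2)).const_mul 100)
    exact HasDerivAt.congr_deriv h (by simp)
  have h4 := (h2.const_mul 2).div (h3.const_add 1) (by simpa using h0)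
  simpa using h1.unique h4

theorem ConeW_lt {l z m : ℝ} (h1 : l ^ 2 ≤ 1) (h2 : z ^ 2 ≤ m) (h3 : 0 < l ^ 2 + m)
    (h : 99 / 100 ≤ 2 * l * z / (l ^ 2 + m)) : m < 2 := by
  rw [le_div_iff₀ h3] at h
  nlinarith [sq_nonneg (3 * l - 2 * z)]

theorem ConeW_num {z ν : ℝ} (h0 : 0 ≤ ν) (h1 : 99 / 100 * (1 + (z ^ 2 + ν)) ≤ 2 * z) :
    |z - 1| ≤ 1 / 4 ∧ ν ≤ 1 / 16 := by
  have h2 : |z - 1| ≤ 1 / 4 := abs_le.2 ⟨by nlinarith, by nlinarith⟩
  exact ⟨h2, by nlinarith [abs_le.1 h2, sq_nonneg (z - 1)]⟩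

theorem ConeW_neg {z ν N : ℝ} (hz : 0 < z) (hN : ν ≤ N)
    (h : 2 * z < 1 + (z ^ 2 + ν)) :
    2 * (z - 1) * (1 + (z ^ 2 + ν)) - 2 * z * (2 * (z * (z - 1)) + N) < 0 := by
  nlinarith [mul_nonneg hz.le (sq_nonneg (z - 1)), mul_nonneg hz.le (sub_nonneg.2 hN)]

theorem cone_gh {u : R4} {η : ℝ} (hη : η = 1 ∨ η = -1) (h1 : 99 / 100 ≤ η * (gh 0 u).re)
    (h2 : η * (gh 0 u).re < 1) : ∃ k l : ℤ, |u.1 - (1 / 2 + η / 4)| ≤ 1 / 16 ∧
      |u.2.2.1 - k| ≤ 1 / 80 ∧ |u.2.2.2 - l| ≤ 1 / 80 ∧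
      η * fderiv ℝ (fun u => (gh 0 u).re) u
        (u.1 - (1 / 2 + η / 4), 0, u.2.2.1 - k, u.2.2.2 - l) < 0 := by
  have e2 : η ^ 2 = 1 := by rcases hη with rfl | rfl <;> norm_num
  have e1 : |η| = 1 := by rcases hη with rfl | rfl <;> norm_num
  have sx : 0 ≤ sq u.2.2.1 := sq_nonneg _
  have sy : 0 ≤ sq u.2.2.2 := sq_nonneg _
  have ez : (η * z0 0 u) ^ 2 = z0 0 u ^ 2 := by rw [mul_pow, e2, one_mul]
  have em : mu 0 u = (η * z0 0 u) ^ 2 + 100 * (sq u.2.2.1 + sq u.2.2.2) := by rw [ez, mu]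
  have er : η * (gh 0 u).re = 2 * la 0 u * (η * z0 0 u) / (la 0 u ^ 2 + mu 0 u) := by
    show η * (2 * la 0 u * z0 0 u / (la 0 u ^ 2 + mu 0 u)) = _
    ring
  have hm : mu 0 u < 2 := by
    refine ConeW_lt ?_ (by linarith) (la_mu_pos 0 u) (er ▸ h1)
    have a1 := step_nonneg 2 (12 / 5) (mu 0 u)
    have a2 := step_le_one 2 (12 / 5) (mu 0 u)
    rw [la]
    nlinarith
  have hl : ∀ v, mu 0 v < 2 → la 0 v = 1 := fun v hv => by
    rw [la, step_zero (by norm_num) hv.le, sub_zero]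
  have hc : Continuous (mu 0) := by
    unfold mu z0 sq
    fun_prop
  have hev : (fun u => (gh 0 u).re) =ᶠ[nhds u] fun u => 2 * z0 0 u / (1 + mu 0 u) := by
    filter_upwards [hc.continuousAt.eventually_lt continuousAt_const hm] with v hv
    show 2 * la 0 v * z0 0 v / (la 0 v ^ 2 + mu 0 v) = _
    rw [hl v hv, mul_one, one_pow]
  have hp : 0 < 1 + mu 0 u := by linarith [mu_nonneg 0 u]
  rw [er, hl u hm, mul_one, one_pow] at h1 h2
  rw [le_div_iff₀ hp, em] at h1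
  rw [div_lt_one hp, em] at h2
  obtain ⟨b1, b2⟩ := ConeW_num (by linarith) h1
  obtain ⟨k, k1, k2⟩ := ConeW_trig (x := u.2.2.1) (by linarith)
  obtain ⟨l, l1, l2⟩ := ConeW_trig (x := u.2.2.2) (by linarith)
  have ea : 4 * (u.1 - (1 / 2 + η / 4)) = η * (η * z0 0 u - 1) := by
    rw [z0]
    linear_combination (-4 * (u.1 - 1 / 2)) * e2
  refine ⟨k, l, ?_, k1, l1, ?_⟩
  · have a1 := congrArg abs ea
    rw [abs_mul, abs_mul, e1, abs_of_pos (by norm_num : (0 : ℝ) < 4)] at a1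
    linarith
  · rw [hev.fderiv_eq, ConeW_der, ← mul_div_assoc]
    refine div_neg_of_neg_of_pos ?_ (by positivity)
    have a1 := ConeW_neg (by linarith [abs_le.1 b1])
      (mul_le_mul_of_nonneg_left (add_le_add k2 l2) (by norm_num : (0 : ℝ) ≤ 100)) h2
    dsimp only
    rw [ea, em]
    refine lt_of_eq_of_lt ?_ a1
    linear_combination (2 * (η * z0 0 u - 1) * (1 + ((η * z0 0 u) ^ 2 +
      100 * (sq u.2.2.1 + sq u.2.2.2)))) * e2

end Vale.Agent.P265
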