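import Vale.Agent.P265.U.GG

/-!
P265 block U, file CritB. For |wb u| < 99/100, near u: ch (± wb) = 0, WW = -√(1-w²) F1/100, so by gam_re: re gam = Θ (-F1/100), Θ z = z / √(1 + z²), Θ smooth, Θ' > 0.
So d (re gam) = -(Θ'/100) dF1 near u, and at a critical point the second derivative is -(Θ'/100) times that of F1.
-/

namespace Vale.Agent.P265

open scoped ContDiff Quaternion
open Real

theorem critB_chain {A : Type} [NormedAddCommGroup A] [NormedSpace ℝ A] {f : A → ℝ} {θ : ℝ → ℝ}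
    {u : A} (hf : ContDiff ℝ ∞ f) (hθ : ContDiff ℝ ∞ θ) (h1 : deriv θ (f u) ≠ 0)
    (hd : fderiv ℝ (fun x => θ (f x)) u = 0) : fderiv ℝ f u = 0 ∧
      (Function.Injective (fderiv ℝ (fderiv ℝ f) u) →
        Function.Injective (fderiv ℝ (fderiv ℝ fun x => θ (f x)) u)) := by
  have e : (fderiv ℝ fun x => θ (f x)) = fun x => deriv θ (f x) • fderiv ℝ f x := by
    funext x
    exact ((hθ.differentiable (by simp) (f x)).hasDerivAt.comp_hasFDerivAt x
      (hf.differentiable (by simp) x).hasFDerivAt).fderiv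
  have h0 : fderiv ℝ f u = 0 := by
    rw [e] at hd
    exact (smul_eq_zero.1 hd).resolve_left h1
  refine ⟨h0, fun hi => ?_⟩
  have d1 : DifferentiableAt ℝ (fun x => deriv θ (f x)) u :=
    ((hθ.iterate_deriv 1).differentiable (by simp) (f u)).comp u (hf.differentiable (by simp) u)
  have d2 : DifferentiableAt ℝ (fderiv ℝ f) u :=
    (hf.fderiv_right (m := ∞) (by simp)).differentiable (by simp) u
  rw [e, fderiv_fun_smul d1 d2, h0]
  rw [injective_iff_map_eq_zero] at hi ⊢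
  intro a ha
  apply hi
  simpa [h1] using ha

theorem critB_smooth : ContDiff ℝ ∞ fun z : ℝ => -(z / 100) / √(1 + (z / 100) ^ 2) := by
  refine ContDiff.div (by fun_prop) (ContDiff.sqrt (by fun_prop) fun z => by positivity)
    fun z => ?_
  positivity

theorem critB_deriv (z : ℝ) :
    deriv (fun z : ℝ => -(z / 100) / √(1 + (z / 100) ^ 2)) z ≠ 0 := by
  have h0 : 0 < 1 + (z / 100) ^ 2 := by positivity
  have h1 : 0 < √(1 + (z / 100) ^ 2) := Real.sqrt_pos.2 h0
  have h2 : √(1 + (z / 100) ^ 2) ^ 2 = 1 + (z / 100) ^ 2 := Real.sq_sqrt h0.le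
  have a1 : HasDerivAt (fun z : ℝ => z / 100) (1 / 100) z := (hasDerivAt_id z).div_const 100
  have a2 := a1.fun_neg.fun_div (((a1.fun_pow 2).const_add 1).sqrt h0.ne') h1.ne'
  rw [a2.deriv]
  generalize √(1 + (z / 100) ^ 2) = s at h1 h2
  have a3 : -(1 / 100) * s - -(z / 100) * (((2 : ℕ) : ℝ) * (z / 100) ^ (2 - 1) * (1 / 100) / (2 * s)) =
      -(1 / (100 * s)) := by
    have h3 := h1.ne'
    push_cast
    field_simp
    linear_combination (-10000 : ℝ) * h2
  rw [a3]
  exact div_ne_zero (neg_ne_zero.2 (by positivity)) (by positivity)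

theorem critB_re (ε : ℝ) {u : R4} (h : |wb u| < 99 / 100) :
    (gam ε u).re = -(F1 ε u / 100) / √(1 + (F1 ε u / 100) ^ 2) := by
  rw [abs_lt] at h
  have c1 : ch (wb u) = 0 := step_zero (by norm_num) h.2.le
  have c2 : ch (-wb u) = 0 := step_zero (by norm_num) (by linarith [h.1])
  have h0 : 0 < 1 - wb u ^ 2 := by nlinarith [h.1, h.2]
  have h1 : 0 < √(1 - wb u ^ 2) := Real.sqrt_pos.2 h0
  have h2 : √(1 - wb u ^ 2) ^ 2 = 1 - wb u ^ 2 := Real.sq_sqrt h0.le
  have e1 : WW ε u = √(1 - wb u ^ 2) * -(F1 ε u / 100) := by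
    rw [WW, aa, c1, c2]
    ring
  have e2 : WW ε u ^ 2 + (1 - wb u ^ 2) = (1 - wb u ^ 2) * (1 + (F1 ε u / 100) ^ 2) := by
    rw [e1, mul_pow, h2]
    ring
  rw [gam_re, e2, Real.sqrt_mul h0.le, e1, mul_div_mul_left _ _ h1.ne']

theorem crit_far (ε : ℝ) {u : R4} (h : |wb u| < 99 / 100)
    (hd : fderiv ℝ (fun u => (gam ε u).re) u = 0) : fderiv ℝ (F1 ε) u = 0 ∧
      (Function.Injective (fderiv ℝ (fderiv ℝ (F1 ε)) u) →
        Function.Injective (fderiv ℝ (fderiv ℝ fun u => (gam ε u).re) u)) := by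
  have e : (fun u => (gam ε u).re) =ᶠ[nhds u]
      fun x => -(F1 ε x / 100) / √(1 + (F1 ε x / 100) ^ 2) := by
    have h1 : ∀ᶠ x in nhds u, |wb x| < 99 / 100 :=
      (isOpen_lt contDiff_wb.continuous.abs continuous_const).mem_nhds h
    exact h1.mono fun x hx => critB_re ε hx
  rw [e.fderiv_eq] at hd
  rw [e.fderiv.fderiv_eq]
  exact critB_chain (θ := fun z : ℝ => -(z / 100) / √(1 + (z / 100) ^ 2)) (contDiff_F1 ε)
    critB_smooth (critB_deriv _) hd

end Vale.Agent.P265
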