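import Vale.Agent.P265.Base

/-!
P265 block U: definitions (fixed) and the basic facts on `step` and `bump`.
`u = (s, t, x, y)`. Everything is defined by one formula on the strip `-1/10 < s < 11/10` and periodised in `U/Per.lean`.
-/

namespace Vale.Agent.P265

open scoped ContDiff Quaternion
open Real

noncomputable section

/-- `0` for `r ≤ a`, `1` for `b ≤ r`, monotone -/
def step (a b r : ℝ) : ℝ := smoothTransition ((r - a) / (b - a))

/-- `1` for `r ≤ ρ`, `0` for `2 ρ ≤ r`, antitone -/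
def bump (ρ r : ℝ) : ℝ := 1 - step ρ (2 * ρ) r

/-- odd, `0` on `[-a, a]`, `1` on `[b, ∞)` -/
def odd (a b r : ℝ) : ℝ := step a b r - step a b (-r)

def cp (x : ℝ) : ℝ := cos (π * x) ^ 2
def sq (y : ℝ) : ℝ := sin (π * y) ^ 2
def PP (p q : ℝ) : ℝ := p + q - 3 * p * q + p * q * (p + q)

/-- the family of functions of `(p, q)` in the first stage -/
def KK (β a p q : ℝ) : ℝ :=
  (1 - β) * PP p q - β * PP (1 - p) (1 - q) - (8 - a) * bump (1 / 352) (p + q) +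
    a * bump (1 / 352) (2 - p - q) + 8 * (1 - β) * bump (1 / 16) (1 - p + q) -
    8 * β * bump (1 / 16) (p + 1 - q)

def be (s : ℝ) : ℝ := step (2 / 5) (3 / 5) s
def bt (s : ℝ) : ℝ := step (17 / 20) (9 / 10) s
def am (s : ℝ) : ℝ := 7 * ((1 - bt s) * step (1 / 10) (1 / 5) s * s + bt s) + be s

/-- the function on the mapping torus -/
def F0 (s x y : ℝ) : ℝ :=
  KK (be s) (am s) (cp x) (sq y) +
    bt s * (KK 0 0 (cp (x - 3 * y + 3 / 2)) (sq (y - 1 / 2)) - KK 1 8 (cp x) (sq y)) +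
    sin (2 * π * s)

/-- the odd bump -/
def chi (s x y : ℝ) : ℝ :=
  step (1 / 10) (1 / 5) s * (1 - step (4 / 5) (9 / 10) s) *
    odd (1 / 2) (3 / 4) (sin (2 * π * x) + sin (2 * π * y))

def F1 (ε : ℝ) (u : R4) : ℝ :=
  F0 u.1 u.2.2.1 u.2.2.2 + ε * cos (π * u.2.1) * chi u.1 u.2.2.1 u.2.2.2

/-- the extremal points of `F0 (1/4)` and `F0 (3/4)` -/
def IsExt (u : R4) : Prop :=
  (u.1 = 1 / 4 ∨ u.1 = 3 / 4) ∧
    ((cp u.2.2.1 = 1 ∧ sq u.2.2.2 = 0) ∨ (cp u.2.2.1 = 0 ∧ sq u.2.2.2 = 1))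

/-- the saddle points -/
def IsSad (u : R4) : Prop :=
  (u.1 = 1 / 4 ∧ ((cp u.2.2.1 = 1 ∧ sq u.2.2.2 = 1 / 2) ∨ (cp u.2.2.1 = 1 / 2 ∧ sq u.2.2.2 = 1))) ∨
  (u.1 = 3 / 4 ∧ ((cp u.2.2.1 = 0 ∧ sq u.2.2.2 = 1 / 2) ∨ (cp u.2.2.1 = 1 / 2 ∧ sq u.2.2.2 = 0)))

/-- odd, one-periodic, equal to `± sin (π x)` near the integers -/
def sn (x : ℝ) : ℝ := sin (π * x) * odd (1 / 4) (1 / 2) (cos (π * x))

def z0 (κ : ℝ) (u : R4) : ℝ := 4 * (u.1 - κ - 1 / 2)
def z2 (u : R4) : ℝ := 10 * (cos (π * u.2.1) * sn u.2.2.1 - sin (π * u.2.1) * sn u.2.2.2)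
def z3 (u : R4) : ℝ := 10 * (sin (π * u.2.1) * sn u.2.2.1 + cos (π * u.2.1) * sn u.2.2.2)
def mu (κ : ℝ) (u : R4) : ℝ := z0 κ u ^ 2 + 100 * (sq u.2.2.1 + sq u.2.2.2)
def la (κ : ℝ) (u : R4) : ℝ := 1 - step 2 (12 / 5) (mu κ u)

/-- the base point `-i` -/
def e0 : ℍ := ⟨0, -1, 0, 0⟩

/-- the bump with values in the unit quaternions -/
def gh (κ : ℝ) (u : R4) : ℍ :=
  ⟨2 * la κ u * z0 κ u / (la κ u ^ 2 + mu κ u), (la κ u ^ 2 - mu κ u) / (la κ u ^ 2 + mu κ u),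
    2 * la κ u * z2 u / (la κ u ^ 2 + mu κ u), 2 * la κ u * z3 u / (la κ u ^ 2 + mu κ u)⟩

def gs (κ : ℝ) (u : R4) : ℍ := gh κ u + gh κ (act 1 0 0 0 u) - e0

def Gt (σ : ℝ) (u : R4) : ℍ :=
  gs 0 u * ⟨cos (π * σ / 2), 0, -sin (π * σ / 2), 0⟩ * star (gs σ u) *
    ⟨cos (π * σ / 2), 0, 0, -sin (π * σ / 2)⟩

def wb (u : R4) : ℝ := (Gt 1 u).re

def ch (w : ℝ) : ℝ := step (99 / 100) (199 / 200) w
def aa (w : ℝ) : ℝ := (1 - ch w - ch (-w)) * √(1 - w ^ 2)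
def WW (ε : ℝ) (u : R4) : ℝ := -(aa (wb u) * F1 ε u / 100) + ch (wb u) - ch (-wb u)

def nrm (q : ℍ) : ℍ := (√(Quaternion.normSq q))⁻¹ • q

/-- the end point of the path -/
def gam (ε : ℝ) (u : R4) : ℍ := nrm (Gt 1 u + ((WW ε u - wb u : ℝ) : ℍ))

/-- the path on the strip -/
def GG (ε : ℝ) (w : ℝ × R4) : ℍ :=
  Gt (step (1 / 10) (9 / 10) w.1) w.2 * star (Gt 1 w.2) *
    nrm (Gt 1 w.2 + ((step (1 / 10) (9 / 10) w.1 * (WW ε w.2 - wb w.2) : ℝ) : ℍ))

/-- the shear part of `act 1 0 0 0` -/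
def sh (u : R4) : R4 := (u.1, u.2.1, u.2.2.1 + 3 * u.2.2.2, u.2.2.2 + 1 / 2)

/-- the strip -/
def Strip : Set R4 := {u | -(1 / 10) < u.1 ∧ u.1 < 11 / 10}

/-- The properties of `IsPath` on the strip. -/
structure IsPath0 (G : ℝ × R4 → ℍ) : Prop where
  smooth : ContDiffOn ℝ ∞ G {w | w.2 ∈ Strip}
  unit : ∀ τ, ∀ u ∈ Strip, Quaternion.normSq (G (τ, u)) = 1
  inv : ∀ τ u n a b, G (τ, act 0 n a b u) = G (τ, u)
  glue : ∀ τ (u : R4), |u.1| < 1 / 10 → G (τ, act 1 0 0 0 u) = G (τ, u)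
  start : ∀ τ, ∀ u ∈ Strip, τ ≤ 1 / 10 → G (τ, u) = 1
  stop : ∀ τ u, 9 / 10 ≤ τ → G (τ, u) = G (1, u)
  reg : ∀ u : R4, 0 ≤ u.1 → u.1 < 1 → imv (G (1, u)) = 0 →
    Function.Surjective (fderiv ℝ (fun u => imv (G (1, u))) u)
  crit : ∃ S : Finset R4, S.card ≤ 8 ∧ ∀ u : R4, 0 ≤ u.1 → u.1 < 1 → imv (G (1, u)) ≠ 0 →
    fderiv ℝ (fun u => (G (1, u)).re) u = 0 → (∃ u' ∈ S, Rel4 u u') ∧
      Function.Injective (fderiv ℝ (fderiv ℝ fun u => (G (1, u)).re) u)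

theorem isOpen_strip : IsOpen Strip :=
  (isOpen_lt continuous_const continuous_fst).inter (isOpen_lt continuous_fst continuous_const)

variable {a b r ρ : ℝ}

@[fun_prop]
theorem contDiff_step (a b : ℝ) : ContDiff ℝ ∞ (step a b) :=
  smoothTransition.contDiff.comp (by fun_prop)

@[fun_prop]
theorem contDiff_bump (ρ : ℝ) : ContDiff ℝ ∞ (bump ρ) := by
  unfold bump; fun_prop

@[fun_prop]
theorem contDiff_odd (a b : ℝ) : ContDiff ℝ ∞ (odd a b) := by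
  unfold odd; fun_prop

theorem step_nonneg (a b r : ℝ) : 0 ≤ step a b r := smoothTransition.nonneg _

theorem step_le_one (a b r : ℝ) : step a b r ≤ 1 := smoothTransition.le_one _

theorem step_zero (h : a < b) (hr : r ≤ a) : step a b r = 0 :=
  smoothTransition.zero_of_nonpos (div_nonpos_of_nonpos_of_nonneg (by linarith) (by linarith))

theorem step_one (h : a < b) (hr : b ≤ r) : step a b r = 1 :=
  smoothTransition.one_of_one_le ((one_le_div (by linarith)).2 (by linarith))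

theorem step_mono (h : a < b) : Monotone (step a b) := fun _ _ hr =>
  smoothTransition.monotone (div_le_div_of_nonneg_right (by linarith) (by linarith))

theorem hasDerivAt_step (a b r : ℝ) : HasDerivAt (step a b) (deriv (step a b) r) r :=
  (((contDiff_step a b).differentiable (by simp)) r).hasDerivAt

theorem deriv_step_nonneg (h : a < b) (r : ℝ) : 0 ≤ deriv (step a b) r :=
  (step_mono h).deriv_nonneg

theorem deriv_step_left (h : a < b) (hr : r < a) : deriv (step a b) r = 0 := by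
  have : step a b =ᶠ[nhds r] fun _ => 0 :=
    (eventually_lt_nhds hr).mono fun _ h' => step_zero h h'.le
  rw [this.deriv_eq, deriv_const]

theorem deriv_step_right (h : a < b) (hr : b < r) : deriv (step a b) r = 0 := by
  have : step a b =ᶠ[nhds r] fun _ => 1 :=
    (eventually_gt_nhds hr).mono fun _ h' => step_one h h'.le
  rw [this.deriv_eq, deriv_const]

theorem bump_nonneg (ρ r : ℝ) : 0 ≤ bump ρ r := sub_nonneg.2 (step_le_one _ _ _)

theorem bump_le_one (ρ r : ℝ) : bump ρ r ≤ 1 := sub_le_self _ (step_nonneg _ _ _)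

theorem bump_one (h : 0 < ρ) (hr : r ≤ ρ) : bump ρ r = 1 := by
  rw [bump, step_zero (by linarith) hr, sub_zero]

theorem bump_zero (h : 0 < ρ) (hr : 2 * ρ ≤ r) : bump ρ r = 0 := by
  rw [bump, step_one (by linarith) hr, sub_self]

theorem hasDerivAt_bump (ρ r : ℝ) : HasDerivAt (bump ρ) (-deriv (step ρ (2 * ρ)) r) r :=
  (hasDerivAt_step _ _ r).const_sub 1

theorem odd_neg (a b r : ℝ) : odd a b (-r) = -odd a b r := by simp [odd]

theorem odd_zero (h : a < b) (hr : |r| ≤ a) : odd a b r = 0 := by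
  rw [odd, step_zero h (le_of_abs_le hr), step_zero h (by linarith [neg_le_of_abs_le hr]), sub_self]

theorem odd_one (h0 : 0 ≤ a) (h : a < b) (hr : b ≤ r) : odd a b r = 1 := by
  rw [odd, step_one h hr, step_zero h (by linarith), sub_zero]

theorem abs_odd_le (a b r : ℝ) : |odd a b r| ≤ 1 := by
  rw [odd, abs_le]
  constructor <;> linarith [step_nonneg a b r, step_le_one a b r, step_nonneg a b (-r),
    step_le_one a b (-r)]

@[fun_prop]
theorem contDiff_cp : ContDiff ℝ ∞ cp := by unfold cp; fun_prop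

@[fun_prop]
theorem contDiff_sq : ContDiff ℝ ∞ sq := by unfold sq; fun_prop

theorem contDiff_F0 : ContDiff ℝ ∞ fun v : R3 => F0 v.1 v.2.1 v.2.2 := by
  unfold F0 KK PP am be bt; fun_prop

theorem contDiff_chi : ContDiff ℝ ∞ fun v : R3 => chi v.1 v.2.1 v.2.2 := by
  unfold chi; fun_prop

@[fun_prop]
theorem contDiff_F1 (ε : ℝ) : ContDiff ℝ ∞ (F1 ε) := by
  unfold F1 F0 chi KK PP am be bt; fun_prop

end

end Vale.Agent.P265
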