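import Vale.Agent.P265.U.Inc

/-!
P265 block U, file FCritA. KK is affine in β and in a. The s-derivative of F0 is
be' ∂βKK + am' (bump (1/352) (p+q) + bump (1/352) (2-p-q)) + bt' * (increment) + 2 π cos (2 π s).
Here be' = 0, am' ≥ 0 (am' = 7 (bt' (1 - st s) + (1 - bt) (st' s + st)) + be'), bt' ≥ 0, inc_nonneg, cos > 0.
-/

namespace Vale.Agent.P265

open scoped ContDiff Quaternion
open Real

theorem FCritA_cos {s : ℝ} (h0 : 0 ≤ s) (h1 : s ≤ 1) (h : s < 1 / 4 ∨ 3 / 4 < s) :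
    0 < cos (2 * π * s) := by
  rcases h with h | h
  · exact cos_pos_of_mem_Ioo ⟨by nlinarith [pi_pos], by nlinarith [pi_pos]⟩
  · rw [← cos_sub_two_pi]
    exact cos_pos_of_mem_Ioo ⟨by nlinarith [pi_pos], by nlinarith [pi_pos]⟩

theorem FCritA_be {s : ℝ} (h : s < 1 / 4 ∨ 3 / 4 < s) : HasDerivAt be 0 s := by
  have h1 := hasDerivAt_step (2 / 5) (3 / 5) s
  rcases h with h | h
  · rwa [deriv_step_left (by norm_num) (by linarith)] at h1
  · rwa [deriv_step_right (by norm_num) (by linarith)] at h1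

theorem FCritA_am {s : ℝ} (h0 : 0 ≤ s) (h1 : s ≤ 1) (h : s < 1 / 4 ∨ 3 / 4 < s) :
    ∃ d, 0 ≤ d ∧ HasDerivAt am d s := by
  have hb : HasDerivAt bt _ s := hasDerivAt_step (17 / 20) (9 / 10) s
  have hs := hasDerivAt_step (1 / 10) (1 / 5) s
  have H : HasDerivAt am _ s :=
    (((((hb.const_sub 1).mul hs).mul (hasDerivAt_id' s)).add hb).const_mul 7).add (FCritA_be h)
  refine ⟨_, ?_, H⟩
  have a1 := deriv_step_nonneg (a := 17 / 20) (b := 9 / 10) (by norm_num) s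
  have a2 := deriv_step_nonneg (a := 1 / 10) (b := 1 / 5) (by norm_num) s
  have a3 : 0 ≤ 1 - bt s := sub_nonneg.2 (step_le_one _ _ _)
  have a4 := step_nonneg (1 / 10) (1 / 5) s
  have a5 := step_le_one (1 / 10) (1 / 5) s
  simp only [Pi.mul_apply]
  generalize deriv (step (17 / 20) (9 / 10)) s = b at a1 ⊢
  generalize deriv (step (1 / 10) (1 / 5)) s = c at a2 ⊢
  generalize step (1 / 10) (1 / 5) s = t at a4 a5 ⊢
  generalize 1 - bt s = r at a3 ⊢
  have a6 : 0 ≤ b * (1 - t * s) := mul_nonneg a1 (by nlinarith)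
  have a7 : 0 ≤ r * c * s := by positivity
  have a8 : 0 ≤ r * t := by positivity
  nlinarith

theorem F0_ds_pos {s : ℝ} (x y : ℝ) (h0 : 0 ≤ s) (h1 : s ≤ 1) (h : s < 1 / 4 ∨ 3 / 4 < s) :
    0 < deriv (fun s => F0 s x y) s := by
  obtain ⟨d, hd, ha⟩ := FCritA_am h0 h1 h
  have hb : HasDerivAt bt _ s := hasDerivAt_step (17 / 20) (9 / 10) s
  have e : (fun s => F0 s x y) = fun s => KK 0 0 (cp x) (sq y) +
      be s * (KK 1 0 (cp x) (sq y) - KK 0 0 (cp x) (sq y)) +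
      am s * (bump (1 / 352) (cp x + sq y) + bump (1 / 352) (2 - cp x - sq y)) +
      bt s * (KK 0 0 (cp (x - 3 * y + 3 / 2)) (sq (y - 1 / 2)) - KK 1 8 (cp x) (sq y)) +
      sin (2 * π * s) := by
    funext s
    unfold F0
    congr 2
    unfold KK
    ring
  have H := (((((FCritA_be h).mul_const (KK 1 0 (cp x) (sq y) - KK 0 0 (cp x) (sq y))).const_add
    (KK 0 0 (cp x) (sq y))).fun_add (ha.mul_const
      (bump (1 / 352) (cp x + sq y) + bump (1 / 352) (2 - cp x - sq y)))).fun_add (hb.mul_const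
      (KK 0 0 (cp (x - 3 * y + 3 / 2)) (sq (y - 1 / 2)) - KK 1 8 (cp x) (sq y)))).fun_add
      ((hasDerivAt_id' s).const_mul (2 * π)).sin
  rw [e, H.deriv]
  have a1 := mul_nonneg hd (add_nonneg (bump_nonneg (1 / 352) (cp x + sq y))
    (bump_nonneg (1 / 352) (2 - cp x - sq y)))
  have a2 := mul_nonneg (deriv_step_nonneg (a := 17 / 20) (b := 9 / 10) (by norm_num) s)
    (inc_nonneg x y)
  have a3 := mul_pos (FCritA_cos h0 h1 h) (mul_pos two_pos pi_pos)
  linarith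

end Vale.Agent.P265
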