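import Vale.Agent.P265.U.Inc

/-!
P265 block U, file FCritB. Near 1/4 ≤ s ≤ 3/4: bt = 0, am s = 7 s + be s (in [0,8]), F0 = KK (be s) (am s) p q + sin (2 π s).
∂x = ∂pKK * p', ∂y = ∂qKK * q', and p' = 0 iff p in {0,1}, q' = 0 iff q in {0,1}. PP_p = 1-3q+q²+2pq, PP_q = 1-3p+p²+2pq.
(1) p+q < 1/8 or 2-p-q < 1/8: ∂pKK > 0 and ∂qKK > 0 (both PP terms positive, the two small bumps give terms ≥ 0, the two large bumps are locally 0),
so p = q = 0 or p = q = 1, where ∂βKK = -1, ∂aKK = 1 and ∂s = 7 + 2 π cos > 0.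
(2) otherwise ∂aKK = 0, ∂βKK ≤ 0 (PP_nonneg), be' ≥ 0, so 0 = ∂s ≤ 2 π cos (2 π s) ≤ 0 and s = 1/4 or 3/4.
At s = 1/4: KK = PP p q + 8 bump (1/16) (1-p+q) + (locally 0). If 1-p+q ≤ 1/8: ∂p > 0, ∂q < 0, corner p = 1, q = 0.
Otherwise the bump is locally 0; PP_p = PP_q = 0 gives (p-q)(3-p-q) = 0 and 1-3p+3p² = 0, impossible; edges and corners give the list.
At s = 3/4 the same with (1-p, 1-q): KK = -PP (1-p) (1-q) - 8 bump (1/16) (p+1-q).
-/

namespace Vale.Agent.P265

open scoped ContDiff Quaternion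
open Real

noncomputable def fcbD (ρ r : ℝ) : ℝ := deriv (step ρ (2 * ρ)) r

theorem fcbD_nonneg {ρ : ℝ} (h : 0 < ρ) (r : ℝ) : 0 ≤ fcbD ρ r :=
  deriv_step_nonneg (by linarith) r

theorem fcbD_zero {ρ r : ℝ} (h : 0 < ρ) (hr : 2 * ρ < r) : fcbD ρ r = 0 :=
  deriv_step_right (by linarith) hr

theorem fcb_bump {f : ℝ → ℝ} {f' r : ℝ} (ρ : ℝ) (h : HasDerivAt f f' r) :
    HasDerivAt (fun r => bump ρ (f r)) (-fcbD ρ (f r) * f') r :=
  (hasDerivAt_bump ρ (f r)).comp r h

noncomputable def fcbP (β a p q : ℝ) : ℝ :=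
  (1 - β) * (1 - 3 * q + q ^ 2 + 2 * p * q) +
    β * (1 - 3 * (1 - q) + (1 - q) ^ 2 + 2 * (1 - p) * (1 - q)) +
    (8 - a) * fcbD (1 / 352) (p + q) + a * fcbD (1 / 352) (2 - p - q) +
    8 * (1 - β) * fcbD (1 / 16) (1 - p + q) + 8 * β * fcbD (1 / 16) (p + 1 - q)

noncomputable def fcbQ (β a p q : ℝ) : ℝ :=
  (1 - β) * (1 - 3 * p + p ^ 2 + 2 * p * q) +
    β * (1 - 3 * (1 - p) + (1 - p) ^ 2 + 2 * (1 - p) * (1 - q)) +
    (8 - a) * fcbD (1 / 352) (p + q) + a * fcbD (1 / 352) (2 - p - q) -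
    8 * (1 - β) * fcbD (1 / 16) (1 - p + q) - 8 * β * fcbD (1 / 16) (p + 1 - q)

theorem fcb_PP {f g : ℝ → ℝ} {f' g' r : ℝ} (hf : HasDerivAt f f' r) (hg : HasDerivAt g g' r) :
    HasDerivAt (fun r => PP (f r) (g r))
      ((1 - 3 * g r + g r ^ 2 + 2 * f r * g r) * f' +
        (1 - 3 * f r + f r ^ 2 + 2 * f r * g r) * g') r := by
  have := ((hf.add hg).sub ((hf.const_mul 3).mul hg)).add ((hf.mul hg).mul (hf.add hg))
  refine (this.congr_deriv ?_).congr_of_eventuallyEq (.of_forall fun r => ?_)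
  · simp only [Pi.add_apply, Pi.mul_apply]; ring
  · simp only [PP, Pi.add_apply, Pi.mul_apply, Pi.sub_apply]

theorem fcb_KK (β a : ℝ) {f g : ℝ → ℝ} {f' g' r : ℝ} (hf : HasDerivAt f f' r)
    (hg : HasDerivAt g g' r) :
    HasDerivAt (fun r => KK β a (f r) (g r))
      (fcbP β a (f r) (g r) * f' + fcbQ β a (f r) (g r) * g') r := by
  have h1 := (fcb_PP hf hg).const_mul (1 - β)
  have h2 := (fcb_PP (hf.const_sub 1) (hg.const_sub 1)).const_mul β
  have h3 := (fcb_bump (1 / 352) (hf.fun_add hg)).const_mul (8 - a)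
  have h4 := (fcb_bump (1 / 352) ((hf.const_sub 2).fun_sub hg)).const_mul a
  have h5 := (fcb_bump (1 / 16) ((hf.const_sub 1).fun_add hg)).const_mul (8 * (1 - β))
  have h6 := (fcb_bump (1 / 16) ((hf.add_const 1).fun_sub hg)).const_mul (8 * β)
  have := ((((h1.fun_sub h2).fun_sub h3).fun_add h4).fun_add h5).fun_sub h6
  refine this.congr_deriv ?_
  simp only [fcbP, fcbQ]; ring

theorem fcb_cp (x : ℝ) : HasDerivAt cp (-(2 * π * (cos (π * x) * sin (π * x)))) x := by
  have := (((hasDerivAt_id x).const_mul π).cos).pow 2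
  refine (this.congr_deriv ?_).congr_of_eventuallyEq (.of_forall fun r => rfl)
  simp; ring

theorem fcb_sq (y : ℝ) : HasDerivAt sq (2 * π * (cos (π * y) * sin (π * y))) y := by
  have := (((hasDerivAt_id y).const_mul π).sin).pow 2
  refine (this.congr_deriv ?_).congr_of_eventuallyEq (.of_forall fun r => rfl)
  simp; ring

theorem fcb_x {s x y : ℝ} (h1 : s ≤ 3 / 4) (hx : deriv (fun x => F0 s x y) x = 0) :
    fcbP (be s) (am s) (cp x) (sq y) = 0 ∨ cp x = 0 ∨ cp x = 1 := by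
  have hb : bt s = 0 := step_zero (by norm_num) (by linarith)
  have h := (fcb_KK (be s) (am s) (fcb_cp x) (hasDerivAt_const x (sq y))).add_const
    (sin (2 * π * s))
  simp only [F0, hb, zero_mul, add_zero] at hx
  rw [h.deriv, mul_zero, add_zero, mul_eq_zero, neg_eq_zero] at hx
  rcases hx with h | h
  · exact Or.inl h
  rcases mul_eq_zero.1 ((mul_eq_zero.1 h).resolve_left (by positivity)) with h | h
  · exact Or.inr (Or.inl (by rw [cp, h]; norm_num))
  · exact Or.inr (Or.inr (by rw [cp, cos_sq', h]; norm_num))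

theorem fcb_y {s x y : ℝ} (h1 : s ≤ 3 / 4) (hy : deriv (fun y => F0 s x y) y = 0) :
    fcbQ (be s) (am s) (cp x) (sq y) = 0 ∨ sq y = 0 ∨ sq y = 1 := by
  have hb : bt s = 0 := step_zero (by norm_num) (by linarith)
  have h := (fcb_KK (be s) (am s) (hasDerivAt_const y (cp x)) (fcb_sq y)).add_const
    (sin (2 * π * s))
  simp only [F0, hb, zero_mul, add_zero] at hy
  rw [h.deriv, mul_zero, zero_add, mul_eq_zero] at hy
  rcases hy with h | h
  · exact Or.inl h
  rcases mul_eq_zero.1 ((mul_eq_zero.1 h).resolve_left (by positivity)) with h | h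
  · exact Or.inr (Or.inr (by rw [sq, sin_sq, h]; norm_num))
  · exact Or.inr (Or.inl (by rw [sq, h]; norm_num))

theorem fcb_s {s : ℝ} (x y : ℝ) (h0 : 1 / 4 ≤ s) (h1 : s ≤ 3 / 4) :
    deriv (fun s => F0 s x y) s =
      deriv be s * (-PP (cp x) (sq y) - PP (1 - cp x) (1 - sq y) -
        8 * bump (1 / 16) (1 - cp x + sq y) - 8 * bump (1 / 16) (cp x + 1 - sq y)) +
      (7 + deriv be s) * (bump (1 / 352) (cp x + sq y) + bump (1 / 352) (2 - cp x - sq y)) +
      2 * π * cos (2 * π * s) := by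
  generalize hp : cp x = p
  generalize hq : sq y = q
  have hbe : HasDerivAt be (deriv be s) s := hasDerivAt_step _ _ s
  have e : (fun s => F0 s x y) =ᶠ[nhds s] fun s =>
      (PP p q - 8 * bump (1 / 352) (p + q) + 8 * bump (1 / 16) (1 - p + q)) +
      be s * (-PP p q - PP (1 - p) (1 - q) - 8 * bump (1 / 16) (1 - p + q) -
        8 * bump (1 / 16) (p + 1 - q)) +
      (7 * s + be s) * (bump (1 / 352) (p + q) + bump (1 / 352) (2 - p - q)) +
      sin (2 * π * s) := by
    filter_upwards [eventually_lt_nhds (show s < 4 / 5 by linarith),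
      eventually_gt_nhds (show 1 / 5 < s by linarith)] with r a b
    have hb : bt r = 0 := step_zero (by norm_num) (by linarith)
    have hs : step (1 / 10) (1 / 5) r = 1 := step_one (by norm_num) b.le
    simp only [F0, KK, am, hb, hs, hp, hq]
    ring
  rw [e.deriv_eq]
  have h := ((((hbe.mul_const (-PP p q - PP (1 - p) (1 - q) - 8 * bump (1 / 16) (1 - p + q) -
        8 * bump (1 / 16) (p + 1 - q))).const_add
      (PP p q - 8 * bump (1 / 352) (p + q) + 8 * bump (1 / 16) (1 - p + q))).fun_add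
      ((((hasDerivAt_id' s).const_mul 7).fun_add hbe).mul_const
        (bump (1 / 352) (p + q) + bump (1 / 352) (2 - p - q)))).fun_add
      ((hasDerivAt_id' s).const_mul (2 * π)).sin)
  rw [h.deriv]
  ring

theorem fcb_pos1 {p q : ℝ} (hp : 0 ≤ p) (hq : 0 ≤ q) (h : p + q ≤ 1 / 8) :
    0 < 1 - 3 * q + q ^ 2 + 2 * p * q ∧
      0 < 1 - 3 * (1 - q) + (1 - q) ^ 2 + 2 * (1 - p) * (1 - q) := by
  constructor <;> nlinarith [mul_nonneg hp hq, sq_nonneg q]

theorem fcb_comb {β A B : ℝ} (h0 : 0 ≤ β) (h1 : β ≤ 1) (hA : 0 < A) (hB : 0 < B) :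
    0 < (1 - β) * A + β * B := by
  rcases eq_or_lt_of_le h0 with h | h
  · rw [← h]; simpa using hA
  · have := mul_pos h hB
    have := mul_nonneg (sub_nonneg.2 h1) hA.le
    linarith

theorem fcb_corner {β a p q : ℝ} (h0 : 0 ≤ β) (h1 : β ≤ 1) (a0 : 0 ≤ a) (a1 : a ≤ 8)
    (p0 : 0 ≤ p) (p1 : p ≤ 1) (q0 : 0 ≤ q) (q1 : q ≤ 1) (h : p + q ≤ 1 / 8 ∨ 2 - p - q ≤ 1 / 8) :
    0 < fcbP β a p q ∧ 0 < fcbQ β a p q := by
  have d1 := mul_nonneg (sub_nonneg.2 a1) (fcbD_nonneg (ρ := 1 / 352) (by norm_num) (p + q))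
  have d2 := mul_nonneg a0 (fcbD_nonneg (ρ := 1 / 352) (by norm_num) (2 - p - q))
  have d3 : fcbD (1 / 16) (1 - p + q) = 0 :=
    fcbD_zero (by norm_num) (by rcases h with h | h <;> linarith)
  have d4 : fcbD (1 / 16) (p + 1 - q) = 0 :=
    fcbD_zero (by norm_num) (by rcases h with h | h <;> linarith)
  simp only [fcbP, fcbQ, d3, d4, mul_zero, add_zero, sub_zero]
  rcases h with h | h
  · have e1 := fcb_pos1 p0 q0 h
    have e2 := fcb_pos1 q0 p0 (by linarith)
    have := fcb_comb h0 h1 e1.1 e1.2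
    have := fcb_comb h0 h1 e2.1 e2.2
    constructor <;> linarith
  · have e1 := fcb_pos1 (sub_nonneg.2 p1) (sub_nonneg.2 q1) (by linarith)
    have e2 := fcb_pos1 (sub_nonneg.2 q1) (sub_nonneg.2 p1) (by linarith)
    simp only [sub_sub_cancel] at e1 e2
    have := fcb_comb h0 h1 e1.2 e1.1
    have := fcb_comb h0 h1 e2.2 e2.1
    constructor <;> linarith

theorem fcb_list {p q D : ℝ} (p0 : 0 ≤ p) (p1 : p ≤ 1) (q0 : 0 ≤ q) (q1 : q ≤ 1)
    (h1 : 1 / 8 < p + q) (h2 : 1 / 8 < 2 - p - q) (D0 : 0 ≤ D) (hD : 1 / 8 < 1 - p + q → D = 0)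
    (hp : 1 - 3 * q + q ^ 2 + 2 * p * q + D = 0 ∨ p = 0 ∨ p = 1)
    (hq : 1 - 3 * p + p ^ 2 + 2 * p * q - D = 0 ∨ q = 0 ∨ q = 1) :
    ((p = 1 ∧ q = 0) ∨ (p = 0 ∧ q = 1)) ∨ (p = 1 ∧ q = 1 / 2) ∨ (p = 1 / 2 ∧ q = 1) := by
  by_cases h : 1 / 8 < 1 - p + q
  · rw [hD h] at hp hq
    rcases hp with hp | rfl | rfl
    · rcases hq with hq | rfl | rfl
      · exfalso
        have e : (p - q) * (3 - p - q) = 0 := by linear_combination hp - hq
        rcases mul_eq_zero.1 e with e | e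
        · obtain rfl : p = q := by linarith
          nlinarith [sq_nonneg (p - 1 / 2)]
        · linarith
      · exfalso; linarith
      · exact Or.inr (Or.inr ⟨by linarith, rfl⟩)
    · rcases hq with hq | rfl | rfl
      · exfalso; linarith
      · exfalso; linarith
      · exact Or.inl (Or.inr ⟨rfl, rfl⟩)
    · rcases hq with hq | rfl | rfl
      · exact Or.inr (Or.inl ⟨rfl, by linarith⟩)
      · exact Or.inl (Or.inl ⟨rfl, rfl⟩)
      · exfalso; linarith
  · rw [not_lt] at h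
    refine Or.inl (Or.inl ⟨?_, ?_⟩)
    · rcases hp with hp | hp | hp
      · exfalso; nlinarith [mul_nonneg p0 q0, sq_nonneg q]
      · exfalso; linarith
      · exact hp
    · rcases hq with hq | hq | hq
      · exfalso; nlinarith [mul_nonneg p0 q0]
      · exact hq
      · exfalso; linarith

theorem fcb_cos {s : ℝ} (h0 : 1 / 4 < s) (h1 : s < 3 / 4) : cos (2 * π * s) < 0 :=
  cos_neg_of_pi_div_two_lt_of_lt (by nlinarith [pi_pos]) (by nlinarith [pi_pos])

theorem F0_crit_mid {s x y : ℝ} (t : ℝ) (h0 : 1 / 4 ≤ s) (h1 : s ≤ 3 / 4)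
    (hs : deriv (fun s => F0 s x y) s = 0) (hx : deriv (fun x => F0 s x y) x = 0)
    (hy : deriv (fun y => F0 s x y) y = 0) : IsExt (s, t, x, y) ∨ IsSad (s, t, x, y) := by
  have hp := fcb_x h1 hx
  have hq := fcb_y h1 hy
  rw [fcb_s x y h0 h1] at hs
  have p0 := cp_nonneg x
  have p1 := cp_le_one x
  have q0 := sq_nonneg' y
  have q1 := sq_le_one' y
  simp only [IsExt, IsSad]
  generalize cp x = p at *
  generalize sq y = q at *
  have b0 : 0 ≤ be s := step_nonneg _ _ _
  have b1 : be s ≤ 1 := step_le_one _ _ _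
  have a0 := am_nonneg (s := s) (by linarith)
  have a1 := am_le (s := s) (by linarith) (by linarith)
  have db : 0 ≤ deriv be s := deriv_step_nonneg (by norm_num) s
  by_cases hc : p + q ≤ 1 / 8 ∨ 2 - p - q ≤ 1 / 8
  · exfalso
    obtain ⟨c1, c2⟩ := fcb_corner b0 b1 a0 a1 p0 p1 q0 q1 hc
    replace hp := hp.resolve_left c1.ne'
    replace hq := hq.resolve_left c2.ne'
    have k1 : bump (1 / 16) 1 = 0 := bump_zero (by norm_num) (by norm_num)
    have k2 : bump (1 / 352) 0 = 1 := bump_one (by norm_num) (by norm_num)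
    have k3 : bump (1 / 352) 2 = 0 := bump_zero (by norm_num) (by norm_num)
    have k4 := neg_one_le_cos (2 * π * s)
    have k5 := pi_lt_d2
    have k6 := pi_pos
    rcases hp with rfl | rfl <;> rcases hq with rfl | rfl
    · norm_num [PP] at hs k1 k2 k3
      rw [k1, k2, k3] at hs
      nlinarith
    · norm_num at hc
    · norm_num at hc
    · norm_num [PP] at hs k1 k2 k3
      rw [k1, k2, k3] at hs
      nlinarith
  · rw [not_or, not_le, not_le] at hc
    obtain ⟨c1, c2⟩ := hc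
    rw [bump_zero (ρ := 1 / 352) (by norm_num) (r := p + q) (by linarith),
      bump_zero (ρ := 1 / 352) (by norm_num) (r := 2 - p - q) (by linarith)] at hs
    have d1 : fcbD (1 / 352) (p + q) = 0 := fcbD_zero (by norm_num) (by linarith)
    have d2 : fcbD (1 / 352) (2 - p - q) = 0 := fcbD_zero (by norm_num) (by linarith)
    have hneg : deriv be s * (-PP p q - PP (1 - p) (1 - q) - 8 * bump (1 / 16) (1 - p + q) -
        8 * bump (1 / 16) (p + 1 - q)) ≤ 0 := by
      refine mul_nonpos_of_nonneg_of_nonpos db ?_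
      linarith [PP_nonneg p0 q0, PP_nonneg (sub_nonneg.2 p1) (sub_nonneg.2 q1),
        bump_nonneg (1 / 16) (1 - p + q), bump_nonneg (1 / 16) (p + 1 - q)]
    have hs' : s = 1 / 4 ∨ s = 3 / 4 := by
      by_contra hc
      rw [not_or] at hc
      have := fcb_cos (lt_of_le_of_ne h0 (Ne.symm hc.1)) (lt_of_le_of_ne h1 hc.2)
      nlinarith [pi_pos]
    simp only [fcbP, fcbQ, d1, d2] at hp hq
    rcases hs' with rfl | rfl
    · have e : be (1 / 4) = 0 := step_zero (by norm_num) (by norm_num)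
      rw [e] at hp hq
      have := fcb_list (D := 8 * fcbD (1 / 16) (1 - p + q)) p0 p1 q0 q1 c1 c2
        (mul_nonneg (by norm_num) (fcbD_nonneg (by norm_num) _))
        (fun h => by rw [fcbD_zero (by norm_num) (by linarith), mul_zero])
        (hp.imp_left fun h => by linarith) (hq.imp_left fun h => by linarith)
      rcases this with h | h
      · exact Or.inl ⟨Or.inl rfl, h⟩
      · exact Or.inr (Or.inl ⟨rfl, h⟩)
    · have e : be (3 / 4) = 1 := step_one (by norm_num) (by norm_num)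
      rw [e] at hp hq
      have := fcb_list (p := 1 - p) (q := 1 - q) (D := 8 * fcbD (1 / 16) (p + 1 - q))
        (by linarith) (by linarith) (by linarith) (by linarith) (by linarith) (by linarith)
        (mul_nonneg (by norm_num) (fcbD_nonneg (by norm_num) _))
        (fun h => by rw [fcbD_zero (by norm_num) (by linarith), mul_zero])
        (by rcases hp with h | h | h
            exacts [Or.inl (by linarith), Or.inr (Or.inr (by linarith)),
              Or.inr (Or.inl (by linarith))])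
        (by rcases hq with h | h | h
            exacts [Or.inl (by linarith), Or.inr (Or.inr (by linarith)),
              Or.inr (Or.inl (by linarith))])
      rcases this with (h | h) | h | h
      · exact Or.inl ⟨Or.inr rfl, Or.inr ⟨by linarith [h.1], by linarith [h.2]⟩⟩
      · exact Or.inl ⟨Or.inr rfl, Or.inl ⟨by linarith [h.1], by linarith [h.2]⟩⟩
      · exact Or.inr (Or.inr ⟨rfl, Or.inl ⟨by linarith [h.1], by linarith [h.2]⟩⟩)
      · exact Or.inr (Or.inr ⟨rfl, Or.inr ⟨by linarith [h.1], by linarith [h.2]⟩⟩)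

end Vale.Agent.P265
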