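import Vale.Agent.P265.U.Defs

/-!
P265 block U, file Gh. The bump gh. la² + mu > 0 since la = 1 when mu ≤ 2; la = 0 when 12/5 ≤ mu; when mu < 12/5 one has |cos π x|, |cos π y| ≥ 1/2, so (sn x)² = sq x, (sn y)² = sq y
and z0² + z2² + z3² = mu. sn is odd and 1-periodic; cos (π (t+n)) = sg n * cos (π t).
-/

namespace Vale.Agent.P265

open scoped ContDiff Quaternion
open Real

theorem mu_nonneg (κ : ℝ) (u : R4) : 0 ≤ mu κ u := by
  unfold mu sq
  positivity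

theorem la_mu_pos (κ : ℝ) (u : R4) : 0 < la κ u ^ 2 + mu κ u := by
  rcases le_or_gt (mu κ u) 2 with h | h
  · rw [la, step_zero (by norm_num) h]
    linarith [mu_nonneg κ u]
  · positivity

theorem sn_sq {x : ℝ} (h : sq x ≤ 3 / 4) : sn x ^ 2 = sq x := by
  have h1 : (1 / 2 : ℝ) ^ 2 ≤ cos (π * x) ^ 2 := by
    unfold sq at h
    nlinarith [sin_sq_add_cos_sq (π * x)]
  have h2 : 1 / 2 ≤ |cos (π * x)| := by
    rw [← sq_abs (cos (π * x))] at h1
    exact le_of_sq_le_sq h1 (abs_nonneg _)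
  have h3 : odd (1 / 4) (1 / 2) (cos (π * x)) ^ 2 = 1 := by
    rcases le_abs.1 h2 with h3 | h3
    · rw [odd_one (by norm_num) (by norm_num) h3, one_pow]
    · rw [← neg_neg (cos (π * x)), odd_neg, odd_one (by norm_num) (by norm_num) h3, neg_one_sq]
  rw [sn, mul_pow, h3, mul_one, sq]

theorem contDiff_gh : ContDiff ℝ ∞ fun w : ℝ × R4 => gh w.1 w.2 := by
  have h0 : ContDiff ℝ ∞ fun w : ℝ × R4 => z0 w.1 w.2 := by unfold z0; fun_prop
  have h2 : ContDiff ℝ ∞ fun w : ℝ × R4 => z2 w.2 := by unfold z2 sn; fun_prop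
  have h3 : ContDiff ℝ ∞ fun w : ℝ × R4 => z3 w.2 := by unfold z3 sn; fun_prop
  have hm : ContDiff ℝ ∞ fun w : ℝ × R4 => mu w.1 w.2 := by unfold mu z0; fun_prop
  have hl : ContDiff ℝ ∞ fun w : ℝ × R4 => la w.1 w.2 :=
    contDiff_const.sub ((contDiff_step _ _).comp hm)
  have hN := (hl.pow 2).add hm
  have hN0 : ∀ w : ℝ × R4, la w.1 w.2 ^ 2 + mu w.1 w.2 ≠ 0 := fun w => (la_mu_pos _ _).ne'
  have e : (fun w : ℝ × R4 => gh w.1 w.2) = fun w =>
      (2 * la w.1 w.2 * z0 w.1 w.2 / (la w.1 w.2 ^ 2 + mu w.1 w.2)) • (⟨1, 0, 0, 0⟩ : ℍ) +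
      ((la w.1 w.2 ^ 2 - mu w.1 w.2) / (la w.1 w.2 ^ 2 + mu w.1 w.2)) • (⟨0, 1, 0, 0⟩ : ℍ) +
      (2 * la w.1 w.2 * z2 w.2 / (la w.1 w.2 ^ 2 + mu w.1 w.2)) • (⟨0, 0, 1, 0⟩ : ℍ) +
      (2 * la w.1 w.2 * z3 w.2 / (la w.1 w.2 ^ 2 + mu w.1 w.2)) • (⟨0, 0, 0, 1⟩ : ℍ) := by
    funext w
    ext <;> simp [gh]
  rw [e]
  exact ((((((contDiff_const.mul hl).mul h0).div hN hN0).smul contDiff_const).add
    ((((hl.pow 2).sub hm).div hN hN0).smul contDiff_const)).add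
    ((((contDiff_const.mul hl).mul h2).div hN hN0).smul contDiff_const)).add
    ((((contDiff_const.mul hl).mul h3).div hN hN0).smul contDiff_const)

theorem normSq_gh (κ : ℝ) (u : R4) : Quaternion.normSq (gh κ u) = 1 := by
  have key : la κ u ^ 2 * (z0 κ u ^ 2 + z2 u ^ 2 + z3 u ^ 2) = la κ u ^ 2 * mu κ u := by
    rcases le_or_gt (12 / 5) (mu κ u) with h | h
    · rw [la, step_one (by norm_num) h]
      ring
    · have a1 : 0 ≤ sq u.2.2.1 := sq_nonneg _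
      have a2 : 0 ≤ sq u.2.2.2 := sq_nonneg _
      have a3 := sq_nonneg (z0 κ u)
      unfold mu at h
      congr 1
      rw [mu, ← sn_sq (x := u.2.2.1) (by linarith), ← sn_sq (x := u.2.2.2) (by linarith), z2, z3]
      linear_combination
        100 * (sn u.2.2.1 ^ 2 + sn u.2.2.2 ^ 2) * sin_sq_add_cos_sq (π * u.2.1)
  have h0 := (la_mu_pos κ u).ne'
  rw [Quaternion.normSq_def']
  simp only [gh]
  field_simp
  linear_combination 4 * key

theorem gh_sin (x : ℝ) (n : ℤ) : sin (π * (x + n)) = sg n * sin (π * x) := by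
  rw [mul_add, mul_comm π (n : ℝ), sin_add_int_mul_pi, sg]

theorem gh_cos (x : ℝ) (n : ℤ) : cos (π * (x + n)) = sg n * cos (π * x) := by
  rw [mul_add, mul_comm π (n : ℝ), cos_add_int_mul_pi, sg]

theorem gh_sn (x : ℝ) (n a : ℤ) : sn (sg n * x + a) = sg n * sn x := by
  unfold sn
  rw [gh_sin, gh_cos]
  rcases sg_cases n with h | h <;> rcases sg_cases a with h' | h' <;>
    simp [h.1, h'.1, odd_neg]

theorem gh_sq (x : ℝ) (n a : ℤ) : sq (sg n * x + a) = sq x := by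
  unfold sq
  rw [gh_sin]
  rcases sg_cases n with h | h <;> rcases sg_cases a with h' | h' <;> simp [h.1, h'.1]

theorem gh_congr {κ κ' : ℝ} {u u' : R4} (h0 : z0 κ u = z0 κ' u') (h2 : z2 u = z2 u')
    (h3 : z3 u = z3 u') (h4 : sq u.2.2.1 = sq u'.2.2.1) (h5 : sq u.2.2.2 = sq u'.2.2.2) :
    gh κ u = gh κ' u' := by
  ext <;> simp only [gh, la, mu, h0, h2, h3, h4, h5]

theorem gh_act0 (κ : ℝ) (n a b : ℤ) (u : R4) : gh κ (act 0 n a b u) = gh κ u := by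
  have e : act 0 n a b u = (u.1, u.2.1 + n, sg n * u.2.2.1 + a, sg n * u.2.2.2 + b) := by
    simp [act]
  rw [e]
  refine gh_congr rfl ?_ ?_ (gh_sq _ n a) (gh_sq _ n b)
  · simp only [z2, gh_sn, gh_sin, gh_cos]
    linear_combination
      10 * (cos (π * u.2.1) * sn u.2.2.1 - sin (π * u.2.1) * sn u.2.2.2) * sg_sq n
  · simp only [z3, gh_sn, gh_sin, gh_cos]
    linear_combination
      10 * (sin (π * u.2.1) * sn u.2.2.1 + cos (π * u.2.1) * sn u.2.2.2) * sg_sq n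

theorem gh_eq_e0 {κ : ℝ} {u : R4} (h : 12 / 5 ≤ mu κ u) : gh κ u = e0 := by
  have h1 : la κ u = 0 := by rw [la, step_one (by norm_num) h, sub_self]
  have h2 : mu κ u ≠ 0 := by linarith
  ext <;> simp [gh, e0, h1, h2]

theorem gh_eq_e0_of_s {κ : ℝ} {u : R4} (h : u.1 ≤ κ + 1 / 10 ∨ κ + 9 / 10 ≤ u.1) :
    gh κ u = e0 := by
  refine gh_eq_e0 ?_
  have a1 : 0 ≤ sq u.2.2.1 := sq_nonneg _
  have a2 : 0 ≤ sq u.2.2.2 := sq_nonneg _
  unfold mu z0
  rcases h with h | h <;> nlinarith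

theorem gh_one_act (u : R4) : gh 1 (act 1 0 0 0 u) = gh 0 (sh u) := by
  have e : act 1 0 0 0 u = (u.1 + 1, (sh u).2) := by simp [act, sh, sg_zero]
  rw [e]
  refine gh_congr ?_ rfl rfl rfl rfl
  simp only [z0, sh]
  ring

end Vale.Agent.P265
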