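import Vale.Agent.P265.U.Gh

/-!
P265 block U, file Gt. The product Gt. gs κ u is gh κ u or gh κ (act 1 0 0 0 u) (gh_eq_e0_of_s), hence a unit. act 1 0 0 0 ∘ act 0 n a b = act 0 n a' b' ∘ act 1 0 0 0 (act_act).
On the strip gs 0 u = gh 0 u, gs 1 u = gh 0 (sh u), so Gt 1 u = gh 0 u * j * star (gh 0 (sh u)) * k; sq (y + 1/2) = cp y = 1 - sq y.
-/

namespace Vale.Agent.P265

open scoped ContDiff Quaternion
open Real

theorem Gt_act_fst (u : R4) : (act 1 0 0 0 u).1 = u.1 + 1 := by simp [act]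

theorem Gt_gs_left {κ : ℝ} {u : R4} (h : u.1 ≤ κ + 1 / 10) : gs κ u = gh κ (act 1 0 0 0 u) := by
  rw [gs, gh_eq_e0_of_s (Or.inl h)]
  abel

theorem Gt_gs_right {κ : ℝ} {u : R4} (h : κ - 1 / 10 ≤ u.1) : gs κ u = gh κ u := by
  rw [gs, gh_eq_e0_of_s (u := act 1 0 0 0 u) (Or.inr (by rw [Gt_act_fst]; linarith))]
  abel

theorem Gt_normSq_gs (κ : ℝ) (u : R4) : Quaternion.normSq (gs κ u) = 1 := by
  rcases le_total u.1 κ with h | h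
  · rw [Gt_gs_left (by linarith), normSq_gh]
  · rw [Gt_gs_right (by linarith), normSq_gh]

theorem Gt_contDiff_gs : ContDiff ℝ ∞ fun w : ℝ × R4 => gs w.1 w.2 := by
  have h1 : ContDiff ℝ ∞ fun w : ℝ × R4 => ((w.1, act 1 0 0 0 w.2) : ℝ × R4) := by
    unfold act
    fun_prop
  exact (contDiff_gh.add (contDiff_gh.comp h1)).sub contDiff_const

/-- A quaternion from its components. -/
def Gt_q (a b c d : ℝ) : ℍ := ⟨a, b, c, d⟩

theorem Gt_q_re (a b c d : ℝ) : (Gt_q a b c d).re = a := rfl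
theorem Gt_q_imI (a b c d : ℝ) : (Gt_q a b c d).imI = b := rfl
theorem Gt_q_imJ (a b c d : ℝ) : (Gt_q a b c d).imJ = c := rfl
theorem Gt_q_imK (a b c d : ℝ) : (Gt_q a b c d).imK = d := rfl

theorem Gt_def (σ : ℝ) (u : R4) : Gt σ u =
    gs 0 u * Gt_q (cos (π * σ / 2)) 0 (-sin (π * σ / 2)) 0 * star (gs σ u) *
      Gt_q (cos (π * σ / 2)) 0 0 (-sin (π * σ / 2)) := rfl

theorem Gt_e0_def : e0 = Gt_q 0 (-1) 0 0 := rfl

theorem Gt_j (c s : ℝ) : Gt_q c 0 s 0 = c • Gt_q 1 0 0 0 + s • Gt_q 0 0 1 0 := by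
  ext <;> simp [Gt_q_re, Gt_q_imI, Gt_q_imJ, Gt_q_imK]

theorem Gt_k (c s : ℝ) : Gt_q c 0 0 s = c • Gt_q 1 0 0 0 + s • Gt_q 0 0 0 1 := by
  ext <;> simp [Gt_q_re, Gt_q_imI, Gt_q_imJ, Gt_q_imK]

theorem Gt_cd_star : ContDiff ℝ ∞ fun q : ℍ => star q :=
  (LinearMap.toContinuousLinearMap
    ({ toFun := fun q => star q, map_add' := fun _ _ => star_add _ _,
       map_smul' := fun _ _ => Quaternion.star_smul _ _ } : ℍ →ₗ[ℝ] ℍ)).contDiff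

theorem Gt_act_comm (n a b : ℤ) (u : R4) :
    act 1 n a b u = act 0 n a b (act 1 0 0 0 u) := by
  simp [act, sg_zero]

theorem Gt_gs_act0 (κ : ℝ) (n a b : ℤ) (u : R4) : gs κ (act 0 n a b u) = gs κ u := by
  obtain ⟨a', b', h⟩ := act_act 0 n a b 1 0 0 0
  rw [gs, gs, gh_act0, h, zero_add, add_zero, Gt_act_comm, gh_act0]

theorem Gt_sq_half (y : ℝ) : sq (y + 1 / 2) = 1 - sq y := by
  have : π * (y + 1 / 2) = π * y + π / 2 := by ring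
  rw [sq, sq, this, sin_add_pi_div_two, cos_sq']

theorem Gt_sq_nonneg (y : ℝ) : 0 ≤ sq y := sq_nonneg _

theorem Gt_one_eq {u : R4} (hu : u ∈ Strip) :
    Gt 1 u = gh 0 u * Gt_q 0 0 (-1) 0 * star (gh 0 (sh u)) * Gt_q 0 0 0 (-1) := by
  have h1 : gs 0 u = gh 0 u := Gt_gs_right (by linarith [hu.1])
  have h2 : gs 1 u = gh 0 (sh u) := by
    rw [Gt_gs_left (by linarith [hu.2]), gh_one_act]
  rw [Gt_def, h1, h2, mul_one, cos_pi_div_two, sin_pi_div_two]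

theorem Gt_e0 {u : R4} (h : 1 / 10 < sq u.2.2.2) : gh 0 u = e0 := by
  refine gh_eq_e0 ?_
  have h1 := Gt_sq_nonneg u.2.2.1
  have h2 := sq_nonneg (z0 0 u)
  unfold mu
  linarith

theorem Gt_re_sq {u : R4} (hs : u.1 = 1 / 4 ∨ u.1 = 3 / 4) (hx : sq u.2.2.1 = 0)
    (hy : sq u.2.2.2 = 0) : (gh 0 u).re ^ 2 = 1 := by
  have hz : z0 0 u ^ 2 = 1 := by
    rcases hs with h | h <;> rw [z0, h] <;> norm_num
  have hm : mu 0 u = 1 := by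
    rw [mu, hz, hx, hy]
    norm_num
  have hl : la 0 u = 1 := by
    rw [la, hm, step_zero (by norm_num) (by norm_num), sub_zero]
  have : (gh 0 u).re = 2 * la 0 u * z0 0 u / (la 0 u ^ 2 + mu 0 u) := rfl
  rw [this, hm, hl]
  linarith [hz, show (2 * 1 * z0 0 u / (1 ^ 2 + 1)) ^ 2 = z0 0 u ^ 2 by ring]

theorem contDiff_Gt : ContDiff ℝ ∞ fun w : ℝ × R4 => Gt w.1 w.2 := by
  have h0 : ContDiff ℝ ∞ fun w : ℝ × R4 => gs 0 w.2 :=
    Gt_contDiff_gs.comp (f := fun w : ℝ × R4 => ((0, w.2) : ℝ × R4)) (by fun_prop)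
  have h1 : ContDiff ℝ ∞ fun w : ℝ × R4 => star (gs w.1 w.2) :=
    Gt_cd_star.comp Gt_contDiff_gs
  have h2 : ContDiff ℝ ∞ fun w : ℝ × R4 =>
      Gt_q (cos (π * w.1 / 2)) 0 (-sin (π * w.1 / 2)) 0 := by
    have : (fun w : ℝ × R4 => Gt_q (cos (π * w.1 / 2)) 0 (-sin (π * w.1 / 2)) 0) = fun w =>
        cos (π * w.1 / 2) • Gt_q 1 0 0 0 + (-sin (π * w.1 / 2)) • Gt_q 0 0 1 0 :=
      funext fun w => Gt_j _ _
    rw [this]
    fun_prop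
  have h3 : ContDiff ℝ ∞ fun w : ℝ × R4 =>
      Gt_q (cos (π * w.1 / 2)) 0 0 (-sin (π * w.1 / 2)) := by
    have : (fun w : ℝ × R4 => Gt_q (cos (π * w.1 / 2)) 0 0 (-sin (π * w.1 / 2))) = fun w =>
        cos (π * w.1 / 2) • Gt_q 1 0 0 0 + (-sin (π * w.1 / 2)) • Gt_q 0 0 0 1 :=
      funext fun w => Gt_k _ _
    rw [this]
    fun_prop
  exact ((h0.mul h2).mul h1).mul h3

theorem normSq_Gt (σ : ℝ) (u : R4) : Quaternion.normSq (Gt σ u) = 1 := by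
  have h := cos_sq_add_sin_sq (π * σ / 2)
  rw [Gt_def, map_mul, map_mul, map_mul, Quaternion.normSq_star, Gt_normSq_gs, Gt_normSq_gs,
    Quaternion.normSq_def', Quaternion.normSq_def']
  simp only [Gt_q_re, Gt_q_imI, Gt_q_imJ, Gt_q_imK, ne_eq, OfNat.ofNat_ne_zero, not_false_eq_true, zero_pow, add_zero, even_two,
    Even.neg_pow, h, mul_one]

theorem Gt_act0 (σ : ℝ) (n a b : ℤ) (u : R4) : Gt σ (act 0 n a b u) = Gt σ u := by
  rw [Gt, Gt, Gt_gs_act0, Gt_gs_act0]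

theorem Gt_glue {σ : ℝ} (h0 : 0 ≤ σ) (h1 : σ ≤ 1) {u : R4} (h : |u.1| < 1 / 10) :
    Gt σ (act 1 0 0 0 u) = Gt σ u := by
  obtain ⟨a1, a2⟩ := abs_lt.1 h
  have e1 : gs 0 (act 1 0 0 0 u) = gs 0 u := by
    rw [Gt_gs_right (by rw [Gt_act_fst]; linarith), Gt_gs_left (by linarith)]
  have e2 : gs σ (act 1 0 0 0 u) = gs σ u := by
    rw [Gt_gs_right (by rw [Gt_act_fst]; linarith), Gt_gs_left (by linarith)]
  rw [Gt, Gt, e1, e2]

theorem Gt_zero (u : R4) : Gt 0 u = 1 := by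
  have e1 : Gt_q (cos (π * 0 / 2)) 0 (-sin (π * 0 / 2)) 0 = 1 := by
    ext <;> simp [Gt_q_re, Gt_q_imI, Gt_q_imJ, Gt_q_imK]
  have e2 : Gt_q (cos (π * 0 / 2)) 0 0 (-sin (π * 0 / 2)) = 1 := by
    ext <;> simp [Gt_q_re, Gt_q_imI, Gt_q_imJ, Gt_q_imK]
  rw [Gt_def, e1, e2, mul_one, mul_one, Quaternion.self_mul_star, Gt_normSq_gs]
  rfl

theorem Gt_one_u {u : R4} (hu : u ∈ Strip) (h : sq u.2.2.2 < 9 / 10) : Gt 1 u = gh 0 u := by
  have e : gh 0 (sh u) = e0 := Gt_e0 (by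
    have : (sh u).2.2.2 = u.2.2.2 + 1 / 2 := rfl
    rw [this, Gt_sq_half]
    linarith)
  rw [Gt_one_eq hu, e, Gt_e0_def]
  ext <;> simp [Gt_q_re, Gt_q_imI, Gt_q_imJ, Gt_q_imK]

theorem Gt_one_a {u : R4} (hu : u ∈ Strip) (h : 1 / 10 < sq u.2.2.2) :
    Gt 1 u = ⟨(gh 0 (sh u)).re, (gh 0 (sh u)).imI, (gh 0 (sh u)).imJ, -(gh 0 (sh u)).imK⟩ := by
  rw [Gt_one_eq hu, Gt_e0 h, Gt_e0_def]
  change _ = Gt_q (gh 0 (sh u)).re (gh 0 (sh u)).imI (gh 0 (sh u)).imJ (-(gh 0 (sh u)).imK)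
  ext <;> simp [Gt_q_re, Gt_q_imI, Gt_q_imJ, Gt_q_imK]

theorem wb_sq_of_isExt {u : R4} (h : IsExt u) : wb u ^ 2 = 1 := by
  have hu : u ∈ Strip := by
    rcases h.1 with h1 | h1 <;> constructor <;> rw [h1] <;> norm_num
  rcases h.2 with ⟨hx, hy⟩ | ⟨hx, hy⟩
  · rw [wb, Gt_one_u hu (by rw [hy]; norm_num)]
    refine Gt_re_sq h.1 ?_ hy
    rw [sq, sin_sq, ← cp, hx, sub_self]
  · rw [wb, Gt_one_a hu (by rw [hy]; norm_num)]
    have cx : cos (π * u.2.2.1) = 0 := pow_eq_zero_iff (two_ne_zero) |>.1 hx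
    have cy : cos (π * u.2.2.2) = 0 := by
      refine pow_eq_zero_iff (two_ne_zero) |>.1 ?_
      rw [cos_sq', ← sq, hy, sub_self]
    refine Gt_re_sq (u := sh u) h.1 ?_ ?_
    · have e1 : (sh u).2.2.1 = u.2.2.1 + 3 * u.2.2.2 := rfl
      have e2 : π * (u.2.2.1 + 3 * u.2.2.2) = π * u.2.2.1 + 3 * (π * u.2.2.2) := by ring
      rw [e1, sq, e2, sin_add, cos_three_mul, cx, cy]
      norm_num
    · have : (sh u).2.2.2 = u.2.2.2 + 1 / 2 := rfl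
      rw [this, Gt_sq_half, hy, sub_self]

end Vale.Agent.P265
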