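import Vale.Agent.P265.U.Defs

/-!
P265 block U, file Hess. Near a saddle point all bumps vanish, be, bt, chi are locally constant, so near u
F1 ε v = sin (2 π s) + ε η cos (π t) + PP (cp x) (sq y) (s = 1/4) or ... - PP (1 - cp x) (1 - sq y) (s = 3/4), with η = ±1.
The Hessian is diagonal in (s,t,x,y) with entries ∓4π², ±επ², and on the edge p = 1, q = 1/2: ∂xx = (3/4)(-2π²), ∂yy = 2π², ∂xy = 0.
-/

namespace Vale.Agent.P265

open scoped ContDiff Quaternion
open Real

theorem Hess_line {f : R4 → ℝ} {u v : R4} {d : ℝ} (hf : DifferentiableAt ℝ f u)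
    (h : HasDerivAt (fun τ : ℝ => f (u.1 + τ * v.1, u.2.1 + τ * v.2.1, u.2.2.1 + τ * v.2.2.1,
      u.2.2.2 + τ * v.2.2.2)) d 0) : fderiv ℝ f u v = d :=
  HasDerivAt.unique (hf.hasFDerivAt.hasLineDerivAt v) h

theorem Hess_line2 {f : R4 → ℝ} {g : ℝ → ℝ → ℝ → ℝ → ℝ} {s t x y a b k d r : ℝ} {e : R4}
    (hf : ContDiff ℝ 2 f) (hg : ∀ s t x y, fderiv ℝ f (s, t, x, y) e = g s t x y)
    (h : HasDerivAt (fun τ : ℝ => g (s + τ * a) (t + τ * b) (x + τ * k) (y + τ * d)) r 0) :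
    fderiv ℝ (fderiv ℝ f) (s, t, x, y) (a, b, k, d) e = r := by
  have h1 : DifferentiableAt ℝ (fderiv ℝ f) (s, t, x, y) :=
    (hf.fderiv_right (m := 1) (by norm_num)).differentiable one_ne_zero _
  have h2 : HasDerivAt (fun τ : ℝ => fderiv ℝ f (s + τ * a, t + τ * b, x + τ * k, y + τ * d))
      (fderiv ℝ (fderiv ℝ f) (s, t, x, y) (a, b, k, d)) 0 :=
    h1.hasFDerivAt.hasLineDerivAt (a, b, k, d)
  have h3 := h2.clm_apply (hasDerivAt_const (0 : ℝ) e)
  simp only [hg, map_zero, add_zero] at h3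
  exact h3.unique h

theorem Hess_comp {f : ℝ → ℝ} {f' x : ℝ} (h : HasDerivAt f f' x) (c : ℝ) :
    HasDerivAt (fun τ : ℝ => f (x + τ * c)) (f' * c) 0 := by
  have h1 : HasDerivAt (fun τ : ℝ => x + τ * c) c 0 := by
    simpa using ((hasDerivAt_id (0 : ℝ)).mul_const c).const_add x
  have h2 : HasDerivAt f f' (x + 0 * c) := by simpa using h
  exact h2.comp 0 h1

theorem Hess_sin (a x : ℝ) : HasDerivAt (fun s => sin (a * s)) (a * cos (a * x)) x := by
  simpa [mul_comm] using ((hasDerivAt_id x).const_mul a).sin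

theorem Hess_cos (a x : ℝ) : HasDerivAt (fun s => cos (a * s)) (-(a * sin (a * x))) x := by
  simpa [mul_comm] using ((hasDerivAt_id x).const_mul a).cos

theorem Hess_PP {f g : ℝ → ℝ} {f' g' : ℝ} (hf : HasDerivAt f f' 0) (hg : HasDerivAt g g' 0) :
    HasDerivAt (fun τ => PP (f τ) (g τ))
      ((1 - 3 * g 0 + 2 * f 0 * g 0 + g 0 ^ 2) * f' + (1 - 3 * f 0 + f 0 ^ 2 + 2 * f 0 * g 0) * g')
      0 := by
  refine (((hf.add hg).sub ((hf.const_mul 3).mul hg)).add
    ((hf.mul hg).mul (hf.add hg))).congr_deriv ?_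
  simp only [Pi.add_apply, Pi.mul_apply]
  ring

/-- the local model -/
noncomputable def Hess_G (c σ : ℝ) (f g : ℝ → ℝ) (v : R4) : ℝ :=
  sin (2 * π * v.1) + c * cos (π * v.2.1) + σ * PP (f v.2.2.1) (g v.2.2.2)

section

variable {c σ : ℝ} {f f1 f2 g g1 g2 : ℝ → ℝ}

theorem Hess_C (hf : ContDiff ℝ 2 f) (hg : ContDiff ℝ 2 g) : ContDiff ℝ 2 (Hess_G c σ f g) := by
  unfold Hess_G PP
  fun_prop

theorem Hess_D (hf : ContDiff ℝ 2 f) (hg : ContDiff ℝ 2 g) (df : ∀ x, HasDerivAt f (f1 x) x)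
    (dg : ∀ x, HasDerivAt g (g1 x) x) (s t x y a b k d : ℝ) :
    fderiv ℝ (Hess_G c σ f g) (s, t, x, y) (a, b, k, d) = 2 * π * cos (2 * π * s) * a +
      c * (-(π * sin (π * t)) * b) +
      σ * ((1 - 3 * g y + 2 * f x * g y + g y ^ 2) * (f1 x * k) +
        (1 - 3 * f x + f x ^ 2 + 2 * f x * g y) * (g1 y * d)) := by
  refine Hess_line ((Hess_C hf hg).differentiable two_ne_zero _) ?_
  have h1 := ((Hess_comp (Hess_sin (2 * π) s) a).fun_add
    ((Hess_comp (Hess_cos π t) b).const_mul c)).fun_add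
    ((Hess_PP (Hess_comp (df x) k) (Hess_comp (dg y) d)).const_mul σ)
  simp only [zero_mul, add_zero] at h1
  simp only [Hess_G]
  exact h1

theorem Hess_e3 (df : ∀ x, HasDerivAt f (f1 x) x) (df1 : ∀ x, HasDerivAt f1 (f2 x) x)
    (dg : ∀ x, HasDerivAt g (g1 x) x) (x y k d : ℝ) :
    HasDerivAt (fun τ : ℝ => σ * ((1 - 3 * g (y + τ * d) + 2 * f (x + τ * k) * g (y + τ * d) +
      g (y + τ * d) ^ 2) * f1 (x + τ * k)))
      (σ * ((2 * g y * (f1 x * k) + (-3 + 2 * f x + 2 * g y) * (g1 y * d)) * f1 x +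
        (1 - 3 * g y + 2 * f x * g y + g y ^ 2) * (f2 x * k))) 0 := by
  have F := Hess_comp (df x) k
  have F1 := Hess_comp (df1 x) k
  have E := Hess_comp (dg y) d
  refine ((((((E.const_mul 3).const_sub 1).fun_add ((F.const_mul 2).fun_mul E)).fun_add
    (E.fun_pow 2)).fun_mul F1).const_mul σ).congr_deriv ?_
  simp only [zero_mul, add_zero]
  push_cast
  ring

theorem Hess_e4 (df : ∀ x, HasDerivAt f (f1 x) x) (dg : ∀ x, HasDerivAt g (g1 x) x)
    (dg1 : ∀ x, HasDerivAt g1 (g2 x) x) (x y k d : ℝ) :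
    HasDerivAt (fun τ : ℝ => σ * ((1 - 3 * f (x + τ * k) + f (x + τ * k) ^ 2 +
      2 * f (x + τ * k) * g (y + τ * d)) * g1 (y + τ * d)))
      (σ * (((-3 + 2 * f x + 2 * g y) * (f1 x * k) + 2 * f x * (g1 y * d)) * g1 y +
        (1 - 3 * f x + f x ^ 2 + 2 * f x * g y) * (g2 y * d))) 0 := by
  have F := Hess_comp (df x) k
  have E := Hess_comp (dg y) d
  have E1 := Hess_comp (dg1 y) d
  refine ((((((F.const_mul 3).const_sub 1).fun_add (F.fun_pow 2)).fun_add
    ((F.const_mul 2).fun_mul E)).fun_mul E1).const_mul σ).congr_deriv ?_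
  simp only [zero_mul, add_zero]
  push_cast
  ring

end

theorem Hess_model {c σ : ℝ} (hc : c ≠ 0) (hσ : σ ≠ 0) {f f1 f2 g g1 g2 : ℝ → ℝ}
    (hf : ContDiff ℝ 2 f) (hg : ContDiff ℝ 2 g) (df : ∀ x, HasDerivAt f (f1 x) x)
    (df1 : ∀ x, HasDerivAt f1 (f2 x) x) (dg : ∀ x, HasDerivAt g (g1 x) x)
    (dg1 : ∀ x, HasDerivAt g1 (g2 x) x) {s t x y : ℝ} (hs : sin (2 * π * s) ≠ 0)
    (ht : cos (π * t) ≠ 0)
    (h : (f x = 1 ∧ f1 x = 0 ∧ f2 x ≠ 0 ∧ g y = 1 / 2 ∧ g1 y ≠ 0 ∧ g2 y = 0) ∨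
      (f x = 1 / 2 ∧ f1 x ≠ 0 ∧ f2 x = 0 ∧ g y = 1 ∧ g1 y = 0 ∧ g2 y ≠ 0)) :
    Function.Injective (fderiv ℝ (fderiv ℝ (Hess_G c σ f g)) (s, t, x, y)) := by
  have hC : ContDiff ℝ 2 (Hess_G c σ f g) := Hess_C hf hg
  have hD := Hess_D (c := c) (σ := σ) hf hg df dg
  rw [injective_iff_map_eq_zero]
  rintro ⟨a, b, k, d⟩ hv
  have e1 := Hess_line2 (e := (1, 0, 0, 0)) (g := fun s _ _ _ => 2 * π * cos (2 * π * s))
    (t := t) (x := x) (y := y) (b := b) (k := k) (d := d) hC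
    (fun s t x y => by rw [hD]; ring) ((Hess_comp (Hess_cos (2 * π) s) a).const_mul (2 * π))
  have e2 := Hess_line2 (e := (0, 1, 0, 0)) (g := fun _ t _ _ => -(c * π) * sin (π * t))
    (s := s) (x := x) (y := y) (a := a) (k := k) (d := d) hC
    (fun s t x y => by rw [hD]; ring) ((Hess_comp (Hess_sin π t) b).const_mul (-(c * π)))
  have e3 := Hess_line2 (e := (0, 0, 1, 0))
    (g := fun _ _ x y => σ * ((1 - 3 * g y + 2 * f x * g y + g y ^ 2) * f1 x))
    (s := s) (t := t) (a := a) (b := b) hC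
    (fun s t x y => by rw [hD]; ring) (Hess_e3 df df1 dg x y k d)
  have e4 := Hess_line2 (e := (0, 0, 0, 1))
    (g := fun _ _ x y => σ * ((1 - 3 * f x + f x ^ 2 + 2 * f x * g y) * g1 y))
    (s := s) (t := t) (a := a) (b := b) hC
    (fun s t x y => by rw [hD]; ring) (Hess_e4 df dg dg1 x y k d)
  rw [hv, ContinuousLinearMap.zero_apply, eq_comm] at e1 e2 e3 e4
  have hπ := pi_ne_zero
  have ha : a = 0 := by simpa [hπ, hs] using e1
  have hb : b = 0 := by simpa [hπ, ht, hc] using e2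
  have e3' := (mul_eq_zero.1 e3).resolve_left hσ
  have e4' := (mul_eq_zero.1 e4).resolve_left hσ
  have hkd : k = 0 ∧ d = 0 := by
    rcases h with ⟨h1, h2, h3, h4, h5, h6⟩ | ⟨h1, h2, h3, h4, h5, h6⟩
    · rw [h1, h2, h4] at e3'
      rw [h1, h2, h4, h6] at e4'
      refine ⟨mul_left_cancel₀ h3 (by linarith), mul_left_cancel₀ (mul_ne_zero h5 h5) ?_⟩
      linarith
    · rw [h1, h3, h4, h5] at e3'
      rw [h1, h4, h5] at e4'
      refine ⟨mul_left_cancel₀ (mul_ne_zero h2 h2) ?_, mul_left_cancel₀ h6 (by linarith)⟩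
      linarith
  rw [ha, hb, hkd.1, hkd.2]
  rfl

theorem Hess_cp (x : ℝ) : cp x = (1 + cos (2 * π * x)) / 2 := by
  rw [cp, cos_sq, mul_assoc]; ring

theorem Hess_sq (y : ℝ) : sq y = (1 - cos (2 * π * y)) / 2 := by
  rw [sq, sin_sq, cos_sq, mul_assoc]; ring

theorem Hess_trig {c σ β : ℝ} (hc : c ≠ 0) (hσ : σ ≠ 0) (hβ : β = 1 ∨ β = -1) {s t x y : ℝ}
    (hs : sin (2 * π * s) ≠ 0) (ht : cos (π * t) ≠ 0)
    (h : (cos (2 * π * x) = β ∧ cos (2 * π * y) = 0) ∨ (cos (2 * π * x) = 0 ∧ cos (2 * π * y) = -β)) :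
    Function.Injective (fderiv ℝ (fderiv ℝ fun v : R4 =>
      sin (2 * π * v.1) + c * cos (π * v.2.1) +
        σ * PP ((1 + β * cos (2 * π * v.2.2.1)) / 2) ((1 - β * cos (2 * π * v.2.2.2)) / 2))
      (s, t, x, y)) := by
  have hπ := pi_ne_zero
  have hb : β * β = 1 := by rcases hβ with rfl | rfl <;> norm_num
  have hb0 : β ≠ 0 := by rcases hβ with rfl | rfl <;> norm_num
  refine Hess_model hc hσ (f := fun x => (1 + β * cos (2 * π * x)) / 2)
    (f1 := fun x => -(β * π) * sin (2 * π * x)) (f2 := fun x => -(β * π) * (2 * π * cos (2 * π * x)))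
    (g := fun y => (1 - β * cos (2 * π * y)) / 2) (g1 := fun y => β * π * sin (2 * π * y))
    (g2 := fun y => β * π * (2 * π * cos (2 * π * y))) (by fun_prop) (by fun_prop)
    (fun x => ((((Hess_cos (2 * π) x).const_mul β).const_add 1).div_const 2).congr_deriv (by ring))
    (fun x => (Hess_sin (2 * π) x).const_mul _)
    (fun x => ((((Hess_cos (2 * π) x).const_mul β).const_sub 1).div_const 2).congr_deriv (by ring))
    (fun x => (Hess_sin (2 * π) x).const_mul _) hs ht ?_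
  have s1 := sin_sq_add_cos_sq (2 * π * x)
  have s2 := sin_sq_add_cos_sq (2 * π * y)
  rcases h with ⟨h1, h2⟩ | ⟨h1, h2⟩
  · have a1 : sin (2 * π * x) = 0 := by
      rw [h1] at s1
      exact pow_eq_zero_iff (two_ne_zero) |>.1 (by linarith)
    have a2 : sin (2 * π * y) ≠ 0 := fun e => by rw [h2, e] at s2; norm_num at s2
    left
    simp only [h1, h2, a1, hb]
    refine ⟨by norm_num, by simp, by simp [hπ, hb0], by norm_num, by simp [hπ, hb0, a2], by simp⟩
  · have a1 : sin (2 * π * y) = 0 := by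
      rw [h2] at s2
      exact pow_eq_zero_iff (two_ne_zero) |>.1 (by linarith)
    have a2 : sin (2 * π * x) ≠ 0 := fun e => by rw [h1, e] at s1; norm_num at s1
    right
    simp only [h1, h2, a1, mul_neg, hb]
    refine ⟨by norm_num, by simp [hπ, hb0, a2], by simp, by norm_num, by simp, by simp [hπ, hb0]⟩

theorem Hess_eta {β x y : ℝ} (hb : β * β = 1)
    (h : (cos x = β ∧ cos y = 0) ∨ (cos x = 0 ∧ cos y = -β)) :
    ∃ η : ℝ, (η = 1 ∨ η = -1) ∧ η * (sin x + sin y) = 1 := by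
  have s1 := sin_sq_add_cos_sq x
  have s2 := sin_sq_add_cos_sq y
  have h1 : (sin x + sin y) * (sin x + sin y) = 1 := by
    rcases h with ⟨h1, h2⟩ | ⟨h1, h2⟩
    · have a1 : sin x = 0 := by
        rw [h1] at s1
        exact pow_eq_zero_iff (two_ne_zero) |>.1 (by linarith)
      rw [h2] at s2
      rw [a1]
      linarith
    · have a1 : sin y = 0 := by
        rw [h2] at s2
        exact pow_eq_zero_iff (two_ne_zero) |>.1 (by linarith)
      rw [h1] at s1
      rw [a1]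
      linarith
  exact ⟨_, mul_self_eq_one_iff.1 h1, h1⟩

theorem Hess_odd {η r : ℝ} (hη : η = 1 ∨ η = -1) (h : 3 / 4 < η * r) :
    odd (1 / 2) (3 / 4) r = η := by
  rcases hη with rfl | rfl
  · exact odd_one (by norm_num) (by norm_num) (by linarith)
  · rw [← neg_neg r, odd_neg, odd_one (by norm_num) (by norm_num) (by linarith)]

theorem Hess_ev {u : R4} {φ : R4 → ℝ} {a : ℝ} (h : Continuous φ) (ha : a < φ u) :
    ∀ᶠ v in nhds u, a < φ v := continuousAt_const.eventually_lt h.continuousAt ha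

theorem Hess_chi {η : ℝ} (hη : η = 1 ∨ η = -1) {u : R4} (h1 : 1 / 5 < u.1) (h2 : u.1 < 4 / 5)
    (h : η * (sin (2 * π * u.2.2.1) + sin (2 * π * u.2.2.2)) = 1) :
    ∀ᶠ v in nhds u, chi v.1 v.2.2.1 v.2.2.2 = η ∧ bt v.1 = 0 := by
  filter_upwards [Hess_ev (φ := fun v => v.1) (by fun_prop) h1,
    Hess_ev (φ := fun v => -v.1) (a := -(4 / 5)) (by fun_prop) (by linarith),
    Hess_ev (φ := fun v => η * (sin (2 * π * v.2.2.1) + sin (2 * π * v.2.2.2))) (a := 3 / 4)
      (by fun_prop) (by rw [h]; norm_num)] with v e1 e2 e3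
  refine ⟨?_, step_zero (by norm_num) (by linarith)⟩
  rw [chi, step_one (by norm_num) e1.le, step_zero (by norm_num) (by linarith), Hess_odd hη e3]
  ring

theorem hess_F1 {ε : ℝ} (hε : ε ≠ 0) {u : R4} (h : IsSad u) (ht : sin (π * u.2.1) = 0) :
    Function.Injective (fderiv ℝ (fderiv ℝ (F1 ε)) u) := by
  obtain ⟨s, t, x, y⟩ := u
  have hct : cos (π * t) ≠ 0 := fun e => by
    have := sin_sq_add_cos_sq (π * t)
    rw [e, show sin (π * t) = 0 from ht] at this
    norm_num at this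
  have c1 : Continuous fun v : R4 => cp v.2.2.1 := contDiff_cp.continuous.comp (by fun_prop)
  have c2 : Continuous fun v : R4 => sq v.2.2.2 := contDiff_sq.continuous.comp (by fun_prop)
  rcases h with ⟨hs, h⟩ | ⟨hs, h⟩
  · obtain rfl : s = 1 / 4 := hs
    have h' : (cos (2 * π * x) = 1 ∧ cos (2 * π * y) = 0) ∨
        (cos (2 * π * x) = 0 ∧ cos (2 * π * y) = -1) := by
      simp only [Hess_cp, Hess_sq] at h
      exact h.imp (fun h => ⟨by linarith [h.1], by linarith [h.2]⟩)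
        fun h => ⟨by linarith [h.1], by linarith [h.2]⟩
    obtain ⟨η, hη, e⟩ := Hess_eta (one_mul 1) h'
    have hη0 : η ≠ 0 := by rcases hη with rfl | rfl <;> norm_num
    have hev : F1 ε =ᶠ[nhds (1 / 4, t, x, y)] fun v : R4 =>
        sin (2 * π * v.1) + ε * η * cos (π * v.2.1) +
          1 * PP ((1 + 1 * cos (2 * π * v.2.2.1)) / 2) ((1 - 1 * cos (2 * π * v.2.2.2)) / 2) := by
      filter_upwards [Hess_chi (u := (1 / 4, t, x, y)) hη (by norm_num) (by norm_num) e,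
        Hess_ev (u := (1 / 4, t, x, y)) (φ := fun v => -v.1) (a := -(2 / 5)) (by fun_prop)
          (by norm_num),
        Hess_ev (u := (1 / 4, t, x, y)) (a := 1 / 4)
          (φ := fun v => cp v.2.2.1 + sq v.2.2.2) (c1.add c2)
          (by rcases h with h | h <;> simp only [h.1, h.2] <;> norm_num),
        Hess_ev (u := (1 / 4, t, x, y)) (a := 1 / 4)
          (φ := fun v => 2 - cp v.2.2.1 - sq v.2.2.2) ((continuous_const.sub c1).sub c2)
          (by rcases h with h | h <;> simp only [h.1, h.2] <;> norm_num),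
        Hess_ev (u := (1 / 4, t, x, y)) (a := 1 / 4)
          (φ := fun v => 1 - cp v.2.2.1 + sq v.2.2.2) ((continuous_const.sub c1).add c2)
          (by rcases h with h | h <;> simp only [h.1, h.2] <;> norm_num)] with v e1 e2 e3 e4 e5
      have e6 : be v.1 = 0 := step_zero (by norm_num) (by linarith)
      rw [F1, F0, e1.1, e1.2, e6, zero_mul, KK, bump_zero (by norm_num) (by linarith),
        bump_zero (by norm_num) (by linarith), bump_zero (by norm_num) (by linarith),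
        one_mul, one_mul, one_mul, ← Hess_cp, ← Hess_sq]
      ring
    rw [hev.fderiv.fderiv_eq]
    refine Hess_trig (mul_ne_zero hε hη0) one_ne_zero (Or.inl rfl) ?_ hct h'
    rw [show 2 * π * (1 / 4) = π / 2 by ring, sin_pi_div_two]
    exact one_ne_zero
  · obtain rfl : s = 3 / 4 := hs
    have h' : (cos (2 * π * x) = -1 ∧ cos (2 * π * y) = 0) ∨
        (cos (2 * π * x) = 0 ∧ cos (2 * π * y) = - -1) := by
      simp only [Hess_cp, Hess_sq] at h
      exact h.imp (fun h => ⟨by linarith [h.1], by linarith [h.2]⟩)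
        fun h => ⟨by linarith [h.1], by linarith [h.2]⟩
    obtain ⟨η, hη, e⟩ := Hess_eta (β := -1) (by norm_num) h'
    have hη0 : η ≠ 0 := by rcases hη with rfl | rfl <;> norm_num
    have hev : F1 ε =ᶠ[nhds (3 / 4, t, x, y)] fun v : R4 =>
        sin (2 * π * v.1) + ε * η * cos (π * v.2.1) +
          -1 * PP ((1 + -1 * cos (2 * π * v.2.2.1)) / 2) ((1 - -1 * cos (2 * π * v.2.2.2)) / 2) := by
      filter_upwards [Hess_chi (u := (3 / 4, t, x, y)) hη (by norm_num) (by norm_num) e,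
        Hess_ev (u := (3 / 4, t, x, y)) (φ := fun v => v.1) (a := 3 / 5) (by fun_prop)
          (by norm_num),
        Hess_ev (u := (3 / 4, t, x, y)) (a := 1 / 4)
          (φ := fun v => cp v.2.2.1 + sq v.2.2.2) (c1.add c2)
          (by rcases h with h | h <;> simp only [h.1, h.2] <;> norm_num),
        Hess_ev (u := (3 / 4, t, x, y)) (a := 1 / 4)
          (φ := fun v => 2 - cp v.2.2.1 - sq v.2.2.2) ((continuous_const.sub c1).sub c2)
          (by rcases h with h | h <;> simp only [h.1, h.2] <;> norm_num),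
        Hess_ev (u := (3 / 4, t, x, y)) (a := 1 / 4)
          (φ := fun v => cp v.2.2.1 + 1 - sq v.2.2.2) ((c1.add continuous_const).sub c2)
          (by rcases h with h | h <;> simp only [h.1, h.2] <;> norm_num)] with v e1 e2 e3 e4 e5
      have e6 : be v.1 = 1 := step_one (by norm_num) e2.le
      have e7 : (1 + -1 * cos (2 * π * v.2.2.1)) / 2 = 1 - cp v.2.2.1 := by rw [Hess_cp]; ring
      have e8 : (1 - -1 * cos (2 * π * v.2.2.2)) / 2 = 1 - sq v.2.2.2 := by rw [Hess_sq]; ring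
      have e9 : bump (1 / 16) (cp v.2.2.1 + 1 - sq v.2.2.2) = 0 :=
        bump_zero (by norm_num) (by linarith)
      rw [F1, F0, e1.1, e1.2, e6, zero_mul, KK, bump_zero (by norm_num) (by linarith),
        bump_zero (by norm_num) (by linarith), e9, e7, e8]
      ring
    rw [hev.fderiv.fderiv_eq]
    refine Hess_trig (mul_ne_zero hε hη0) (by norm_num) (Or.inr rfl) ?_ hct h'
    rw [show 2 * π * (3 / 4) = π / 2 + π by ring, sin_add_pi, sin_pi_div_two]
    norm_num

end Vale.Agent.P265
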