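import Vale.Agent.P265.U.FCritA
import Vale.Agent.P265.U.FCritB

/-!
P265 block U, file Pert. Perturbation. On R3 let f v = F0 v.1 v.2.1 v.2.2, c v = chi v.1 v.2.1 v.2.2, U = interior of {fderiv c = 0}. By F0_ds_pos and F0_crit_mid the critical points of f
with 0 ≤ s ≤ 1 are IsExt (there sin 2πx + sin 2πy = 0, chi = 0 nearby) or IsSad (the sum is ±1, chi = ±1 nearby), so they lie in U.
On the compact set [0,1]³ minus U we have ‖fderiv f‖ ≥ δ > 0, ‖fderiv c‖ ≤ B; f and c are 1-periodic in x and y. Take ε B < δ.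
The t-derivative of F1 is -ε π sin (π t) chi.
-/

namespace Vale.Agent.P265

open scoped ContDiff Quaternion
open Real

theorem Pert_cpt {E F : Type} [TopologicalSpace E] [NormedAddCommGroup F] [NormedSpace ℝ F]
    {K : Set E} (hK : IsCompact K) {g h : E → F} (hg : Continuous g) (hh : Continuous h)
    (H : ∀ v ∈ K, g v = 0 → ∀ᶠ w in nhds v, h w = 0) :
    ∃ ε : ℝ, 0 < ε ∧ ε ≤ 1 ∧ ∀ v ∈ K, ∀ a : ℝ, |a| ≤ ε → g v + a • h v = 0 → g v = 0 := by
  have hp : ∀ v, 0 < ‖h v‖ + 1 := fun v => by positivity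
  obtain ⟨δ, hδ, hb⟩ := (hK.diff (isOpen_setOfPred_eventually_nhds (p := fun w => h w = 0))).exists_forall_le'
    (f := fun v => ‖g v‖ / (‖h v‖ + 1)) (a := 0)
    (hg.norm.div (hh.norm.add continuous_const) fun v => (hp v).ne').continuousOn
    fun v hv => div_pos (norm_pos_iff.2 fun h0 => hv.2 (H v hv.1 h0)) (hp v)
  refine ⟨min δ 1, lt_min hδ one_pos, min_le_right _ _, fun v hv a ha e => ?_⟩
  by_cases hU : ∀ᶠ w in nhds v, h w = 0
  · rwa [hU.self_of_nhds, smul_zero, add_zero] at e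
  · have h1 := (le_div_iff₀ (hp v)).1 (hb v ⟨hv, hU⟩)
    rw [eq_neg_of_add_eq_zero_left e, norm_neg, norm_smul, Real.norm_eq_abs] at h1
    have h2 := mul_le_mul_of_nonneg_right (ha.trans (min_le_left _ _)) (norm_nonneg (h v))
    linarith

theorem Pert_crit {v : R3} (t : ℝ) (h0 : 0 ≤ v.1) (h1 : v.1 ≤ 1)
    (h : fderiv ℝ (fun v : R3 => F0 v.1 v.2.1 v.2.2) v = 0) :
    IsExt (v.1, t, v.2.1, v.2.2) ∨ IsSad (v.1, t, v.2.1, v.2.2) := by
  obtain ⟨s, x, y⟩ := v
  have hd := ((contDiff_F0.differentiable (by simp)) (s, x, y)).hasFDerivAt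
  rw [h] at hd
  have hs : deriv (fun s => F0 s x y) s = 0 :=
    (hd.comp_hasDerivAt s (f := fun s : ℝ => ((s, x, y) : R3))
      ((hasDerivAt_id s).prodMk (hasDerivAt_const s _))).deriv
  have hx : deriv (fun x => F0 s x y) x = 0 :=
    (hd.comp_hasDerivAt x (f := fun x : ℝ => ((s, x, y) : R3))
      ((hasDerivAt_const x _).prodMk ((hasDerivAt_id x).prodMk (hasDerivAt_const x _)))).deriv
  have hy : deriv (fun y => F0 s x y) y = 0 :=
    (hd.comp_hasDerivAt y (f := fun y : ℝ => ((s, x, y) : R3))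
      ((hasDerivAt_const y _).prodMk ((hasDerivAt_const y _).prodMk (hasDerivAt_id y)))).deriv
  refine F0_crit_mid t ?_ ?_ hs hx hy
  · by_contra hc
    exact (F0_ds_pos x y h0 h1 (Or.inl (not_le.1 hc))).ne' hs
  · by_contra hc
    exact (F0_ds_pos x y h0 h1 (Or.inr (not_le.1 hc))).ne' hs

theorem Pert_cp (x : ℝ) : sin (2 * π * x) ^ 2 = 4 * cp x * (1 - cp x) := by
  rw [mul_assoc 2, sin_two_mul, cp, ← sin_sq]
  ring

theorem Pert_sq (x : ℝ) : sin (2 * π * x) ^ 2 = 4 * sq x * (1 - sq x) := by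
  rw [mul_assoc 2, sin_two_mul, sq, ← cos_sq']
  ring

theorem Pert_cont : Continuous fun v : R3 => sin (2 * π * v.2.1) + sin (2 * π * v.2.2) := by
  fun_prop

theorem Pert_ext {v : R3} {t : ℝ} (h : IsExt (v.1, t, v.2.1, v.2.2)) :
    (fun v : R3 => chi v.1 v.2.1 v.2.2) =ᶠ[nhds v] fun _ => 0 := by
  have h1 : sin (2 * π * v.2.1) = 0 := by
    refine pow_eq_zero_iff two_ne_zero |>.1 ?_
    rw [Pert_cp]
    rcases h.2 with h | h <;> simp only at h <;> rw [h.1] <;> ring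
  have h2 : sin (2 * π * v.2.2) = 0 := by
    refine pow_eq_zero_iff two_ne_zero |>.1 ?_
    rw [Pert_sq]
    rcases h.2 with h | h <;> simp only at h <;> rw [h.2] <;> ring
  have h3 : |sin (2 * π * v.2.1) + sin (2 * π * v.2.2)| < 1 / 2 := by
    rw [h1, h2]
    norm_num
  filter_upwards [Pert_cont.abs.continuousAt.eventually_lt continuousAt_const h3] with w hw
  rw [chi, odd_zero (by norm_num) hw.le, mul_zero]

theorem Pert_sad {v : R3} {t : ℝ} (h : IsSad (v.1, t, v.2.1, v.2.2)) :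
    ∃ k : ℝ, k ≠ 0 ∧ (fun v : R3 => chi v.1 v.2.1 v.2.2) =ᶠ[nhds v] fun _ => k := by
  have h0 : 1 / 5 < v.1 ∧ v.1 < 4 / 5 := by
    rcases h with h | h <;> simp only at h <;> rw [h.1] <;> norm_num
  have a := Pert_cp v.2.1
  have b := Pert_sq v.2.2
  have h1 : (sin (2 * π * v.2.1) + sin (2 * π * v.2.2)) ^ 2 = 1 := by
    rcases h with ⟨-, h | h⟩ | ⟨-, h | h⟩ <;> simp only at h <;> rw [h.1] at a <;> rw [h.2] at b
    · rw [pow_eq_zero_iff two_ne_zero |>.1 (a.trans (by ring)), zero_add, b]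
      norm_num
    · rw [pow_eq_zero_iff two_ne_zero |>.1 (b.trans (by ring)), add_zero, a]
      norm_num
    · rw [pow_eq_zero_iff two_ne_zero |>.1 (a.trans (by ring)), zero_add, b]
      norm_num
    · rw [pow_eq_zero_iff two_ne_zero |>.1 (b.trans (by ring)), add_zero, a]
      norm_num
  have e1 := continuousAt_const.eventually_lt continuous_fst.continuousAt h0.1
  have e2 := continuous_fst.continuousAt.eventually_lt continuousAt_const h0.2
  rcases mul_self_eq_one_iff.1 ((pow_two _).symm.trans h1) with h2 | h2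
  · refine ⟨1, one_ne_zero, ?_⟩
    filter_upwards [e1, e2, continuousAt_const.eventually_lt Pert_cont.continuousAt
      (show (3 / 4 : ℝ) < _ by rw [h2]; norm_num)] with w w1 w2 w3
    rw [chi, odd_one (by norm_num) (by norm_num) w3.le, step_one (by norm_num) w1.le,
      step_zero (by norm_num) w2.le]
    norm_num
  · refine ⟨-1, by norm_num, ?_⟩
    filter_upwards [e1, e2, continuousAt_const.eventually_lt Pert_cont.neg.continuousAt
      (show (3 / 4 : ℝ) < -(_ + _) by rw [h2]; norm_num)] with w w1 w2 w3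
    have w4 := odd_one (a := 1 / 2) (by norm_num) (by norm_num) w3.le
    rw [Pi.neg_apply, odd_neg, neg_eq_iff_eq_neg] at w4
    rw [chi, w4, step_one (by norm_num) w1.le, step_zero (by norm_num) w2.le]
    norm_num

theorem Pert_cp_int (x : ℝ) (m : ℤ) : cp (x + m) = cp x := by
  rw [cp, cp, mul_add, mul_comm π (m : ℝ), cos_add_int_mul_pi, mul_pow, ← zpow_natCast,
    ← zpow_mul, Even.neg_one_zpow ⟨m, by push_cast; ring⟩, one_mul]

theorem Pert_sq_int (x : ℝ) (m : ℤ) : sq (x + m) = sq x := by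
  have h := Pert_cp_int x m
  rw [cp, cp, cos_sq', cos_sq'] at h
  rw [sq, sq]
  linarith

theorem Pert_sin_int (x : ℝ) (m : ℤ) : sin (2 * π * (x + m)) = sin (2 * π * x) := by
  rw [mul_add, mul_comm (2 * π) (m : ℝ), sin_add_int_mul_two_pi]

theorem Pert_per {g : R3 → ℝ} (h : ∀ (v : R3) (m n : ℤ), g (v + (0, (m : ℝ), (n : ℝ))) = g v)
    (v : R3) : fderiv ℝ g v = fderiv ℝ g (v.1, Int.fract v.2.1, Int.fract v.2.2) := by
  have e : v = (v.1, Int.fract v.2.1, Int.fract v.2.2) + (0, (⌊v.2.1⌋ : ℝ), (⌊v.2.2⌋ : ℝ)) := by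
    simp
  conv_lhs => rw [e, ← fderiv_comp_add_right]
  simp only [h]

theorem Pert_F0 (v : R3) (m n : ℤ) : (fun v : R3 => F0 v.1 v.2.1 v.2.2) (v + (0, (m : ℝ), (n : ℝ))) =
    (fun v : R3 => F0 v.1 v.2.1 v.2.2) v := by
  have e1 : v.2.1 + m - 3 * (v.2.2 + n) + 3 / 2 = v.2.1 - 3 * v.2.2 + 3 / 2 + (m - 3 * n : ℤ) := by
    push_cast
    ring
  have e2 : v.2.2 + n - 1 / 2 = v.2.2 - 1 / 2 + n := by ring
  simp only [Prod.fst_add, Prod.snd_add, add_zero, F0, e1, e2, Pert_cp_int, Pert_sq_int]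

theorem Pert_chi (v : R3) (m n : ℤ) : (fun v : R3 => chi v.1 v.2.1 v.2.2) (v + (0, (m : ℝ), (n : ℝ))) =
    (fun v : R3 => chi v.1 v.2.1 v.2.2) v := by
  simp only [Prod.fst_add, Prod.snd_add, add_zero, chi, Pert_sin_int]

theorem exists_eps : ∃ ε : ℝ, 0 < ε ∧ ε ≤ 1 ∧ ∀ u : R4, 0 ≤ u.1 → u.1 ≤ 1 →
    fderiv ℝ (F1 ε) u = 0 → IsExt u ∨ (IsSad u ∧ sin (π * u.2.1) = 0) := by
  obtain ⟨ε, e0, e1, H⟩ := Pert_cpt (K := Set.Icc ((0, 0, 0) : R3) (1, 1, 1)) isCompact_Icc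
    (contDiff_F0.continuous_fderiv (by simp)) (contDiff_chi.continuous_fderiv (by simp))
    fun v hv h => by
      have : ∃ k : ℝ, (fun v : R3 => chi v.1 v.2.1 v.2.2) =ᶠ[nhds v] fun _ => k := by
        rcases Pert_crit 0 hv.1.1 hv.2.1 h with h | h
        · exact ⟨0, Pert_ext h⟩
        · exact (Pert_sad h).imp fun k hk => hk.2
      obtain ⟨k, hk⟩ := this
      filter_upwards [hk.fderiv (𝕜 := ℝ)] with w hw
      rw [hw, fderiv_fun_const]
      rfl
  refine ⟨ε, e0, e1, ?_⟩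
  rintro ⟨s, t, x, y⟩ h0 h1 h
  have hd := (((contDiff_F1 ε).differentiable (by simp)) (s, t, x, y)).hasFDerivAt
  rw [h] at hd
  have d1 := hd.comp (f := fun v : R3 => ((v.1, t, v.2.1, v.2.2) : R4)) (s, x, y)
    (hasFDerivAt_fst.prodMk ((hasFDerivAt_const t _).prodMk hasFDerivAt_snd))
  rw [ContinuousLinearMap.zero_comp] at d1
  have d2 := (((contDiff_F0.differentiable (by simp)) (s, x, y)).hasFDerivAt.add
    (((contDiff_chi.differentiable (by simp)) (s, x, y)).hasFDerivAt.const_mul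
      (ε * cos (π * t)))).unique d1
  rw [Pert_per Pert_F0, Pert_per (g := fun v : R3 => chi v.1 v.2.1 v.2.2) Pert_chi] at d2
  have d3 := H (s, Int.fract x, Int.fract y) ⟨⟨h0, Int.fract_nonneg x, Int.fract_nonneg y⟩,
    h1, (Int.fract_lt_one x).le, (Int.fract_lt_one y).le⟩ _ (by
      rw [abs_mul, abs_of_pos e0]
      exact mul_le_of_le_one_right e0.le (abs_cos_le_one _)) d2
  rcases Pert_crit (v := (s, x, y)) t h0 h1 ((Pert_per Pert_F0 _).trans d3) with h2 | h2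
  · exact Or.inl h2
  · refine Or.inr ⟨h2, ?_⟩
    obtain ⟨k, k0, hk⟩ := Pert_sad h2
    have k1 : chi s x y = k := hk.self_of_nhds
    have d4 := hd.comp_hasDerivAt t (f := fun t : ℝ => ((s, t, x, y) : R4))
      ((hasDerivAt_const t _).prodMk ((hasDerivAt_id t).prodMk (hasDerivAt_const t _)))
    have d5 := (((((hasDerivAt_id t).const_mul π).cos.const_mul ε).mul_const
      (chi s x y)).const_add (F0 s x y)).unique d4
    rw [k1] at d5
    simpa [e0.ne', k0, pi_ne_zero] using d5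

end Vale.Agent.P265
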