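import Vale.Agent.P265.U.RegA
import Vale.Agent.P265.U.GG

/-!
P265 block U, file RegB. Transport of reg_gh: near u in the strip, Gt 1 = gh 0 (sq y < 9/10) or Gt 1 = gh 0 ∘ sh with imK negated (1/10 < sq y); sh is affine with invertible linear part.
Then imv_gam: at a zero of V the derivative of c • V is c • dV, with c > 0 smooth.
-/

namespace Vale.Agent.P265

open scoped ContDiff Quaternion
open Real

theorem RegB_cd_imv : ContDiff ℝ ∞ imv :=
  (LinearMap.toContinuousLinearMap (𝕜 := ℝ) (E := ℍ) (F' := R3)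
    { toFun := imv, map_add' := fun _ _ => rfl, map_smul' := fun _ _ => rfl }).contDiff

theorem RegB_cd_gh : ContDiff ℝ ∞ fun u : R4 => imv (gh 0 u) :=
  RegB_cd_imv.comp (f := gh 0) (contDiff_gh.comp (f := fun u : R4 => (((0 : ℝ), u) : ℝ × R4))
    (contDiff_const.prodMk contDiff_id))

theorem RegB_cd_Gt : ContDiff ℝ ∞ fun u : R4 => imv (Gt 1 u) :=
  RegB_cd_imv.comp GG_cd_one

/-- the reflection in the last coordinate -/
noncomputable def RegB_N : R3 →L[ℝ] R3 :=
  (ContinuousLinearMap.id ℝ ℝ).prodMap ((ContinuousLinearMap.id ℝ ℝ).prodMap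
    (-ContinuousLinearMap.id ℝ ℝ))

theorem RegB_N_apply (v : R3) : RegB_N v = (v.1, v.2.1, -v.2.2) := rfl

theorem RegB_N_surj : Function.Surjective RegB_N := fun v =>
  ⟨(v.1, v.2.1, -v.2.2), by rw [RegB_N_apply]; simp⟩

theorem RegB_sh_deriv (u : R4) : ∃ A : R4 →L[ℝ] R4, HasFDerivAt sh A u ∧ Function.Surjective A := by
  let A : R4 →ₗ[ℝ] R4 :=
    { toFun := fun v => (v.1, v.2.1, v.2.2.1 + 3 * v.2.2.2, v.2.2.2)
      map_add' := fun v w => by
        simp only [Prod.fst_add, Prod.snd_add, Prod.mk_add_mk, Prod.mk.injEq, true_and, and_true]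
        ring
      map_smul' := fun c v => by
        simp only [Prod.smul_fst, Prod.smul_snd, Prod.smul_mk, Prod.mk.injEq, smul_eq_mul,
          RingHom.id_apply, true_and, and_true]
        ring }
  refine ⟨LinearMap.toContinuousLinearMap A, ?_, fun v => ?_⟩
  · have h := ((LinearMap.toContinuousLinearMap A).hasFDerivAt (x := u)).add_const
      ((0, 0, 0, 1 / 2) : R4)
    have e : sh = fun y => LinearMap.toContinuousLinearMap A y + ((0, 0, 0, 1 / 2) : R4) := by
      funext y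
      show sh y = (y.1, y.2.1, y.2.2.1 + 3 * y.2.2.2, y.2.2.2) + ((0, 0, 0, 1 / 2) : R4)
      simp [sh]
    rw [e]
    exact h
  · refine ⟨(v.1, v.2.1, v.2.2.1 - 3 * v.2.2.2, v.2.2.2), ?_⟩
    show (v.1, v.2.1, v.2.2.1 - 3 * v.2.2.2 + 3 * v.2.2.2, v.2.2.2) = v
    simp

theorem RegB_cont_sq : Continuous fun u : R4 => sq u.2.2.2 :=
  contDiff_sq.continuous.comp (by fun_prop)

theorem reg_Gt {u : R4} (hu : u ∈ Strip) (h : imv (Gt 1 u) = 0) :
    Function.Surjective (fderiv ℝ (fun u => imv (Gt 1 u)) u) := by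
  have hs : ∀ᶠ v in nhds u, v ∈ Strip := isOpen_strip.mem_nhds hu
  rcases lt_or_ge (sq u.2.2.2) (9 / 10) with h1 | h1
  · have h2 : ∀ᶠ v : R4 in nhds u, sq v.2.2.2 < 9 / 10 :=
      (isOpen_lt RegB_cont_sq continuous_const).mem_nhds h1
    have e : (fun u => imv (Gt 1 u)) =ᶠ[nhds u] fun u => imv (gh 0 u) := by
      filter_upwards [hs, h2] with v hv hv'
      rw [Gt_one_u hv hv']
    rw [e.fderiv_eq]
    exact reg_gh (by rw [← Gt_one_u hu h1]; exact h)
  · have h1' : 1 / 10 < sq u.2.2.2 := by linarith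
    have h2 : ∀ᶠ v : R4 in nhds u, 1 / 10 < sq v.2.2.2 :=
      (isOpen_lt continuous_const RegB_cont_sq).mem_nhds h1'
    have e : (fun u => imv (Gt 1 u)) =ᶠ[nhds u] fun u => RegB_N (imv (gh 0 (sh u))) := by
      filter_upwards [hs, h2] with v hv hv'
      rw [Gt_one_a hv hv']
      rfl
    have h3 : imv (gh 0 (sh u)) = 0 := by
      rw [Gt_one_a hu h1'] at h
      simp only [imv, Prod.mk_eq_zero, neg_eq_zero] at h ⊢
      exact h
    obtain ⟨A, hA, hA'⟩ := RegB_sh_deriv u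
    have h4 := (RegB_cd_gh.differentiable (by simp) (sh u)).hasFDerivAt
    have h5 := RegB_N.hasFDerivAt.comp u (h4.comp u hA)
    have h6 : fderiv ℝ (fun u => RegB_N (imv (gh 0 (sh u)))) u =
        RegB_N.comp ((fderiv ℝ (fun u => imv (gh 0 u)) (sh u)).comp A) := h5.fderiv
    rw [e.fderiv_eq, h6]
    exact RegB_N_surj.comp ((reg_gh h3).comp hA')

theorem reg_gam (ε : ℝ) {u : R4} (hu : u ∈ Strip) (h : imv (gam ε u) = 0) :
    Function.Surjective (fderiv ℝ (fun u => imv (gam ε u)) u) := by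
  have hpos : ∀ v, 0 < √(WW ε v ^ 2 + (1 - wb v ^ 2)) := fun v => sqrt_pos.2 (gam_den_pos ε v)
  have e : (fun u => imv (gam ε u)) =
      fun u => (√(WW ε u ^ 2 + (1 - wb u ^ 2)))⁻¹ • imv (Gt 1 u) := funext (imv_gam ε)
  have h0 : imv (Gt 1 u) = 0 := by
    rw [imv_gam] at h
    exact (smul_eq_zero.1 h).resolve_left (inv_pos.2 (hpos u)).ne'
  have hW := (contDiff_WW ε).differentiable (by simp) u
  have hb := contDiff_wb.differentiable (by simp) u
  have hc : DifferentiableAt ℝ (fun u => (√(WW ε u ^ 2 + (1 - wb u ^ 2)))⁻¹) u :=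
    (((hW.pow 2).add ((differentiableAt_const 1).sub (hb.pow 2))).sqrt
      (gam_den_pos ε u).ne').inv (hpos u).ne'
  have hV := (RegB_cd_Gt.differentiable (by simp) u).hasFDerivAt
  have h1 := (hc.hasFDerivAt.smul hV).fderiv
  have h2 : fderiv ℝ (fun u => (√(WW ε u ^ 2 + (1 - wb u ^ 2)))⁻¹ • imv (Gt 1 u)) u = _ := h1
  rw [e, h2]
  intro y
  obtain ⟨x, hx⟩ := reg_Gt hu h0 (√(WW ε u ^ 2 + (1 - wb u ^ 2)) • y)
  refine ⟨x, ?_⟩
  simp only [add_apply, smul_apply,
    ContinuousLinearMap.smulRight_apply, h0, smul_zero, add_zero, hx, smul_smul,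
    inv_mul_cancel₀ (hpos u).ne', one_smul]

end Vale.Agent.P265
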