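import Vale.Agent.P265.U.Per
import Vale.Agent.P265.U.Pert
import Vale.Agent.P265.U.Hess
import Vale.Agent.P265.U.RegB
import Vale.Agent.P265.U.Cone
import Vale.Agent.P265.U.CritB

/-!
P265 block U, file Main. Assembly.
-/

namespace Vale.Agent.P265

open scoped ContDiff Quaternion
open Real

theorem exists_isPath0 : ∃ ε : ℝ, IsPath0 (GG ε) := by
  obtain ⟨ε, hε0, hε1, hε⟩ := exists_eps
  obtain ⟨S, hS, hrep⟩ := exists_reps
  have hone : ∀ u, GG ε (1, u) = gam ε u := fun u => GG_stop ε u (by norm_num)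
  have habs : |ε| ≤ 1 := by rwa [abs_of_pos hε0]
  refine ⟨ε, (contDiff_GG ε).contDiffOn, fun τ u _ => normSq_GG ε _, GG_act0 ε,
    fun τ u h => GG_glue ε τ h, fun τ u _ h => GG_start ε u h,
    fun τ u h => by rw [GG_stop ε u h, hone], fun u h0 h1 h => ?_, S, hS,
    fun u h0 h1 h hd => ?_⟩
  · simp only [hone] at h ⊢
    exact reg_gam ε ⟨by linarith, by linarith⟩ h
  · simp only [hone] at h hd ⊢
    have hV : imv (Gt 1 u) ≠ 0 := fun h' => h (by rw [imv_gam, h', smul_zero])
    have hw : wb u ^ 2 < 1 := by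
      have h2 := wb_sq_add u
      have h3 : 0 < dot (imv (Gt 1 u)) (imv (Gt 1 u)) := by
        generalize imv (Gt 1 u) = V at hV
        obtain ⟨a, b, c⟩ := V
        by_contra hc
        simp only [dot, not_lt] at hc
        apply hV
        have ha : a = 0 := by nlinarith [mul_self_nonneg a, mul_self_nonneg b, mul_self_nonneg c]
        have hb : b = 0 := by nlinarith [mul_self_nonneg a, mul_self_nonneg b, mul_self_nonneg c]
        have hc : c = 0 := by nlinarith [mul_self_nonneg a, mul_self_nonneg b, mul_self_nonneg c]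
        rw [ha, hb, hc]; rfl
      linarith
    have hw1 : |wb u| < 1 := (sq_lt_one_iff_abs_lt_one _).1 hw
    have hw2 : |wb u| < 99 / 100 := by
      by_contra hc
      exact no_crit_zone habs h0 h1.le (not_lt.1 hc) hw1 hd
    obtain ⟨hF, hH⟩ := crit_far ε hw2 hd
    rcases hε u h0 h1.le hF with he | ⟨hs, ht⟩
    · exact absurd (wb_sq_of_isExt he) hw.ne
    · exact ⟨hrep u hs ht, hH (hess_F1 hε0.ne' hs ht)⟩

end Vale.Agent.P265
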