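import Vale.Agent.P265.U.Defs

/-!
P265 block U, file Per. Periodisation. Put G' (τ, u) = G (τ, act (-⌊u.1⌋) 0 0 0 u). Near every u one has G' (τ, v) = G (τ, act (-⌊u.1⌋) 0 0 0 v)
for v near u (for u.1 an integer m and v.1 slightly smaller use act_act, inv and glue: act (-m+1) 0 0 0 = act 0 0 a b ∘ act 1 0 0 0 ∘ act (-m) 0 0 0).
act m n a b is affine with invertible linear part lin m n (act_add_lin), so reg and crit are transported.
-/

namespace Vale.Agent.P265

open scoped ContDiff Quaternion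
open Real

/-- The linear part of `act m 0 0 0` as an equivalence. -/
noncomputable def perL (m : ℤ) : R4 ≃L[ℝ] R4 :=
  LinearEquiv.toContinuousLinearEquiv
    { toFun := lin m 0
      invFun := lin (-m) 0
      map_add' := fun u v => by
        simp only [lin, sg_zero, Prod.fst_add, Prod.snd_add, Prod.mk_add_mk, Prod.mk.injEq]
        refine ⟨trivial, trivial, by ring, by ring⟩
      map_smul' := fun c u => by
        simp only [lin, sg_zero, Prod.smul_fst, Prod.smul_snd, Prod.smul_mk, smul_eq_mul,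
          RingHom.id_apply, Prod.mk.injEq]
        refine ⟨trivial, trivial, by ring, by ring⟩
      left_inv := fun u => by simp [lin, sg_zero]
      right_inv := fun u => by simp [lin, sg_zero] }

theorem per_act (m : ℤ) (v : R4) : act m 0 0 0 v = act m 0 0 0 0 + perL m v := by
  conv_lhs => rw [← zero_add v, act_add_lin]
  rfl

theorem per_fd {E : Type} [NormedAddCommGroup E] [NormedSpace ℝ E] (f : R4 → E) (m : ℤ) (v : R4) :
    fderiv ℝ (fun v => f (act m 0 0 0 v)) v =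
      (fderiv ℝ f (act m 0 0 0 v)).comp (perL m : R4 →L[ℝ] R4) := by
  have e : (fun v => f (act m 0 0 0 v)) = (fun w => f (act m 0 0 0 0 + w)) ∘ perL m :=
    funext fun v => congrArg f (per_act m v)
  rw [e, ContinuousLinearEquiv.comp_right_fderiv, fderiv_comp_add_left, ← per_act]

theorem per_fd2 (f : R4 → ℝ) (m : ℤ) (v : R4)
    (h : Function.Injective (fderiv ℝ (fderiv ℝ f) (act m 0 0 0 v))) :
    Function.Injective (fderiv ℝ (fderiv ℝ fun v => f (act m 0 0 0 v)) v) := by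
  have e : (fderiv ℝ fun v => f (act m 0 0 0 v)) =
      ((perL m).symm.arrowCongr (ContinuousLinearEquiv.refl ℝ ℝ)) ∘
        fun v => fderiv ℝ f (act m 0 0 0 v) := by
    funext w
    rw [per_fd]
    rfl
  rw [e, ContinuousLinearEquiv.comp_fderiv, per_fd]
  exact ((perL m).symm.arrowCongr (ContinuousLinearEquiv.refl ℝ ℝ)).injective.comp
    (h.comp (perL m).injective)

theorem per_smooth (m : ℤ) : ContDiff ℝ ∞ (act m 0 0 0) := by
  unfold act
  fun_prop

theorem per_split (k n a b : ℤ) (v : R4) : act k n a b v = act 0 n a b (act k 0 0 0 v) := by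
  simp [act, sg_zero]

theorem per_key {G : ℝ × R4 → ℍ} (h : IsPath0 G) (τ : ℝ) (k n a b : ℤ) (v : R4) :
    G (τ, act k n a b v) = G (τ, act k 0 0 0 v) := by
  rw [per_split, h.inv]

theorem per_mem (u : R4) : 0 ≤ (act (-⌊u.1⌋) 0 0 0 u).1 ∧ (act (-⌊u.1⌋) 0 0 0 u).1 < 1 := by
  simp only [act, Int.cast_neg]
  constructor <;> linarith [Int.floor_le u.1, Int.lt_floor_add_one u.1]

theorem per_strip (u : R4) : act (-⌊u.1⌋) 0 0 0 u ∈ Strip :=
  ⟨by linarith [(per_mem u).1], by linarith [(per_mem u).2]⟩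

theorem per_loc {G : ℝ × R4 → ℍ} (h : IsPath0 G) (u : R4) : ∀ᶠ v in nhds u, ∀ τ,
    G (τ, act (-⌊v.1⌋) 0 0 0 v) = G (τ, act (-⌊u.1⌋) 0 0 0 v) := by
  have h1 : ∀ᶠ v : R4 in nhds u, (⌊u.1⌋ : ℝ) - 1 / 10 < v.1 :=
    continuous_const.continuousAt.eventually_lt continuous_fst.continuousAt
      (by linarith [Int.floor_le u.1])
  have h2 : ∀ᶠ v : R4 in nhds u, v.1 < (⌊u.1⌋ : ℝ) + 1 :=
    continuous_fst.continuousAt.eventually_lt continuous_const.continuousAt
      (Int.lt_floor_add_one u.1)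
  filter_upwards [h1, h2] with v a1 a2 τ
  generalize ⌊u.1⌋ = m at a1 a2 ⊢
  rcases le_or_gt (m : ℝ) v.1 with a3 | a3
  · rw [Int.floor_eq_iff.2 ⟨a3, a2⟩]
  · have e : ⌊v.1⌋ = m - 1 := Int.floor_eq_iff.2 ⟨by push_cast; linarith, by push_cast; linarith⟩
    obtain ⟨a, b, hab⟩ := act_act (-m) 0 0 0 1 0 0 0
    have g := h.glue τ (act (-m) 0 0 0 v) (by
      simp only [act, Int.cast_neg]
      rw [abs_lt]
      constructor <;> linarith)
    rw [hab, per_key h] at g
    rw [e, ← g, neg_sub, sub_eq_neg_add]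

theorem IsPath0.exists_isPath {G : ℝ × R4 → ℍ} (h : IsPath0 G) :
    ∃ G' : ℝ × R4 → ℍ, IsPath G' := by
  have loc : ∀ {E : Type} (φ : ℍ → E) (u : R4),
      (fun v : R4 => φ (G (1, act (-⌊v.1⌋) 0 0 0 v))) =ᶠ[nhds u]
        fun v => φ (G (1, act (-⌊u.1⌋) 0 0 0 v)) := fun φ u =>
    (per_loc h u).mono fun v hv => congrArg φ (hv 1)
  refine ⟨fun w => G (w.1, act (-⌊w.2.1⌋) 0 0 0 w.2), contDiff_iff_contDiffAt.2 fun w => ?_,
    fun w => h.unit _ _ (per_strip _), fun τ u u' hu => ?_,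
    fun τ u hτ => h.start τ _ (per_strip u) hτ, fun τ u hτ => h.stop τ _ hτ, fun u hu => ?_, ?_⟩
  · have a1 : ContDiffAt ℝ ∞ G (w.1, act (-⌊w.2.1⌋) 0 0 0 w.2) :=
      h.smooth.contDiffAt ((isOpen_strip.preimage continuous_snd).mem_nhds (per_strip w.2))
    have a2 := a1.comp w (contDiff_fst.prodMk ((per_smooth _).comp contDiff_snd)).contDiffAt
    refine a2.congr_of_eventuallyEq ?_
    filter_upwards [continuous_snd.continuousAt.eventually (per_loc h w.2)] with v hv
    exact hv v.1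
  · obtain ⟨m, n, a, b, rfl⟩ := hu
    obtain ⟨a', b', e⟩ := act_act m n a b (-⌊(act m n a b u).1⌋) 0 0 0
    have e2 : m + -⌊(act m n a b u).1⌋ = -⌊u.1⌋ := by
      simp only [act, Int.floor_add_intCast]
      ring
    simp only
    rw [e, per_key h, e2]
  · simp only at hu ⊢
    rw [(loc imv u).fderiv_eq, per_fd (fun v => imv (G (1, v)))]
    exact (h.reg _ (per_mem u).1 (per_mem u).2 hu).comp (perL _).surjective
  · obtain ⟨S, hS, hc⟩ := h.crit
    refine ⟨S, hS, fun u h1 h2 => ?_⟩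
    simp only at h1 h2 ⊢
    rw [(loc (fun q => q.re) u).fderiv_eq, per_fd (fun v => (G (1, v)).re)] at h2
    obtain ⟨⟨u', hu', r⟩, hi⟩ := hc _ (per_mem u).1 (per_mem u).2 h1 (by
      refine ContinuousLinearMap.ext fun x => ?_
      obtain ⟨y, rfl⟩ := (perL (-⌊u.1⌋)).surjective x
      exact DFunLike.congr_fun h2 y)
    refine ⟨⟨u', hu', Rel4.trans ⟨_, 0, 0, 0, rfl⟩ r⟩, ?_⟩
    rw [(loc (fun q => q.re) u).fderiv.fderiv_eq]
    exact per_fd2 (fun v => (G (1, v)).re) _ u hi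

end Vale.Agent.P265
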