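import Vale.Agent.P265.U.Gh

/-!
P265 block U, file RegA. If imv (gh 0 u) = 0 then la² = mu, so mu ≤ 1, la = 1 near u, mu = 1, z2 = z3 = 0, sn x = sn y = 0, sin π x = sin π y = 0, z0 = ±1.
Near u: imv = ((1 - mu)/(1 + mu), 2 z2/(1 + mu), 2 z3/(1 + mu)) and sn x = c sin (π x) with c = cos (π x₀) = ±1, so sn' = π at u.
Derivative in the directions s, x, y: (∓4, 0, 0), 10 π (0, cos π t, sin π t), 10 π (0, -sin π t, cos π t).
-/

namespace Vale.Agent.P265

open scoped ContDiff Quaternion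
open Real

theorem RegA_sin (x : ℝ) : HasDerivAt (fun x => sin (π * x)) (cos (π * x) * π) x := by
  simpa using ((hasDerivAt_id' x).const_mul π).sin

theorem RegA_sq {x : ℝ} (h : sin (π * x) = 0) : HasDerivAt sq 0 x := by
  exact ((RegA_sin x).fun_pow 2).congr_deriv (by simp [h])

theorem RegA_sn {x : ℝ} (h : sin (π * x) = 0) : HasDerivAt sn π x := by
  have h1 : DifferentiableAt ℝ (fun x => odd (1 / 4) (1 / 2) (cos (π * x))) x :=
    ((contDiff_odd _ _).differentiable (by simp) _).comp x (by fun_prop)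
  refine ((RegA_sin x).fun_mul h1.hasDerivAt).congr_deriv ?_
  have h2 : odd (1 / 4) (1 / 2) 1 = 1 := odd_one (by norm_num) (by norm_num) (by norm_num)
  rcases sin_eq_zero_iff_cos_eq.1 h with h3 | h3 <;> rw [h, h3]
  · rw [h2]
    ring
  · rw [odd_neg, h2]
    ring

theorem RegA_mul {f g : R4 → ℝ} {g' : R4 →L[ℝ] ℝ} {u : R4} (hf : DifferentiableAt ℝ f u)
    (hg : HasFDerivAt g g' u) (h0 : g u = 0) : HasFDerivAt (fun v => f v * g v) (f u • g') u := by
  simpa [h0] using hf.hasFDerivAt.fun_mul hg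

theorem RegA_zero {u : R4} (h : imv (gh 0 u) = 0) : mu 0 u = 1 ∧ z0 0 u ^ 2 = 1 ∧
    sin (π * u.2.2.1) = 0 ∧ sin (π * u.2.2.2) = 0 := by
  have hD := (la_mu_pos 0 u).ne'
  simp only [imv, gh, Prod.mk_eq_zero, div_eq_zero_iff, hD, or_false] at h
  obtain ⟨h1, h2, h3⟩ := h
  have l0 : 0 ≤ la 0 u := sub_nonneg.2 (step_le_one _ _ _)
  have l1 : la 0 u ≤ 1 := sub_le_self _ (step_nonneg _ _ _)
  have l2 : la 0 u = 1 := by rw [la, step_zero (by norm_num) (by nlinarith), sub_zero]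
  rw [l2] at h1 h2 h3
  have hm : mu 0 u = 1 := by linarith
  have hx : 0 ≤ sq u.2.2.1 := sq_nonneg _
  have hy : 0 ≤ sq u.2.2.2 := sq_nonneg _
  have hz := sq_nonneg (z0 0 u)
  have hm' := hm
  rw [mu] at hm'
  have h4 := sn_sq (x := u.2.2.1) (by linarith)
  have h5 := sn_sq (x := u.2.2.2) (by linarith)
  have h6 := cos_sq_add_sin_sq (π * u.2.1)
  rw [z2] at h2
  rw [z3] at h3
  have h7 : sn u.2.2.1 = 0 := by
    linear_combination cos (π * u.2.1) / 20 * h2 + sin (π * u.2.1) / 20 * h3 - sn u.2.2.1 * h6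
  have h8 : sn u.2.2.2 = 0 := by
    linear_combination cos (π * u.2.1) / 20 * h3 - sin (π * u.2.1) / 20 * h2 - sn u.2.2.2 * h6
  rw [h7] at h4
  rw [h8] at h5
  exact ⟨hm, by linarith, pow_eq_zero_iff two_ne_zero |>.1 (by rw [← sq]; linarith),
    pow_eq_zero_iff two_ne_zero |>.1 (by rw [← sq]; linarith)⟩

theorem reg_gh {u : R4} (h : imv (gh 0 u) = 0) :
    Function.Surjective (fderiv ℝ (fun u => imv (gh 0 u)) u) := by
  obtain ⟨hm, hz, hx, hy⟩ := RegA_zero h
  let S : R4 →L[ℝ] ℝ := ContinuousLinearMap.fst ℝ ℝ R3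
  let X : R4 →L[ℝ] ℝ := (ContinuousLinearMap.fst ℝ ℝ ℝ).comp
    ((ContinuousLinearMap.snd ℝ ℝ (ℝ × ℝ)).comp (ContinuousLinearMap.snd ℝ ℝ R3))
  let Y : R4 →L[ℝ] ℝ := (ContinuousLinearMap.snd ℝ ℝ ℝ).comp
    ((ContinuousLinearMap.snd ℝ ℝ (ℝ × ℝ)).comp (ContinuousLinearMap.snd ℝ ℝ R3))
  have dS : HasFDerivAt (fun v : R4 => v.1) S u := S.hasFDerivAt
  have dX : HasFDerivAt (fun v : R4 => v.2.2.1) X u := X.hasFDerivAt
  have dY : HasFDerivAt (fun v : R4 => v.2.2.2) Y u := Y.hasFDerivAt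
  have sx : sn u.2.2.1 = 0 := by rw [sn, hx, zero_mul]
  have sy : sn u.2.2.2 = 0 := by rw [sn, hy, zero_mul]
  have d1 : HasFDerivAt (fun v : R4 => sn v.2.2.1) (π • X) u :=
    ((RegA_sn hx).comp_hasFDerivAt u dX :)
  have d2 : HasFDerivAt (fun v : R4 => sn v.2.2.2) (π • Y) u :=
    ((RegA_sn hy).comp_hasFDerivAt u dY :)
  have dc : DifferentiableAt ℝ (fun v : R4 => cos (π * v.2.1)) u := by fun_prop
  have ds : DifferentiableAt ℝ (fun v : R4 => sin (π * v.2.1)) u := by fun_prop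
  have dz2 := ((RegA_mul dc d1 sx).fun_sub (RegA_mul ds d2 sy)).const_mul 10
  have dz3 := ((RegA_mul ds d1 sx).fun_add (RegA_mul dc d2 sy)).const_mul 10
  have dz0 : HasFDerivAt (z0 0) ((4 : ℝ) • S) u := ((dS.sub_const 0).sub_const (1 / 2)).const_mul 4
  have dm : HasFDerivAt (mu 0) ((8 * z0 0 u) • S) u := by
    refine ((dz0.pow 2).fun_add ((((RegA_sq hx).comp_hasFDerivAt u dX).fun_add
      ((RegA_sq hy).comp_hasFDerivAt u dY)).const_mul 100)).congr_fderiv ?_
    refine ContinuousLinearMap.ext fun v => ?_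
    simp
    ring
  have di : DifferentiableAt ℝ (fun v => (1 + mu 0 v)⁻¹) u :=
    (dm.differentiableAt.const_add 1).inv (by rw [hm]; norm_num)
  have d := (RegA_mul di (dm.const_sub 1) (by rw [hm, sub_self])).prodMk
    ((RegA_mul di (dz2.const_mul 2) (by simp [sx, sy])).prodMk
      (RegA_mul di (dz3.const_mul 2) (by simp [sx, sy])))
  rw [(d.congr_of_eventuallyEq ?_).fderiv]
  · rintro ⟨a, b, c⟩
    have h6 := cos_sq_add_sin_sq (π * u.2.1)
    have h7 := pi_ne_zero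
    refine ⟨(-(z0 0 u * a / 4), 0, (cos (π * u.2.1) * b + sin (π * u.2.1) * c) / (10 * π),
      (cos (π * u.2.1) * c - sin (π * u.2.1) * b) / (10 * π)), ?_⟩
    simp only [hm, S, X, Y, ContinuousLinearMap.prod_apply, smul_apply, neg_apply, sub_apply,
      add_apply, ContinuousLinearMap.comp_apply, ContinuousLinearMap.coe_fst',
      ContinuousLinearMap.coe_snd', smul_eq_mul, Prod.mk.injEq]
    refine ⟨by linear_combination a * hz, ?_, ?_⟩ <;> field_simp
    · linear_combination 2 * b * h6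
    · linear_combination 2 * c * h6
  · filter_upwards [dm.continuousAt.eventually_lt continuousAt_const
      (show mu 0 u < 2 by rw [hm]; norm_num)] with v hv
    have l2 : la 0 v = 1 := by rw [la, step_zero (by norm_num) hv.le, sub_zero]
    simp only [imv, gh, l2, one_pow, mul_one, div_eq_inv_mul, z2, z3]

end Vale.Agent.P265
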